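import Vale.Agent.P126.Sampling

/-!
P126: the core of the quadratic duality theorem, for a bilinear pairing `B : V × W → ℝ` and
symmetric convex sets `Y ⊆ V` (playing the role of `L°`) and `Z ⊆ W` (playing the role of `K`).
-/

namespace Vale.Agent.P126

open Finset

variable {V W : Type*} [AddCommGroup V] [Module ℝ V] [AddCommGroup W] [Module ℝ W]

/-- `z ∈ 2Z` and `z ∈ 256 σ Y°`. -/
def layer (B : V →ₗ[ℝ] W →ₗ[ℝ] ℝ) (Y : Set V) (Z : Set W) (σ : ℝ) : Set W :=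
  {z | (1 / 2 : ℝ) • z ∈ Z ∧ ∀ y ∈ Y, B y z ≤ 256 * σ}

/-- a sequence of pairs `(z_j, y_j)` such that `y_j` separates `z_j` from the previous `z_l`. -/
def Chain (B : V →ₗ[ℝ] W →ₗ[ℝ] ℝ) (Y : Set V) (Z : Set W) (σ : ℝ) (r : ℕ) : Prop :=
  ∃ (z : Fin r → W) (y : Fin r → V), (∀ j, z j ∈ layer B Y Z σ) ∧ (∀ j, y j ∈ Y) ∧
    ∀ l j, l < j → B (y j) (z l) + σ / 4 ≤ B (y j) (z j)

/-- the dual form: `z_l` separates `y_l` from the later `y_j`. -/
def DChain (B : V →ₗ[ℝ] W →ₗ[ℝ] ℝ) (Y : Set V) (Z : Set W) (σ : ℝ) (r : ℕ) : Prop :=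
  ∃ (z : Fin r → W) (y : Fin r → V), (∀ j, z j ∈ layer B Y Z σ) ∧ (∀ j, y j ∈ Y) ∧
    ∀ l j, l < j → σ / 8 ≤ B (y l - y j) (z l)

/-- symmetric convex sets containing the origin -/
structure SymConv {V : Type*} [AddCommGroup V] [Module ℝ V] (Y : Set V) : Prop where
  convex : Convex ℝ Y
  neg : ∀ y ∈ Y, -y ∈ Y
  zero : (0 : V) ∈ Y

lemma SymConv.smul_mem {Y : Set V} (hY : SymConv Y) {y : V} (hy : y ∈ Y) {a : ℝ} (ha0 : 0 ≤ a)
    (ha1 : a ≤ 1) : a • y ∈ Y := by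
  have := hY.convex hy hY.zero ha0 (by linarith : 0 ≤ 1 - a) (by ring)
  simpa using this

lemma SymConv.add_mem {Y : Set V} (hY : SymConv Y) {x y : V} (hx : x ∈ Y) (hy : y ∈ Y)
    {a b : ℝ} (ha0 : 0 ≤ a) (hb0 : 0 ≤ b) (hab : a + b ≤ 1) : a • x + b • y ∈ Y := by
  rcases eq_or_lt_of_le ha0 with h | h
  · rw [← h]; simp; exact hY.smul_mem hy hb0 (by linarith)
  · have hs : 0 < a + b := by linarith
    have h1 : (a / (a + b)) • x + (b / (a + b)) • y ∈ Y :=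
      hY.convex hx hy (by positivity) (by positivity) (by field_simp)
    have h2 := hY.smul_mem h1 hs.le hab
    rw [smul_add, smul_smul, smul_smul] at h2
    have e1 : (a + b) * (a / (a + b)) = a := by field_simp
    have e2 : (a + b) * (b / (a + b)) = b := by field_simp
    rwa [e1, e2] at h2

lemma layer_neg {B : V →ₗ[ℝ] W →ₗ[ℝ] ℝ} {Y : Set V} {Z : Set W} (hY : SymConv Y)
    (hZ : SymConv Z) {σ : ℝ} {z : W} (hz : z ∈ layer B Y Z σ) : -z ∈ layer B Y Z σ := by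
  refine ⟨by rw [smul_neg]; exact hZ.neg _ hz.1, fun y hy => ?_⟩
  have := hz.2 (-y) (hY.neg y hy)
  simpa using this

lemma layer_convex {B : V →ₗ[ℝ] W →ₗ[ℝ] ℝ} {Y : Set V} {Z : Set W}
    (hZ : SymConv Z) {σ : ℝ} : Convex ℝ (layer B Y Z σ) := by
  intro z hz w hw a b ha hb hab
  refine ⟨?_, fun y hy => ?_⟩
  · rw [smul_add, smul_comm, smul_comm (1 / 2 : ℝ) b w]
    exact hZ.convex hz.1 hw.1 ha hb hab
  · have h1 := hz.2 y hy
    have h2 := hw.2 y hy
    simp only [map_add, map_smul, smul_eq_mul]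
    have : 256 * σ = a * (256 * σ) + b * (256 * σ) := by rw [← add_mul, hab, one_mul]
    rw [this]
    gcongr

lemma layer_abs {B : V →ₗ[ℝ] W →ₗ[ℝ] ℝ} {Y : Set V} {Z : Set W} (hY : SymConv Y)
    {σ : ℝ} {z : W} (hz : z ∈ layer B Y Z σ) {y : V} (hy : y ∈ Y) : |B y z| ≤ 256 * σ := by
  rw [abs_le]
  constructor
  · have := hz.2 (-y) (hY.neg y hy)
    simp only [map_neg, LinearMap.neg_apply] at this
    linarith
  · exact hz.2 y hy

/-- Diagonal pigeonhole. -/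
lemma diag {B : V →ₗ[ℝ] W →ₗ[ℝ] ℝ} {Y : Set V} {Z : Set W} (hY : SymConv Y)
    {σ : ℝ} (hσ : 0 < σ) {r : ℕ} (h : Chain B Y Z σ r) :
    ∃ d, r ≤ 4097 * d ∧ DChain B Y Z σ d := by
  classical
  obtain ⟨z, y, hz, hy, hc⟩ := h
  set c : Fin r → ℕ := fun j => ⌊(B (y j) (z j) + 256 * σ) / (σ / 8)⌋₊ with hcdef
  have hmaps : ∀ j ∈ (Finset.univ : Finset (Fin r)), c j ∈ Finset.range 4097 := by
    intro j _
    rw [Finset.mem_range]
    have h1 := layer_abs hY (hz j) (hy j)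
    have h2 := (abs_le.mp h1).1
    have h3 := (abs_le.mp h1).2
    have h4 : (B (y j) (z j) + 256 * σ) / (σ / 8) ≤ 4096 := by
      rw [div_le_iff₀ (by positivity)]; linarith
    have h5 : c j ≤ 4096 := by
      have := Nat.floor_le_floor h4
      simpa [hcdef] using this
    omega
  obtain ⟨v, hv, hcard⟩ := Finset.exists_le_card_fiber_of_nsmul_le_card_of_maps_to
    (M := ℝ) (b := (r : ℝ) / 4097) hmaps ⟨0, by simp⟩ (by simp; linarith)
  set F := Finset.univ.filter (fun j => c j = v) with hF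
  have hr : r ≤ 4097 * F.card := by
    rw [div_le_iff₀ (by norm_num)] at hcard
    have : (r : ℝ) ≤ ((4097 * F.card : ℕ) : ℝ) := by
      push_cast; linarith
    exact_mod_cast this
  refine ⟨F.card, hr, ?_⟩
  set e := F.orderEmbOfFin rfl with he
  refine ⟨fun j => z (e j), fun j => y (e j), fun j => hz _, fun j => hy _, ?_⟩
  intro l j hlj
  have hlt : e l < e j := by
    exact (e.lt_iff_lt).mpr hlj
  have h1 := hc _ _ hlt
  have hl : c (e l) = v := (Finset.mem_filter.mp (F.orderEmbOfFin_mem rfl l)).2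
  have hj : c (e j) = v := (Finset.mem_filter.mp (F.orderEmbOfFin_mem rfl j)).2
  have h2 : B (y (e j)) (z (e j)) - σ / 8 ≤ B (y (e l)) (z (e l)) := by
    have a1 : (v : ℝ) ≤ (B (y (e l)) (z (e l)) + 256 * σ) / (σ / 8) := by
      rw [← hl]
      apply Nat.floor_le
      have h4 := (abs_le.mp (layer_abs hY (hz (e l)) (hy (e l)))).1
      apply div_nonneg (by linarith) (by positivity)
    have a2 : (B (y (e j)) (z (e j)) + 256 * σ) / (σ / 8) < v + 1 := by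
      rw [← hj]
      exact Nat.lt_floor_add_one _
    rw [le_div_iff₀ (by positivity)] at a1
    rw [div_lt_iff₀ (by positivity)] at a2
    linarith
  simp only [map_sub, LinearMap.sub_apply]
  linarith

/-- A family of `m` points of `Y`, separated (after scaling by `128^{-i}`) by points of `2Z`. -/
def SepFam (B : V →ₗ[ℝ] W →ₗ[ℝ] ℝ) (Y : Set V) (Z : Set W) (i m : ℕ) : Prop :=
  ∃ g : Fin m → V, (∀ a, g a ∈ Y) ∧ ∀ a b, a ≠ b → ∃ z : W, (1 / 2 : ℝ) • z ∈ Z ∧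
    1 / 32 ≤ (1 / 128 : ℝ) ^ i * B (g a - g b) z

lemma sepFam_one (B : V →ₗ[ℝ] W →ₗ[ℝ] ℝ) {Y : Set V} (Z : Set W) (hY : SymConv Y) (i : ℕ) :
    SepFam B Y Z i 1 :=
  ⟨fun _ => 0, fun _ => hY.zero, fun a b hab => absurd (Subsingleton.elim a b) hab⟩

lemma sepFam_step {B : V →ₗ[ℝ] W →ₗ[ℝ] ℝ} {Y : Set V} {Z : Set W} (hY : SymConv Y)
    (hZ : SymConv Z) {i d m : ℕ} (hd : DChain B Y Z ((128 : ℝ) ^ i) d)
    (hm : SepFam B Y Z (i + 2) m) : SepFam B Y Z i (d * m) := by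
  obtain ⟨z, y, hz, hy, hc⟩ := hd
  obtain ⟨g, hg, hs⟩ := hm
  set G : Fin d × Fin m → V := fun q => (1 / 2 : ℝ) • y q.1 + (1 / 128 : ℝ) ^ 2 • g q.2 with hG
  have hGY : ∀ q, G q ∈ Y := fun q =>
    hY.add_mem (hy q.1) (hg q.2) (by norm_num) (by norm_num) (by norm_num)
  have key : ∀ q q' : Fin d × Fin m, q.1 < q'.1 →
      1 / 32 ≤ (1 / 128 : ℝ) ^ i * B (G q - G q') (z q.1) := by
    intro q q' hlt
    have h1 := hc _ _ hlt
    have h2 := (abs_le.mp (layer_abs hY (hz q.1) (hg q.2))).1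
    have h3 := (abs_le.mp (layer_abs hY (hz q.1) (hg q'.2))).2
    have e1 : B (G q - G q') (z q.1) = (1 / 2) * B (y q.1 - y q'.1) (z q.1)
        + (1 / 128) ^ 2 * (B (g q.2) (z q.1) - B (g q'.2) (z q.1)) := by
      simp only [hG, map_sub, map_add, map_smul, LinearMap.sub_apply, LinearMap.add_apply,
        LinearMap.smul_apply, smul_eq_mul]
      ring
    have e2 : (128 : ℝ) ^ i / 16 - (1 / 128) ^ 2 * (512 * (128 : ℝ) ^ i)
        ≤ B (G q - G q') (z q.1) := by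
      rw [e1]
      nlinarith
    have e3 : (1 / 128 : ℝ) ^ i * (128 : ℝ) ^ i = 1 := by
      rw [← mul_pow]; norm_num
    have e4 : (0 : ℝ) < (1 / 128 : ℝ) ^ i := by positivity
    calc (1 / 32 : ℝ) = (1 / 32) * ((1 / 128 : ℝ) ^ i * (128 : ℝ) ^ i) := by rw [e3]; ring
      _ = (1 / 128 : ℝ) ^ i * ((128 : ℝ) ^ i / 16 - (1 / 128) ^ 2 * (512 * (128 : ℝ) ^ i)) := by
          ring
      _ ≤ _ := mul_le_mul_of_nonneg_left e2 e4.le
  have sep : ∀ q q' : Fin d × Fin m, q ≠ q' → ∃ w : W, (1 / 2 : ℝ) • w ∈ Z ∧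
      1 / 32 ≤ (1 / 128 : ℝ) ^ i * B (G q - G q') w := by
    intro q q' hne
    rcases lt_trichotomy q.1 q'.1 with h | h | h
    · exact ⟨z q.1, (hz q.1).1, key q q' h⟩
    · have h2 : q.2 ≠ q'.2 := by
        intro h2
        exact hne (Prod.ext h h2)
      obtain ⟨w, hw, hw2⟩ := hs _ _ h2
      refine ⟨w, hw, ?_⟩
      have e1 : B (G q - G q') w = (1 / 128) ^ 2 * B (g q.2 - g q'.2) w := by
        simp only [hG, h, map_sub, map_add, map_smul, LinearMap.sub_apply, LinearMap.add_apply,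
          LinearMap.smul_apply, smul_eq_mul]
        ring
      rw [e1, ← mul_assoc, ← pow_add]
      exact hw2
    · refine ⟨-z q'.1, (layer_neg hY hZ (hz q'.1)).1, ?_⟩
      have := key q' q h
      have e1 : B (G q - G q') (-z q'.1) = B (G q' - G q) (z q'.1) := by
        simp only [map_sub, map_neg, LinearMap.sub_apply]
        ring
      rw [e1]
      exact this
  refine ⟨fun a => G (finProdFinEquiv.symm a), fun a => hGY _, fun a b hab => ?_⟩
  exact sep _ _ (fun h => hab (finProdFinEquiv.symm.injective h))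

lemma sepFam_prod {B : V →ₗ[ℝ] W →ₗ[ℝ] ℝ} {Y : Set V} {Z : Set W} (hY : SymConv Y)
    (hZ : SymConv Z) (d : ℕ → ℕ) (hd : ∀ i, DChain B Y Z ((128 : ℝ) ^ i) (d i)) (T : ℕ) :
    ∀ i, SepFam B Y Z i (∏ t ∈ Finset.range T, d (i + 2 * t)) := by
  induction T with
  | zero => intro i; simpa using sepFam_one B Z hY i
  | succ T ih =>
    intro i
    rw [Finset.prod_range_succ']
    have h1 := ih (i + 2)
    have h2 := sepFam_step hY hZ (hd i) h1
    have e : (∏ k ∈ Finset.range T, d (i + 2 * (k + 1))) * d (i + 2 * 0)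
        = d i * ∏ t ∈ Finset.range T, d (i + 2 + 2 * t) := by
      rw [mul_comm]
      congr 1
      apply Finset.prod_congr rfl
      intro t _
      congr 1
      ring
    rw [e]
    exact h2

/-- Separated families inject into any net. -/
lemma sepFam_card {B : V →ₗ[ℝ] W →ₗ[ℝ] ℝ} {Y : Set V} {Z : Set W} (hY : SymConv Y)
    (hZ : SymConv Z) (t : Finset V) (ht : ∀ y ∈ Y, ∃ w ∈ t, ∀ z ∈ Z, B (y - w) z ≤ 1 / 256)
    {i m : ℕ} (h : SepFam B Y Z i m) : m ≤ t.card := by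
  classical
  obtain ⟨g, hg, hs⟩ := h
  have hQ0 : (0 : ℝ) ≤ (1 / 128 : ℝ) ^ i := by positivity
  have hQ1 : (1 / 128 : ℝ) ^ i ≤ 1 := pow_le_one₀ (by norm_num) (by norm_num)
  have h1 : ∀ a, ∃ w ∈ t, ∀ z ∈ Z, B ((1 / 128 : ℝ) ^ i • g a - w) z ≤ 1 / 256 :=
    fun a => ht _ (hY.smul_mem (hg a) hQ0 hQ1)
  choose φ hφt hφ using h1
  have hinj : Function.Injective φ := by
    intro a b hab
    by_contra hne
    obtain ⟨z, hz, hz2⟩ := hs a b hne
    have a1 := hφ a _ hz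
    have a2 := hφ b _ (hZ.neg _ hz)
    rw [hab] at a1
    simp only [map_sub, map_smul, map_neg, LinearMap.sub_apply, LinearMap.smul_apply,
      smul_eq_mul] at a1 a2 hz2
    nlinarith
  have := Finset.card_le_card_of_injOn (s := Finset.univ) (t := t) φ (fun a _ => hφt a)
    (fun a _ b _ hab => hinj hab)
  simpa using this

/-- The product bound. -/
lemma prod_bound {B : V →ₗ[ℝ] W →ₗ[ℝ] ℝ} {Y : Set V} {Z : Set W} (hY : SymConv Y)
    (hZ : SymConv Z) (t : Finset V) (ht : ∀ y ∈ Y, ∃ w ∈ t, ∀ z ∈ Z, B (y - w) z ≤ 1 / 256)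
    (d : ℕ → ℕ) (hd : ∀ i, DChain B Y Z ((128 : ℝ) ^ i) (d i)) (T : ℕ) :
    ∏ i ∈ Finset.range (2 * T), d i ≤ t.card ^ 2 := by
  have e : ∀ T : ℕ, ∏ i ∈ Finset.range (2 * T), d i
      = (∏ i ∈ Finset.range T, d (0 + 2 * i)) * ∏ i ∈ Finset.range T, d (1 + 2 * i) := by
    intro T
    induction T with
    | zero => simp
    | succ T ih =>
      rw [show 2 * (T + 1) = 2 * T + 1 + 1 by ring, Finset.prod_range_succ,
        Finset.prod_range_succ, ih, Finset.prod_range_succ, Finset.prod_range_succ]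
      rw [show 0 + 2 * T = 2 * T by ring, show 1 + 2 * T = 2 * T + 1 by ring]
      ring
  rw [e T, sq]
  exact Nat.mul_le_mul (sepFam_card hY hZ t ht (sepFam_prod hY hZ d hd T 0))
    (sepFam_card hY hZ t ht (sepFam_prod hY hZ d hd T 1))

/-- Boundedness of the pairing. -/
lemma pairing_bound {B : V →ₗ[ℝ] W →ₗ[ℝ] ℝ} {Y : Set V} {Z : Set W} (hY : SymConv Y)
    (hZ : SymConv Z) (t : Finset V) (ht : ∀ y ∈ Y, ∃ w ∈ t, ∀ z ∈ Z, B (y - w) z ≤ 1 / 256)
    {y : V} (hy : y ∈ Y) {z : W} (hz : z ∈ Z) : B y z ≤ t.card / 128 := by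
  classical
  set k := t.card with hk
  have hkpos : 0 < k := by
    obtain ⟨w, hw, _⟩ := ht 0 hY.zero
    exact Finset.card_pos.mpr ⟨w, hw⟩
  have hkR : (0 : ℝ) < k := by exact_mod_cast hkpos
  have h1 : ∀ j : Fin (k + 1), ∃ w ∈ t, ∀ z ∈ Z, B (((j : ℕ) / (k : ℝ)) • y - w) z ≤ 1 / 256 := by
    intro j
    apply ht
    apply hY.smul_mem hy (by positivity)
    rw [div_le_one hkR]
    exact_mod_cast Nat.lt_succ_iff.mp j.2
  choose φ hφt hφ using h1
  obtain ⟨a, -, b, -, hab, hφab⟩ := Finset.exists_ne_map_eq_of_card_lt_of_maps_to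
    (s := (Finset.univ : Finset (Fin (k + 1)))) (t := t) (by simp [← hk]) (f := φ)
    (fun a _ => hφt a)
  wlog hlt : a < b generalizing a b
  · exact this b a (Ne.symm hab) hφab.symm (lt_of_le_of_ne (not_lt.mp hlt) (Ne.symm hab))
  have a1 := hφ b z hz
  have a2 := hφ a _ (hZ.neg _ hz)
  rw [← hφab] at a1
  simp only [map_sub, map_smul, map_neg, LinearMap.sub_apply, LinearMap.smul_apply,
      smul_eq_mul] at a1 a2
  have a3 : (((b : ℕ) : ℝ) - (a : ℕ)) / k * B y z ≤ 1 / 128 := by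
    have : (((b : ℕ) : ℝ) - (a : ℕ)) / k * B y z = (b : ℕ) / k * B y z - (a : ℕ) / k * B y z := by
      ring
    rw [this]; linarith
  have a4 : (1 : ℝ) ≤ ((b : ℕ) : ℝ) - (a : ℕ) := by
    have : (a : ℕ) + 1 ≤ (b : ℕ) := hlt
    have : (((a : ℕ) + 1 : ℕ) : ℝ) ≤ ((b : ℕ) : ℝ) := by exact_mod_cast this
    push_cast at this
    linarith
  by_contra hcon
  push Not at hcon
  have a5 : (0 : ℝ) < B y z := lt_of_le_of_lt (by positivity) hcon
  have a6 : 1 / k * B y z ≤ (((b : ℕ) : ℝ) - (a : ℕ)) / k * B y z := by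
    apply mul_le_mul_of_nonneg_right _ a5.le
    exact div_le_div_of_nonneg_right a4 hkR.le
  have a7 : 1 / (k : ℝ) * B y z > 1 / 128 := by
    have := mul_lt_mul_of_pos_left hcon (by positivity : (0 : ℝ) < 1 / k)
    calc (1 / 128 : ℝ) = 1 / k * (k / 128) := by field_simp
      _ < _ := this
  linarith

end Vale.Agent.P126
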