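import Vale.Agent.P126.Defs
import Vale.Agent.P126.Core

/-!
P126, near-linear duality, part 1: the potential `L(q) = log ∑_{x ∈ X} exp B(q, x)` of a finite
set `X`: Lipschitz bound, convexity along rays, second order bound, and the Markov inequality.
-/

namespace Vale.Agent.P126.AL

open Finset

variable {V W : Type*} [AddCommGroup V] [Module ℝ V] [AddCommGroup W] [Module ℝ W]

/-- The partition function. -/
noncomputable def Zf (B : V →ₗ[ℝ] W →ₗ[ℝ] ℝ) (X : Finset W) (q : V) : ℝ :=
  ∑ x ∈ X, Real.exp (B q x)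

/-- The potential. -/
noncomputable def Lf (B : V →ₗ[ℝ] W →ₗ[ℝ] ℝ) (X : Finset W) (q : V) : ℝ :=
  Real.log (Zf B X q)

variable {B : V →ₗ[ℝ] W →ₗ[ℝ] ℝ} {X : Finset W}

lemma Zf_pos (hX : X.Nonempty) (q : V) : 0 < Zf B X q :=
  Finset.sum_pos (fun _ _ => Real.exp_pos _) hX

lemma exp_Lf (hX : X.Nonempty) (q : V) : Real.exp (Lf B X q) = Zf B X q :=
  Real.exp_log (Zf_pos hX q)

lemma Zf_add (q u : V) : Zf B X (q + u) = ∑ x ∈ X, Real.exp (B q x) * Real.exp (B u x) := by
  unfold Zf
  refine Finset.sum_congr rfl fun x _ => ?_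
  rw [map_add, LinearMap.add_apply, Real.exp_add]

lemma Lf_lip (hX : X.Nonempty) (q u : V) {c : ℝ} (h : ∀ x ∈ X, B u x ≤ c) :
    Lf B X (q + u) ≤ Lf B X q + c := by
  have h1 : Zf B X (q + u) ≤ Zf B X q * Real.exp c := by
    rw [Zf_add]
    unfold Zf
    rw [Finset.sum_mul]
    exact Finset.sum_le_sum fun x hx =>
      mul_le_mul_of_nonneg_left (Real.exp_le_exp.mpr (h x hx)) (Real.exp_pos _).le
  unfold Lf
  calc Real.log (Zf B X (q + u)) ≤ Real.log (Zf B X q * Real.exp c) :=
        Real.log_le_log (Zf_pos hX _) h1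
    _ = Real.log (Zf B X q) + c := by
        rw [Real.log_mul (Zf_pos hX q).ne' (Real.exp_pos c).ne', Real.log_exp]

lemma exp_mul_le {θ : ℝ} (h0 : 0 ≤ θ) (h1 : θ ≤ 1) (a : ℝ) :
    Real.exp (θ * a) ≤ θ * Real.exp a + (1 - θ) := by
  have := convexOn_exp.2 (Set.mem_univ a) (Set.mem_univ 0) h0 (by linarith : 0 ≤ 1 - θ) (by ring)
  simpa using this

/-- Convexity along rays. -/
lemma Lf_convex (hX : X.Nonempty) (q u : V) {θ : ℝ} (h0 : 0 ≤ θ) (h1 : θ ≤ 1) :
    Lf B X (q + θ • u) - Lf B X q ≤ θ * (Lf B X (q + u) - Lf B X q) := by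
  set A := Lf B X (q + u) - Lf B X q with hA
  have hZA : Zf B X (q + u) = Real.exp A * Zf B X q := by
    rw [← exp_Lf hX (q + u), ← exp_Lf hX q, ← Real.exp_add, hA]
    congr 1; ring
  have key : Zf B X (q + θ • u) * Real.exp (-(θ * A)) ≤ Zf B X q := by
    calc Zf B X (q + θ • u) * Real.exp (-(θ * A))
        = ∑ x ∈ X, Real.exp (B q x) * Real.exp (θ * (B u x - A)) := by
          rw [Zf_add, Finset.sum_mul]
          refine Finset.sum_congr rfl fun x _ => ?_
          rw [mul_assoc, ← Real.exp_add]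
          congr 2
          rw [map_smul, LinearMap.smul_apply, smul_eq_mul]
          ring
      _ ≤ ∑ x ∈ X, Real.exp (B q x) * (θ * Real.exp (B u x - A) + (1 - θ)) :=
          Finset.sum_le_sum fun x _ =>
            mul_le_mul_of_nonneg_left (exp_mul_le h0 h1 _) (Real.exp_pos _).le
      _ = θ * Real.exp (-A) * Zf B X (q + u) + (1 - θ) * Zf B X q := by
          rw [Zf_add]
          unfold Zf
          rw [Finset.mul_sum, Finset.mul_sum, ← Finset.sum_add_distrib]
          refine Finset.sum_congr rfl fun x _ => ?_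
          rw [sub_eq_add_neg, Real.exp_add]
          ring
      _ = Zf B X q := by
          rw [hZA]
          have : Real.exp (-A) * Real.exp A = 1 := by
            rw [← Real.exp_add]; simp
          linear_combination θ * Zf B X q * this
  have h2 := Real.log_le_log (mul_pos (Zf_pos hX _) (Real.exp_pos _)) key
  rw [Real.log_mul (Zf_pos hX _).ne' (Real.exp_pos _).ne', Real.log_exp] at h2
  unfold Lf at hA ⊢
  linarith

lemma Lf_quad_aux (hX : X.Nonempty) (q u : V) {b m : ℝ} (hb0 : 0 ≤ b) (hb : b ≤ 1 / 2)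
    (h : ∀ x ∈ X, |B u x - m| ≤ 2 * b)
    (hm : ∑ x ∈ X, Real.exp (B q x) * (B u x - m) = 0) :
    Lf B X (q + u) ≤ Lf B X q + m + 4 * b ^ 2 := by
  have key : Zf B X (q + u) ≤ Zf B X q * Real.exp (m + 4 * b ^ 2) := by
    have h1 : ∀ x ∈ X, Real.exp (B q x) * Real.exp (B u x - m) ≤
        Real.exp (B q x) * (1 + 4 * b ^ 2) + Real.exp (B q x) * (B u x - m) := by
      intro x hx
      rw [← mul_add]
      apply mul_le_mul_of_nonneg_left _ (Real.exp_pos _).le
      have h2 : |B u x - m| ≤ 1 := (h x hx).trans (by linarith)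
      have h3 := Real.abs_exp_sub_one_sub_id_le h2
      have h4 := (abs_le.mp h3).2
      have h5 : (B u x - m) ^ 2 ≤ (2 * b) ^ 2 := by
        rw [← sq_abs]
        exact pow_le_pow_left₀ (abs_nonneg _) (h x hx) 2
      nlinarith
    have h6 : ∑ x ∈ X, Real.exp (B q x) * Real.exp (B u x - m) ≤
        Zf B X q * (1 + 4 * b ^ 2) := by
      refine (Finset.sum_le_sum h1).trans (le_of_eq ?_)
      rw [Finset.sum_add_distrib, hm, add_zero, ← Finset.sum_mul]
      rfl
    have h7 : Zf B X (q + u) = (∑ x ∈ X, Real.exp (B q x) * Real.exp (B u x - m)) *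
        Real.exp m := by
      rw [Zf_add, Finset.sum_mul]
      refine Finset.sum_congr rfl fun x _ => ?_
      rw [mul_assoc, ← Real.exp_add (B u x - m)]
      congr 2
      ring
    rw [h7, Real.exp_add, ← mul_assoc, mul_right_comm]
    apply mul_le_mul_of_nonneg_right _ (Real.exp_pos _).le
    have h8 : 1 + 4 * b ^ 2 ≤ Real.exp (4 * b ^ 2) := by
      have := Real.add_one_le_exp (4 * b ^ 2)
      linarith
    exact h6.trans (mul_le_mul_of_nonneg_left h8 (Zf_pos hX q).le)
  unfold Lf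
  calc Real.log (Zf B X (q + u)) ≤ Real.log (Zf B X q * Real.exp (m + 4 * b ^ 2)) :=
        Real.log_le_log (Zf_pos hX _) key
    _ = Real.log (Zf B X q) + m + 4 * b ^ 2 := by
        rw [Real.log_mul (Zf_pos hX q).ne' (Real.exp_pos _).ne', Real.log_exp]
        ring

/-- Second order bound. -/
lemma Lf_quad (hX : X.Nonempty) (q u : V) {b : ℝ} (hb0 : 0 ≤ b) (hb : b ≤ 1 / 2)
    (h : ∀ x ∈ X, |B u x| ≤ b) :
    Lf B X (q + u) + Lf B X (q + -u) ≤ 2 * Lf B X q + 8 * b ^ 2 := by
  have hZ := Zf_pos (B := B) hX q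
  set m := (∑ x ∈ X, Real.exp (B q x) * B u x) / Zf B X q with hm
  have hmZ : m * Zf B X q = ∑ x ∈ X, Real.exp (B q x) * B u x := by
    rw [hm]; field_simp
  have hmabs : |m| ≤ b := by
    rw [hm, abs_div, abs_of_pos hZ, div_le_iff₀ hZ]
    calc |∑ x ∈ X, Real.exp (B q x) * B u x| ≤ ∑ x ∈ X, |Real.exp (B q x) * B u x| :=
          Finset.abs_sum_le_sum_abs _ _
      _ ≤ ∑ x ∈ X, Real.exp (B q x) * b := by
          refine Finset.sum_le_sum fun x hx => ?_
          rw [abs_mul, abs_of_pos (Real.exp_pos _)]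
          exact mul_le_mul_of_nonneg_left (h x hx) (Real.exp_pos _).le
      _ = b * Zf B X q := by
          rw [← Finset.sum_mul, mul_comm]; rfl
  have hsum : ∑ x ∈ X, Real.exp (B q x) * (B u x - m) = 0 := by
    have : ∀ x ∈ X, Real.exp (B q x) * (B u x - m) =
        Real.exp (B q x) * B u x - Real.exp (B q x) * m := fun x _ => by ring
    rw [Finset.sum_congr rfl this, Finset.sum_sub_distrib, ← Finset.sum_mul, ← hmZ]
    unfold Zf
    ring
  have h1 := Lf_quad_aux hX q u hb0 hb (m := m) (fun x hx => by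
    calc |B u x - m| ≤ |B u x| + |m| := abs_sub _ _
      _ ≤ 2 * b := by linarith [h x hx]) hsum
  have h2 := Lf_quad_aux (B := B) hX q (-u) hb0 hb (m := -m) (fun x hx => by
    rw [map_neg, LinearMap.neg_apply, sub_neg_eq_add, neg_add_eq_sub, abs_sub_comm]
    calc |B u x - m| ≤ |B u x| + |m| := abs_sub _ _
      _ ≤ 2 * b := by linarith [h x hx]) (by
    have : ∀ x ∈ X, Real.exp (B q x) * (B (-u) x - -m) =
        -(Real.exp (B q x) * (B u x - m)) := fun x _ => by
      rw [map_neg, LinearMap.neg_apply]; ring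
    rw [Finset.sum_congr rfl this, Finset.sum_neg_distrib, hsum, neg_zero])
  linarith

/-- Markov's inequality. -/
lemma markov (u : V) (r : ℝ) (P : W → Prop) [DecidablePred P]
    (hP : ∀ x ∈ X, P x → r ≤ B u x - (Lf B X u - Lf B X 0)) :
    ((X.filter P).card : ℝ) * Real.exp r ≤ X.card := by
  classical
  rcases X.eq_empty_or_nonempty with h0 | hX
  · subst h0; simp
  have h1 : ((X.filter P).card : ℝ) * Real.exp (r + (Lf B X u - Lf B X 0)) ≤
      Real.exp (Lf B X u) := by
    rw [exp_Lf hX]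
    calc ((X.filter P).card : ℝ) * Real.exp (r + (Lf B X u - Lf B X 0))
        = ∑ x ∈ X.filter P, Real.exp (r + (Lf B X u - Lf B X 0)) := by
          rw [Finset.sum_const, nsmul_eq_mul]
      _ ≤ ∑ x ∈ X.filter P, Real.exp (B u x) := by
          refine Finset.sum_le_sum fun x hx => Real.exp_le_exp.mpr ?_
          have := hP x (Finset.mem_filter.mp hx).1 (Finset.mem_filter.mp hx).2
          linarith
      _ ≤ Zf B X u :=
          Finset.sum_le_sum_of_subset_of_nonneg (Finset.filter_subset _ _)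
            (fun _ _ _ => (Real.exp_pos _).le)
  have h2 : Real.exp (Lf B X 0) = X.card := by
    rw [exp_Lf hX]
    unfold Zf
    simp
  have h3 : Real.exp (r + (Lf B X u - Lf B X 0)) =
      Real.exp r * Real.exp (Lf B X u) / Real.exp (Lf B X 0) := by
    rw [← Real.exp_add, ← Real.exp_sub]
    congr 1
    ring
  have hpos := Real.exp_pos (Lf B X u)
  have hpos0 := Real.exp_pos (Lf B X 0)
  rw [h3, mul_div_assoc', div_le_iff₀ hpos0, h2] at h1
  have h4 : ((X.filter P).card : ℝ) * Real.exp r * Real.exp (Lf B X u) ≤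
      X.card * Real.exp (Lf B X u) := by
    linarith
  exact le_of_mul_le_mul_right h4 hpos

end Vale.Agent.P126.AL
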