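import Vale.Agent.P126.AL1

/-!
P126, near-linear duality, part 2: the staged potential argument, giving the bound on the size of
a separated set in one layer.
-/

namespace Vale.Agent.P126.AL

open Finset

variable {V W : Type*} [AddCommGroup V] [Module ℝ V] [AddCommGroup W] [Module ℝ W]

/-- The gain of the functional `β s` at the point `x`, with tolerance `τ`. -/
noncomputable def gain (B : V →ₗ[ℝ] W →ₗ[ℝ] ℝ) (X : Finset W) (τ : ℝ) (q : V) (x : W)
    (β : ℝ) (s : V) : ℝ :=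
  β * B s x - τ * β - (Lf B X (q + β • s) - Lf B X q)

/-- All gains at `x` are at most `R`. -/
def Good (B : V →ₗ[ℝ] W →ₗ[ℝ] ℝ) (X : Finset W) (Y : Set V) (q : V) (τ R : ℝ) (x : W) : Prop :=
  ∀ β : ℝ, 0 ≤ β → ∀ s ∈ Y, gain B X τ q x β s ≤ R

variable {B : V →ₗ[ℝ] W →ₗ[ℝ] ℝ} {X : Finset W} {Y : Set V}

lemma gain_zero (τ : ℝ) (q : V) (x : W) (s : V) : gain B X τ q x 0 s = 0 := by
  unfold gain; simp

lemma Good.nonneg (hY : SymConv Y) {q : V} {τ R : ℝ} {x : W} (h : Good B X Y q τ R x) :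
    0 ≤ R := by
  have := h 0 le_rfl 0 hY.zero
  rwa [gain_zero] at this

lemma Good.mono {q : V} {τ R R' : ℝ} {x : W} (h : Good B X Y q τ R x) (hR : R ≤ R') :
    Good B X Y q τ R' x := fun β hβ s hs => (h β hβ s hs).trans hR

/-- Superadditivity of the gains. -/
lemma Good.shift (hY : SymConv Y) {q : V} {τ R : ℝ} {x : W} (h : Good B X Y q τ R x)
    {β₁ : ℝ} (hβ₁ : 0 ≤ β₁) {s₁ : V} (hs₁ : s₁ ∈ Y) :
    Good B X Y (q + β₁ • s₁) τ (R - gain B X τ q x β₁ s₁) x := by
  intro β hβ s hs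
  rcases eq_or_lt_of_le (add_nonneg hβ₁ hβ) with h0 | hpos
  · have e1 : β = 0 := by linarith
    have e2 : β₁ = 0 := by linarith
    subst e1; subst e2
    rw [gain_zero, gain_zero, sub_zero]
    exact h.nonneg hY
  · set s' : V := (β₁ / (β₁ + β)) • s₁ + (β / (β₁ + β)) • s with hs'
    have hs'Y : s' ∈ Y :=
      hY.convex hs₁ hs (by positivity) (by positivity) (by field_simp)
    have e : (β₁ + β) • s' = β₁ • s₁ + β • s := by
      rw [hs', smul_add, smul_smul, smul_smul]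
      congr 2 <;> field_simp
    have h1 := h (β₁ + β) hpos.le s' hs'Y
    have e2 : (β₁ + β) * B s' x = β₁ * B s₁ x + β * B s x := by
      have := congrArg (fun v => B v x) e
      simpa using this
    unfold gain at h1 ⊢
    rw [e, e2] at h1
    rw [add_assoc]
    linarith

/-- If `x` is not good at tolerance `τ + 2γ`, then one of finitely many net functionals has a
substantial gain at tolerance `τ`. -/
lemma net_step (hX : X.Nonempty) (hY : SymConv Y) {t : Finset V} (htY : ∀ w ∈ t, w ∈ Y)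
    {δ γ D : ℝ} (hδ : 2 * δ ≤ γ) (hγ : 0 < γ) (hD : 0 < D)
    (hBD : ∀ y ∈ Y, ∀ x ∈ X, |B y x| ≤ D)
    (hnet : ∀ s ∈ Y, ∃ w ∈ t, ∀ x ∈ X, |B (s - w) x| ≤ δ) {M : ℕ} (hM : 4 * D / γ ≤ M)
    {q : V} {τ r : ℝ} {x : W} (hτ : 0 ≤ τ) (hr : 0 < r) (hx : x ∈ X)
    (hbad : ¬ Good B X Y q (τ + 2 * γ) r x) :
    ∃ i ∈ Finset.range (M + 1), ∃ w ∈ t, r / 2 ≤ gain B X τ q x (i * (r / (4 * D))) w := by
  unfold Good at hbad
  push Not at hbad
  obtain ⟨β, hβ, s, hs, hg⟩ := hbad
  -- β is positive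
  have hβ0 : 0 < β := by
    rcases eq_or_lt_of_le hβ with h | h
    · rw [← h, gain_zero] at hg; linarith
    · exact h
  -- reduce to β₁ ≤ r / γ
  obtain ⟨β₁, hβ₁0, hβ₁, hg1⟩ : ∃ β₁ : ℝ, 0 ≤ β₁ ∧ β₁ ≤ r / γ ∧
      r ≤ gain B X (τ + γ) q x β₁ s := by
    rcases le_total β (r / γ) with h | h
    · refine ⟨β, hβ, h, ?_⟩
      unfold gain at hg ⊢
      have : 0 ≤ γ * β := by positivity
      linarith
    · refine ⟨r / γ, by positivity, le_rfl, ?_⟩
      set θ := (r / γ) / β with hθ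
      have hθ0 : 0 ≤ θ := by positivity
      have hθ1 : θ ≤ 1 := by rw [hθ, div_le_one hβ0]; exact h
      have hθβ : θ * β = r / γ := by rw [hθ]; field_simp
      have h1 := Lf_convex (B := B) hX q (β • s) hθ0 hθ1
      rw [smul_smul, hθβ] at h1
      unfold gain at hg ⊢
      have h2 : θ * r ≤ θ * (β * B s x - (τ + 2 * γ) * β - (Lf B X (q + β • s) - Lf B X q)) :=
        mul_le_mul_of_nonneg_left hg.le hθ0
      have h3 : θ * (β * B s x - (τ + 2 * γ) * β - (Lf B X (q + β • s) - Lf B X q)) =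
          (r / γ) * B s x - (τ + 2 * γ) * (r / γ) -
            θ * (Lf B X (q + β • s) - Lf B X q) := by
        rw [← hθβ]; ring
      have h4 : 0 ≤ θ * r := by positivity
      have h5 : γ * (r / γ) = r := by field_simp
      rw [h3] at h2
      nlinarith
  -- pass to the net
  obtain ⟨w, hw, hwn⟩ := hnet s hs
  have hg2 : r ≤ gain B X τ q x β₁ w := by
    have a1 := (abs_le.mp (hwn x hx)).2
    have a2 : Lf B X (q + β₁ • w) ≤ Lf B X (q + β₁ • s) + β₁ * δ := by
      have e : q + β₁ • w = (q + β₁ • s) + β₁ • (w - s) := by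
        rw [smul_sub]; abel
      rw [e]
      apply Lf_lip hX
      intro z hz
      rw [map_smul, LinearMap.smul_apply, smul_eq_mul]
      apply mul_le_mul_of_nonneg_left _ hβ₁0
      have := (abs_le.mp (hwn z hz)).1
      rw [map_sub, LinearMap.sub_apply] at this ⊢
      linarith
    have a3 : β₁ * (B s x - B w x) ≤ β₁ * δ := by
      apply mul_le_mul_of_nonneg_left _ hβ₁0
      rwa [map_sub, LinearMap.sub_apply] at a1
    have a4 : β₁ * (2 * δ) ≤ β₁ * γ := mul_le_mul_of_nonneg_left hδ hβ₁0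
    unfold gain at hg1 ⊢
    nlinarith
  -- quantise
  set h := r / (4 * D) with hh
  have hh0 : 0 < h := by positivity
  set i := ⌊β₁ / h⌋₊ with hi
  have hi1 : (i : ℝ) * h ≤ β₁ := by
    have := Nat.floor_le (by positivity : 0 ≤ β₁ / h)
    rwa [le_div_iff₀ hh0] at this
  have hi2 : β₁ ≤ i * h + h := by
    have := (Nat.lt_floor_add_one (β₁ / h)).le
    rw [div_le_iff₀ hh0] at this
    linarith
  refine ⟨i, ?_, w, hw, ?_⟩
  · rw [Finset.mem_range, Nat.lt_succ_iff]
    have h1 : (i : ℝ) ≤ β₁ / h := by rwa [le_div_iff₀ hh0]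
    have h2 : β₁ / h ≤ (r / γ) / h := by gcongr
    have h3 : (r / γ) / h = 4 * D / γ := by rw [hh]; field_simp
    have h4 : (i : ℝ) ≤ M := by linarith
    exact_mod_cast h4
  · have b1 : Lf B X (q + ((i : ℝ) * h) • w) ≤ Lf B X (q + β₁ • w) + h * D := by
      have e : q + ((i : ℝ) * h) • w = (q + β₁ • w) + ((i : ℝ) * h - β₁) • w := by
        rw [sub_smul]; abel
      rw [e]
      apply Lf_lip hX
      intro z hz
      rw [map_smul, LinearMap.smul_apply, smul_eq_mul]
      have c1 := abs_le.mp (hBD w (htY w hw) z hz)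
      have c2 : 0 ≤ β₁ - i * h := by linarith
      have c3 : β₁ - i * h ≤ h := by linarith
      nlinarith [c1.1, c1.2]
    have b2 : (β₁ - i * h) * B w x ≤ h * D := by
      have c1 := abs_le.mp (hBD w (htY w hw) x hx)
      have c2 : 0 ≤ β₁ - i * h := by linarith
      have c3 : β₁ - i * h ≤ h := by linarith
      nlinarith [c1.1, c1.2]
    have b3 : h * D = r / 4 := by rw [hh]; field_simp
    have b4 : τ * (i * h) ≤ τ * β₁ := mul_le_mul_of_nonneg_left hi1 hτ
    unfold gain at hg2 ⊢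
    nlinarith

/-- One stage: a set of points which are good at `(τ, R)` contains a large subset of points which
are good at `(τ + 2γ, r)` for a new base point. -/
lemma stage (hX : X.Nonempty) (hY : SymConv Y) {t : Finset V} (htY : ∀ w ∈ t, w ∈ Y)
    {δ γ D : ℝ} (hδ : 2 * δ ≤ γ) (hγ : 0 < γ) (hD : 0 < D)
    (hBD : ∀ y ∈ Y, ∀ x ∈ X, |B y x| ≤ D)
    (hnet : ∀ s ∈ Y, ∃ w ∈ t, ∀ x ∈ X, |B (s - w) x| ≤ δ) {M : ℕ} (hM : 4 * D / γ ≤ M)
    {τ r : ℝ} (hτ : 0 ≤ τ) (hr : 0 < r) (k : ℕ) :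
    ∀ (q : V) (R : ℝ) (U : Finset W), U ⊆ X → R < k * (r / 2) →
      (∀ x ∈ U, Good B X Y q τ R x) →
      ∃ (q' : V) (U' : Finset W), U' ⊆ U ∧ (∀ x ∈ U', Good B X Y q' (τ + 2 * γ) r x) ∧
        U.card ≤ ((M + 1) * t.card + 1) ^ k * U'.card := by
  classical
  induction k with
  | zero =>
    intro q R U _ hR hG
    refine ⟨q, U, subset_rfl, fun x hx => ?_, by simp⟩
    have := (hG x hx).nonneg hY
    simp at hR
    linarith
  | succ k ih =>
    intro q R U hUX hR hG
    set K := (M + 1) * t.card + 1 with hK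
    set U0 := U.filter (fun x => Good B X Y q (τ + 2 * γ) r x) with hU0
    set F : ℕ × V → Finset W := fun p =>
      U.filter (fun x => r / 2 ≤ gain B X τ q x (p.1 * (r / (4 * D))) p.2) with hF
    have hcov : U ⊆ U0 ∪ (Finset.range (M + 1) ×ˢ t).biUnion F := by
      intro x hx
      by_cases hg : Good B X Y q (τ + 2 * γ) r x
      · exact Finset.mem_union_left _ (Finset.mem_filter.mpr ⟨hx, hg⟩)
      · apply Finset.mem_union_right
        obtain ⟨i, hi, w, hw, hiw⟩ :=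
          net_step hX hY htY hδ hγ hD hBD hnet hM hτ hr (hUX hx) hg
        rw [Finset.mem_biUnion]
        exact ⟨(i, w), Finset.mem_product.mpr ⟨hi, hw⟩, Finset.mem_filter.mpr ⟨hx, hiw⟩⟩
    have hcard : U.card ≤ U0.card + ∑ p ∈ Finset.range (M + 1) ×ˢ t, (F p).card :=
      (Finset.card_le_card hcov).trans ((Finset.card_union_le _ _).trans
        (Nat.add_le_add_left Finset.card_biUnion_le _))
    by_cases h0 : U.card ≤ K * U0.card
    · refine ⟨q, U0, Finset.filter_subset _ _, fun x hx => (Finset.mem_filter.mp hx).2, ?_⟩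
      calc U.card ≤ K * U0.card := h0
        _ = K ^ 1 * U0.card := by rw [pow_one]
        _ ≤ K ^ (k + 1) * U0.card :=
          Nat.mul_le_mul_right _ (Nat.pow_le_pow_right (by omega) (by omega))
    · push Not at h0
      obtain ⟨p, hp, hpc⟩ : ∃ p ∈ Finset.range (M + 1) ×ˢ t, U.card ≤ K * (F p).card := by
        by_contra hcon
        push Not at hcon
        have h1 : K * U.card ≤ K * U0.card +
            ∑ p ∈ Finset.range (M + 1) ×ˢ t, K * (F p).card := by
          rw [← Finset.mul_sum, ← mul_add]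
          exact Nat.mul_le_mul_left _ hcard
        have h2 : ∑ p ∈ Finset.range (M + 1) ×ˢ t, K * (F p).card ≤
            ∑ p ∈ Finset.range (M + 1) ×ˢ t, U.card :=
          Finset.sum_le_sum fun p hp => (hcon p hp).le
        rw [Finset.sum_const, Finset.card_product, Finset.card_range, smul_eq_mul] at h2
        have h3 : K * U.card = (M + 1) * t.card * U.card + U.card := by rw [hK]; ring
        omega
      have hpw : p.2 ∈ Y := htY _ (Finset.mem_product.mp hp).2
      have hβ0 : (0 : ℝ) ≤ p.1 * (r / (4 * D)) := by positivity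
      obtain ⟨q', U', hU', hG', hc'⟩ := ih (q + ((p.1 : ℝ) * (r / (4 * D))) • p.2) (R - r / 2)
        (F p) ((Finset.filter_subset _ _).trans hUX) (by push_cast at hR; linarith)
        (fun x hx => by
          have hx' := Finset.mem_filter.mp hx
          exact ((hG x hx'.1).shift hY hβ0 hpw).mono (by linarith [hx'.2]))
      refine ⟨q', U', hU'.trans (Finset.filter_subset _ _), hG', ?_⟩
      calc U.card ≤ K * (F p).card := hpc
        _ ≤ K * (K ^ k * U'.card) := Nat.mul_le_mul_left _ hc'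
        _ = K ^ (k + 1) * U'.card := by rw [pow_succ]; ring

/-- Two points which are good with small cost cannot be separated. -/
lemma good_close (hX : X.Nonempty) (hY : SymConv Y) {D : ℝ} (hD : 1 ≤ D)
    (hBD : ∀ y ∈ Y, ∀ x ∈ X, |B y x| ≤ D) {q : V} {τ : ℝ} (hτ : τ ≤ 1 / 8) {x x' : W}
    (hx : Good B X Y q τ (1 / (256 * D ^ 2)) x) (hx' : Good B X Y q τ (1 / (256 * D ^ 2)) x')
    {s : V} (hs : s ∈ Y) : B s (x - x') < 1 := by
  have hD0 : 0 < D := by linarith
  set β := 1 / (32 * D ^ 2) with hβ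
  have hβ0 : 0 < β := by positivity
  have h1 := hx β hβ0.le s hs
  have h2 := hx' β hβ0.le (-s) (hY.neg s hs)
  have h3 := Lf_quad (B := B) hX q (β • s) (b := 1 / (32 * D)) (by positivity)
    (by rw [div_le_div_iff₀ (by positivity) (by norm_num)]; linarith)
    (fun z hz => by
      rw [map_smul, LinearMap.smul_apply, smul_eq_mul, abs_mul, abs_of_pos hβ0]
      calc β * |B s z| ≤ β * D := mul_le_mul_of_nonneg_left (hBD s hs z hz) hβ0.le
        _ = 1 / (32 * D) := by rw [hβ]; field_simp)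
  unfold gain at h1 h2
  rw [smul_neg] at h2
  have e1 : β * B (-s) x' = -(β * B s x') := by
    rw [map_neg, LinearMap.neg_apply]; ring
  rw [e1] at h2
  have e2 : 8 * (1 / (32 * D)) ^ 2 = β / 4 := by rw [hβ]; field_simp; norm_num
  have e3 : 1 / (256 * D ^ 2) = β / 8 := by rw [hβ]; field_simp; norm_num
  rw [e2] at h3
  rw [e3] at h1 h2
  have h4 : β * (B s x - B s x') ≤ 2 * (τ * β) + 2 * (β / 8) + β / 4 := by linarith
  have h5 : τ * β ≤ 1 / 8 * β := mul_le_mul_of_nonneg_right hτ hβ0.le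
  have h6 : β * (B s x - B s x') < β * 1 := by linarith
  have h7 := lt_of_mul_lt_mul_left h6 hβ0.le
  rwa [map_sub]

/-- The initial stage. -/
lemma stage_zero (hX : X.Nonempty) (hY : SymConv Y) {t : Finset V} (htY : ∀ w ∈ t, w ∈ Y)
    (ht : t.Nonempty) {δ γ D : ℝ} (hδ : 2 * δ ≤ γ) (hγ : 0 < γ) (hD : 0 < D)
    (hBD : ∀ y ∈ Y, ∀ x ∈ X, |B y x| ≤ D)
    (hnet : ∀ s ∈ Y, ∃ w ∈ t, ∀ x ∈ X, |B (s - w) x| ≤ δ) {M : ℕ} (hM : 4 * D / γ ≤ M)
    {R : ℝ} (hR : 2 * Real.log (2 * ((M + 1) * t.card)) ≤ R) :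
    ∃ U : Finset W, U ⊆ X ∧ (∀ x ∈ U, Good B X Y 0 (2 * γ) R x) ∧ X.card ≤ 2 * U.card := by
  classical
  have htc : (1 : ℝ) ≤ t.card := by exact_mod_cast ht.card_pos
  have hM0 : (0 : ℝ) ≤ M := by positivity
  have hpos : (0 : ℝ) < (M + 1) * t.card := by positivity
  have hlog : 0 < Real.log (2 * ((M + 1) * t.card)) := by
    apply Real.log_pos
    nlinarith
  have hR0 : 0 < R := by linarith
  set U0 := X.filter (fun x => Good B X Y 0 (2 * γ) R x) with hU0
  set F : ℕ × V → Finset W := fun p =>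
      X.filter (fun x => R / 2 ≤ gain B X 0 0 x (p.1 * (R / (4 * D))) p.2) with hF
  have hcov : X ⊆ U0 ∪ (Finset.range (M + 1) ×ˢ t).biUnion F := by
    intro x hx
    by_cases hg : Good B X Y 0 (2 * γ) R x
    · exact Finset.mem_union_left _ (Finset.mem_filter.mpr ⟨hx, hg⟩)
    · apply Finset.mem_union_right
      obtain ⟨i, hi, w, hw, hiw⟩ :=
        net_step hX hY htY hδ hγ hD hBD hnet hM (le_refl (0 : ℝ)) hR0 hx (by rwa [zero_add])
      rw [Finset.mem_biUnion]
      exact ⟨(i, w), Finset.mem_product.mpr ⟨hi, hw⟩, Finset.mem_filter.mpr ⟨hx, hiw⟩⟩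
  have hcard : X.card ≤ U0.card + ∑ p ∈ Finset.range (M + 1) ×ˢ t, (F p).card :=
    (Finset.card_le_card hcov).trans ((Finset.card_union_le _ _).trans
      (Nat.add_le_add_left Finset.card_biUnion_le _))
  have hexp : 2 * ((M + 1) * (t.card : ℝ)) ≤ Real.exp (R / 2) := by
    rw [← Real.exp_log (by positivity : 0 < 2 * ((M + 1) * (t.card : ℝ)))]
    exact Real.exp_le_exp.mpr (by linarith)
  have hFp : ∀ p ∈ Finset.range (M + 1) ×ˢ t,
      ((F p).card : ℝ) ≤ X.card / (2 * ((M + 1) * t.card)) := by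
    intro p _
    have h1 := markov (B := B) (X := X) (((p.1 : ℝ) * (R / (4 * D))) • p.2) (R / 2)
      (fun x => R / 2 ≤ gain B X 0 0 x (p.1 * (R / (4 * D))) p.2) (fun x _ hx => by
        unfold gain at hx
        rw [map_smul, LinearMap.smul_apply, smul_eq_mul]
        rw [zero_mul, sub_zero, zero_add] at hx
        exact hx)
    rw [le_div_iff₀ (by positivity)]
    exact (mul_le_mul_of_nonneg_left hexp (by positivity)).trans h1
  have hsum : ∑ p ∈ Finset.range (M + 1) ×ˢ t, ((F p).card : ℝ) ≤ X.card / 2 := by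
    refine (Finset.sum_le_sum hFp).trans (le_of_eq ?_)
    rw [Finset.sum_const, Finset.card_product, Finset.card_range, nsmul_eq_mul]
    push_cast
    field_simp
  refine ⟨U0, Finset.filter_subset _ _, fun x hx => (Finset.mem_filter.mp hx).2, ?_⟩
  have h1 : (X.card : ℝ) ≤ U0.card + ∑ p ∈ Finset.range (M + 1) ×ˢ t, ((F p).card : ℝ) := by
    exact_mod_cast hcard
  have h2 : (X.card : ℝ) ≤ ((2 * U0.card : ℕ) : ℝ) := by
    push_cast
    linarith
  exact_mod_cast h2

/-- The bound for separated sets in one layer. -/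
theorem layer_bound (hX : X.Nonempty) (hY : SymConv Y) {t : Finset V} (htY : ∀ w ∈ t, w ∈ Y)
    (ht : t.Nonempty) (J : ℕ) {δ D : ℝ} (hδ : δ ≤ 1 / (32 * (J + 1)))
    (hD : 1 ≤ D) (hBD : ∀ y ∈ Y, ∀ x ∈ X, |B y x| ≤ D)
    (hnet : ∀ s ∈ Y, ∃ w ∈ t, ∀ x ∈ X, |B (s - w) x| ≤ δ) {M : ℕ}
    (hM : 64 * D * (J + 1) ≤ M) {κ : ℝ} (hκ : 0 < κ)
    (hκ2 : 2 * Real.log (2 * ((M + 1) * t.card)) ≤ κ ^ J * (1 / (256 * D ^ 2)))
    (hsep : ∀ x ∈ X, ∀ x' ∈ X, x ≠ x' → ∃ y ∈ Y, 1 ≤ B y (x - x')) :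
    X.card ≤ 2 * ((M + 1) * t.card + 1) ^ (J * (⌊2 * κ⌋₊ + 1)) := by
  classical
  have hD0 : 0 < D := by linarith
  set γ : ℝ := 1 / (16 * (J + 1)) with hγ
  have hγ0 : 0 < γ := by positivity
  have hδγ : 2 * δ ≤ γ := by
    have : γ = 2 * (1 / (32 * (J + 1))) := by rw [hγ]; field_simp; norm_num
    linarith
  have hMγ : 4 * D / γ ≤ M := by
    have : 4 * D / γ = 64 * D * (J + 1) := by rw [hγ]; field_simp; norm_num
    linarith
  set rs : ℝ := 1 / (256 * D ^ 2) with hrs
  have hrs0 : 0 < rs := by positivity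
  set K := (M + 1) * t.card + 1 with hK
  set k := ⌊2 * κ⌋₊ + 1 with hk
  have hkκ : 2 * κ < k := by
    rw [hk]; push_cast
    exact Nat.lt_floor_add_one _
  have key : ∀ j : ℕ, j ≤ J → ∃ (q : V) (U : Finset W), U ⊆ X ∧
      (∀ x ∈ U, Good B X Y q (2 * γ * (j + 1)) (κ ^ (J - j) * rs) x) ∧
      X.card ≤ 2 * K ^ (j * k) * U.card := by
    intro j
    induction j with
    | zero =>
      intro _
      obtain ⟨U, hU, hG, hc⟩ :=
        stage_zero hX hY htY ht hδγ hγ0 hD0 hBD hnet hMγ hκ2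
      refine ⟨0, U, hU, fun x hx => ?_, by simpa using hc⟩
      have := hG x hx
      simpa using this
    | succ j ih =>
      intro hj
      obtain ⟨q, U, hU, hG, hc⟩ := ih (by omega)
      have hr : 0 < κ ^ (J - (j + 1)) * rs := by positivity
      have e1 : κ ^ (J - j) * rs = κ * (κ ^ (J - (j + 1)) * rs) := by
        have : J - j = (J - (j + 1)) + 1 := by omega
        rw [this, pow_succ]; ring
      obtain ⟨q', U', hU', hG', hc'⟩ := stage hX hY htY hδγ hγ0 hD0 hBD hnet hMγ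
        (τ := 2 * γ * (j + 1)) (by positivity) hr k q (κ ^ (J - j) * rs) U hU
        (by rw [e1]; nlinarith) hG
      refine ⟨q', U', hU'.trans hU, fun x hx => ?_, ?_⟩
      · have := hG' x hx
        have e2 : 2 * γ * (j + 1) + 2 * γ = 2 * γ * ((j + 1 : ℕ) + 1) := by push_cast; ring
        rwa [e2] at this
      · calc X.card ≤ 2 * K ^ (j * k) * U.card := hc
          _ ≤ 2 * K ^ (j * k) * (K ^ k * U'.card) := Nat.mul_le_mul_left _ hc'
          _ = 2 * K ^ ((j + 1) * k) * U'.card := by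
            rw [add_mul, one_mul, pow_add]; ring
  obtain ⟨q, U, hU, hG, hc⟩ := key J le_rfl
  have hτ : 2 * γ * (J + 1) ≤ 1 / 8 := by
    have : 2 * γ * (J + 1) = 1 / 8 := by rw [hγ]; field_simp; norm_num
    linarith
  have hU1 : U.card ≤ 1 := by
    rw [Finset.card_le_one]
    intro x hx x' hx'
    by_contra hne
    obtain ⟨y, hy, hy1⟩ := hsep x (hU hx) x' (hU hx') hne
    have g1 := hG x hx
    have g2 := hG x' hx'
    rw [Nat.sub_self, pow_zero, one_mul] at g1 g2
    have := good_close hX hY hD hBD hτ g1 g2 hy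
    linarith
  calc X.card ≤ 2 * K ^ (J * k) * U.card := hc
    _ ≤ 2 * K ^ (J * k) * 1 := Nat.mul_le_mul_left _ hU1
    _ = _ := by rw [mul_one]

end Vale.Agent.P126.AL
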