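import Vale.Agent.P126.AL2

/-!
P126, near-linear duality, part 3: the layers, the product bound, the local covers and the
telescoping over the scales.
-/

namespace Vale.Agent.P126.AL

open Finset

variable {V W : Type*} [AddCommGroup V] [Module ℝ V] [AddCommGroup W] [Module ℝ W]

/-- `z ∈ 2Z` and `z ∈ 2 ρ σ Y°`. -/
def lay (B : V →ₗ[ℝ] W →ₗ[ℝ] ℝ) (Y : Set V) (Z : Set W) (ρ σ : ℝ) : Set W :=
  {z | (1 / 2 : ℝ) • z ∈ Z ∧ ∀ y ∈ Y, B y z ≤ 2 * ρ * σ}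

lemma lay_neg {B : V →ₗ[ℝ] W →ₗ[ℝ] ℝ} {Y : Set V} {Z : Set W} (hY : SymConv Y)
    (hZ : SymConv Z) {ρ σ : ℝ} {z : W} (hz : z ∈ lay B Y Z ρ σ) : -z ∈ lay B Y Z ρ σ := by
  refine ⟨by rw [smul_neg]; exact hZ.neg _ hz.1, fun y hy => ?_⟩
  have := hz.2 (-y) (hY.neg y hy)
  simpa using this

lemma lay_abs {B : V →ₗ[ℝ] W →ₗ[ℝ] ℝ} {Y : Set V} {Z : Set W} (hY : SymConv Y)
    {ρ σ : ℝ} {z : W} (hz : z ∈ lay B Y Z ρ σ) {y : V} (hy : y ∈ Y) :
    |B y z| ≤ 2 * ρ * σ := by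
  rw [abs_le]
  constructor
  · have := hz.2 (-y) (hY.neg y hy)
    simp only [map_neg, LinearMap.neg_apply] at this
    linarith
  · exact hz.2 y hy

/-- a finite subset of `Y` separated by testers in `Λ` -/
def YSep (B : V →ₗ[ℝ] W →ₗ[ℝ] ℝ) (Y : Set V) (Λ : Set W) (η : ℝ) (T : Finset V) : Prop :=
  (∀ a ∈ T, a ∈ Y) ∧ ∀ a ∈ T, ∀ b ∈ T, a ≠ b → ∃ z ∈ Λ, η ≤ B (a - b) z

/-- a finite subset of `Λ` separated by testers in `Y` -/
def ZSep (B : V →ₗ[ℝ] W →ₗ[ℝ] ℝ) (Y : Set V) (Λ : Set W) (η : ℝ) (X : Finset W) : Prop :=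
  (∀ x ∈ X, x ∈ Λ) ∧ ∀ x ∈ X, ∀ x' ∈ X, x ≠ x' → ∃ y ∈ Y, η < B y (x - x')

/-- A family of points of `Y`, separated (after scaling by `ρ^{-i}`) by points of `2Z`. -/
def SF (B : V →ₗ[ℝ] W →ₗ[ℝ] ℝ) (Y : Set V) (Z : Set W) (ρ η : ℝ) (i : ℕ) (G : Finset V) : Prop :=
  (∀ a ∈ G, a ∈ Y) ∧ ∀ a ∈ G, ∀ b ∈ G, a ≠ b → ∃ z : W, (1 / 2 : ℝ) • z ∈ Z ∧
    η ≤ (1 / ρ) ^ i * B (a - b) z

lemma exists_max_card {α : Type*} (P : Finset α → Prop) (h0 : P ∅) (N : ℕ)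
    (hN : ∀ T, P T → T.card ≤ N) : ∃ T, P T ∧ ∀ T', P T' → T'.card ≤ T.card := by
  set S : Set ℕ := {m | ∃ T, P T ∧ T.card = m} with hS
  have hne : S.Nonempty := ⟨0, ∅, h0, by simp⟩
  have hbdd : BddAbove S := ⟨N, by rintro m ⟨T, hT, rfl⟩; exact hN T hT⟩
  obtain ⟨T, hT, hTc⟩ := Nat.sSup_mem hne hbdd
  refine ⟨T, hT, fun T' hT' => ?_⟩
  rw [hTc]
  exact le_csSup hbdd ⟨T', hT', rfl⟩

lemma SF_singleton (B : V →ₗ[ℝ] W →ₗ[ℝ] ℝ) {Y : Set V} (Z : Set W) (hY : SymConv Y) (ρ η : ℝ)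
    (i : ℕ) : SF B Y Z ρ η i {0} := by
  refine ⟨fun a ha => ?_, fun a ha b hb hab => ?_⟩
  · rw [Finset.mem_singleton] at ha
    rw [ha]; exact hY.zero
  · rw [Finset.mem_singleton] at ha hb
    exact absurd (ha.trans hb.symm) hab

lemma SF_step {B : V →ₗ[ℝ] W →ₗ[ℝ] ℝ} {Y : Set V} {Z : Set W} (hY : SymConv Y)
    (hZ : SymConv Z) {ρ δ : ℝ} (hδ : 0 < δ) (hρ : 2 ≤ ρ) (hρδ : 16 ≤ ρ * δ) {i : ℕ}
    {T G : Finset V} (hT : YSep B Y (lay B Y Z ρ (ρ ^ i)) (δ * ρ ^ i) T)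
    (hG : SF B Y Z ρ (δ / 4) (i + 2) G) :
    ∃ G' : Finset V, SF B Y Z ρ (δ / 4) i G' ∧ G'.card = T.card * G.card := by
  classical
  have hρ0 : 0 < ρ := by linarith
  have hρi : 0 < ρ ^ i := by positivity
  set g : V × V → V := fun q => (1 / 2 : ℝ) • q.1 + (1 / ρ) ^ 2 • q.2 with hg
  have hinv : (1 / ρ) ^ 2 ≤ 1 / 2 := by
    have : 1 / ρ ≤ 1 / 2 := one_div_le_one_div_of_le (by norm_num) hρ
    calc (1 / ρ) ^ 2 ≤ (1 / 2) ^ 2 := pow_le_pow_left₀ (by positivity) this 2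
      _ ≤ 1 / 2 := by norm_num
  have hgY : ∀ q ∈ T ×ˢ G, g q ∈ Y := fun q hq =>
    hY.add_mem (hT.1 _ (Finset.mem_product.mp hq).1) (hG.1 _ (Finset.mem_product.mp hq).2)
      (by norm_num) (by positivity) (by linarith)
  have hcancel : (1 / ρ) ^ i * ρ ^ i = 1 := by
    rw [← mul_pow]; field_simp; simp
  have key : ∀ q ∈ T ×ˢ G, ∀ q' ∈ T ×ˢ G, q ≠ q' → ∃ z : W, (1 / 2 : ℝ) • z ∈ Z ∧
      δ / 4 ≤ (1 / ρ) ^ i * B (g q - g q') z := by
    intro q hq q' hq' hne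
    have hq1 := (Finset.mem_product.mp hq).1
    have hq2 := (Finset.mem_product.mp hq).2
    have hq1' := (Finset.mem_product.mp hq').1
    have hq2' := (Finset.mem_product.mp hq').2
    by_cases h1 : q.1 = q'.1
    · have h2 : q.2 ≠ q'.2 := fun h2 => hne (Prod.ext h1 h2)
      obtain ⟨z, hz, hz2⟩ := hG.2 _ hq2 _ hq2' h2
      refine ⟨z, hz, ?_⟩
      have e1 : B (g q - g q') z = (1 / ρ) ^ 2 * B (q.2 - q'.2) z := by
        simp only [hg, h1, map_sub, map_add, map_smul, LinearMap.sub_apply, LinearMap.add_apply,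
          LinearMap.smul_apply, smul_eq_mul]
        ring
      rw [e1, ← mul_assoc, ← pow_add]
      exact hz2
    · obtain ⟨z, hz, hz2⟩ := hT.2 _ hq1 _ hq1' h1
      refine ⟨z, hz.1, ?_⟩
      have a1 := (abs_le.mp (lay_abs hY hz (hG.1 _ hq2))).1
      have a2 := (abs_le.mp (lay_abs hY hz (hG.1 _ hq2'))).2
      have e1 : B (g q - g q') z = (1 / 2) * B (q.1 - q'.1) z
          + (1 / ρ) ^ 2 * (B q.2 z - B q'.2 z) := by
        simp only [hg, map_sub, map_add, map_smul, LinearMap.sub_apply, LinearMap.add_apply,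
          LinearMap.smul_apply, smul_eq_mul]
        ring
      have e2 : δ / 4 * ρ ^ i ≤ B (g q - g q') z := by
        have b1 : -(4 * ρ * ρ ^ i) ≤ B q.2 z - B q'.2 z := by linarith
        have b2 : (1 / ρ) ^ 2 * -(4 * ρ * ρ ^ i) ≤ (1 / ρ) ^ 2 * (B q.2 z - B q'.2 z) :=
          mul_le_mul_of_nonneg_left b1 (by positivity)
        have b3 : (1 / ρ) ^ 2 * -(4 * ρ * ρ ^ i) = -(4 / ρ * ρ ^ i) := by field_simp
        have b4 : 4 / ρ ≤ δ / 4 := by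
          rw [div_le_div_iff₀ hρ0 (by norm_num)]; linarith
        have b5 : 4 / ρ * ρ ^ i ≤ δ / 4 * ρ ^ i := mul_le_mul_of_nonneg_right b4 hρi.le
        rw [e1]
        rw [b3] at b2
        linarith
      calc δ / 4 = (1 / ρ) ^ i * (δ / 4 * ρ ^ i) := by
            rw [mul_left_comm, hcancel, mul_one]
        _ ≤ (1 / ρ) ^ i * B (g q - g q') z := mul_le_mul_of_nonneg_left e2 (by positivity)
  have hinj : Set.InjOn g (T ×ˢ G : Finset (V × V)) := by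
    intro q hq q' hq' hqq
    by_contra hne
    obtain ⟨z, -, hz⟩ := key q hq q' hq' hne
    rw [hqq, sub_self, map_zero, LinearMap.zero_apply, mul_zero] at hz
    linarith
  refine ⟨(T ×ˢ G).image g, ⟨?_, ?_⟩, ?_⟩
  · intro a ha
    obtain ⟨q, hq, rfl⟩ := Finset.mem_image.mp ha
    exact hgY q hq
  · intro a ha b hb hab
    obtain ⟨q, hq, rfl⟩ := Finset.mem_image.mp ha
    obtain ⟨q', hq', rfl⟩ := Finset.mem_image.mp hb
    exact key q hq q' hq' (fun h => hab (by rw [h]))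
  · rw [Finset.card_image_of_injOn hinj, Finset.card_product]

lemma SF_prod {B : V →ₗ[ℝ] W →ₗ[ℝ] ℝ} {Y : Set V} {Z : Set W} (hY : SymConv Y)
    (hZ : SymConv Z) {ρ δ : ℝ} (hδ : 0 < δ) (hρ : 2 ≤ ρ) (hρδ : 16 ≤ ρ * δ)
    (T : ℕ → Finset V) (hT : ∀ i, YSep B Y (lay B Y Z ρ (ρ ^ i)) (δ * ρ ^ i) (T i)) (m : ℕ) :
    ∀ i, ∃ G, SF B Y Z ρ (δ / 4) i G ∧ G.card = ∏ k ∈ Finset.range m, (T (i + 2 * k)).card := by
  induction m with
  | zero => intro i; exact ⟨{0}, SF_singleton B Z hY _ _ i, by simp⟩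
  | succ m ih =>
    intro i
    obtain ⟨G, hG, hGc⟩ := ih (i + 2)
    obtain ⟨G', hG', hGc'⟩ := SF_step hY hZ hδ hρ hρδ (hT i) hG
    refine ⟨G', hG', ?_⟩
    rw [hGc', hGc, Finset.prod_range_succ', mul_comm]
    congr 1
    apply Finset.prod_congr rfl
    intro k _
    congr 2
    ring

/-- Separated families inject into any net. -/
lemma SF_card {B : V →ₗ[ℝ] W →ₗ[ℝ] ℝ} {Y : Set V} {Z : Set W} (hY : SymConv Y)
    (hZ : SymConv Z) {ρ η c : ℝ} (hρ : 1 ≤ ρ) (hc : 4 * c < η) (t : Finset V)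
    (ht : ∀ y ∈ Y, ∃ w ∈ t, ∀ z ∈ Z, B (y - w) z ≤ c)
    {i : ℕ} {G : Finset V} (h : SF B Y Z ρ η i G) : G.card ≤ t.card := by
  classical
  have hρ0 : 0 < ρ := by linarith
  have hQ0 : (0 : ℝ) ≤ (1 / ρ) ^ i := by positivity
  have hQ1 : (1 / ρ) ^ i ≤ 1 := pow_le_one₀ (by positivity) (by rw [div_le_one hρ0]; exact hρ)
  have h1 : ∀ a : V, ∃ w, a ∈ G → (w ∈ t ∧ ∀ z ∈ Z, B ((1 / ρ) ^ i • a - w) z ≤ c) := by
    intro a
    by_cases ha : a ∈ G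
    · obtain ⟨w, hw, hw2⟩ := ht _ (hY.smul_mem (h.1 a ha) hQ0 hQ1)
      exact ⟨w, fun _ => ⟨hw, hw2⟩⟩
    · exact ⟨0, fun h => absurd h ha⟩
  choose φ hφ using h1
  refine Finset.card_le_card_of_injOn φ (fun a ha => (hφ a ha).1) ?_
  intro a ha b hb hab
  by_contra hne
  obtain ⟨z, hz, hz2⟩ := h.2 a ha b hb hne
  have a1 := (hφ a ha).2 _ hz
  have a2 := (hφ b hb).2 _ (hZ.neg _ hz)
  rw [hab] at a1
  simp only [map_sub, map_smul, map_neg, LinearMap.sub_apply, LinearMap.smul_apply,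
    smul_eq_mul] at a1 a2 hz2
  nlinarith

/-- The product bound. -/
lemma prod_bound {B : V →ₗ[ℝ] W →ₗ[ℝ] ℝ} {Y : Set V} {Z : Set W} (hY : SymConv Y)
    (hZ : SymConv Z) {ρ δ c : ℝ} (hδ : 0 < δ) (hρ : 2 ≤ ρ) (hρδ : 16 ≤ ρ * δ)
    (hc : 4 * c < δ / 4) (t : Finset V)
    (ht : ∀ y ∈ Y, ∃ w ∈ t, ∀ z ∈ Z, B (y - w) z ≤ c)
    (T : ℕ → Finset V) (hT : ∀ i, YSep B Y (lay B Y Z ρ (ρ ^ i)) (δ * ρ ^ i) (T i)) (m : ℕ) :
    ∏ i ∈ Finset.range (2 * m), (T i).card ≤ t.card ^ 2 := by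
  have e : ∀ m : ℕ, ∏ i ∈ Finset.range (2 * m), (T i).card
      = (∏ i ∈ Finset.range m, (T (0 + 2 * i)).card) *
        ∏ i ∈ Finset.range m, (T (1 + 2 * i)).card := by
    intro m
    induction m with
    | zero => simp
    | succ m ih =>
      rw [show 2 * (m + 1) = 2 * m + 1 + 1 by ring, Finset.prod_range_succ,
        Finset.prod_range_succ, ih, Finset.prod_range_succ, Finset.prod_range_succ]
      rw [show 0 + 2 * m = 2 * m by ring, show 1 + 2 * m = 2 * m + 1 by ring]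
      ring
  rw [e m, sq]
  obtain ⟨G0, hG0, hc0⟩ := SF_prod hY hZ hδ hρ hρδ T hT m 0
  obtain ⟨G1, hG1, hc1⟩ := SF_prod hY hZ hδ hρ hρδ T hT m 1
  rw [← hc0, ← hc1]
  exact Nat.mul_le_mul (SF_card hY hZ (by linarith) hc t ht hG0)
    (SF_card hY hZ (by linarith) hc t ht hG1)

/-- Boundedness of the pairing. -/
lemma pairing_bound' {B : V →ₗ[ℝ] W →ₗ[ℝ] ℝ} {Y : Set V} {Z : Set W} (hY : SymConv Y)
    (hZ : SymConv Z) {c : ℝ} (hc0 : 0 ≤ c) (t : Finset V)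
    (ht : ∀ y ∈ Y, ∃ w ∈ t, ∀ z ∈ Z, B (y - w) z ≤ c)
    {y : V} (hy : y ∈ Y) {z : W} (hz : z ∈ Z) : B y z ≤ 2 * c * t.card := by
  classical
  set k := t.card with hk
  have hkpos : 0 < k := by
    obtain ⟨w, hw, _⟩ := ht 0 hY.zero
    exact Finset.card_pos.mpr ⟨w, hw⟩
  have hkR : (0 : ℝ) < k := by exact_mod_cast hkpos
  have h1 : ∀ j : Fin (k + 1), ∃ w ∈ t, ∀ z ∈ Z, B (((j : ℕ) / (k : ℝ)) • y - w) z ≤ c := by
    intro j
    apply ht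
    apply hY.smul_mem hy (by positivity)
    rw [div_le_one hkR]
    exact_mod_cast Nat.lt_succ_iff.mp j.2
  choose φ hφt hφ using h1
  obtain ⟨a, -, b, -, hab, hφab⟩ := Finset.exists_ne_map_eq_of_card_lt_of_maps_to
    (s := (Finset.univ : Finset (Fin (k + 1)))) (t := t) (by simp [← hk]) (f := φ)
    (fun a _ => hφt a)
  wlog hlt : a < b generalizing a b
  · exact this b a (Ne.symm hab) hφab.symm (lt_of_le_of_ne (not_lt.mp hlt) (Ne.symm hab))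
  have a1 := hφ b z hz
  have a2 := hφ a _ (hZ.neg _ hz)
  rw [← hφab] at a1
  simp only [map_sub, map_smul, map_neg, LinearMap.sub_apply, LinearMap.smul_apply,
      smul_eq_mul] at a1 a2
  have a3 : (((b : ℕ) : ℝ) - (a : ℕ)) / k * B y z ≤ 2 * c := by
    have : (((b : ℕ) : ℝ) - (a : ℕ)) / k * B y z = (b : ℕ) / k * B y z - (a : ℕ) / k * B y z := by
      ring
    rw [this]; linarith
  have a4 : (1 : ℝ) ≤ ((b : ℕ) : ℝ) - (a : ℕ) := by
    have : (a : ℕ) + 1 ≤ (b : ℕ) := hlt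
    have : (((a : ℕ) + 1 : ℕ) : ℝ) ≤ ((b : ℕ) : ℝ) := by exact_mod_cast this
    push_cast at this
    linarith
  by_contra hcon
  push Not at hcon
  have a5 : (0 : ℝ) < B y z := lt_of_le_of_lt (by positivity) hcon
  have a6 : 1 / k * B y z ≤ (((b : ℕ) : ℝ) - (a : ℕ)) / k * B y z := by
    apply mul_le_mul_of_nonneg_right _ a5.le
    exact div_le_div_of_nonneg_right a4 hkR.le
  have a7 : 1 / (k : ℝ) * B y z > 2 * c := by
    have := mul_lt_mul_of_pos_left hcon (by positivity : (0 : ℝ) < 1 / k)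
    calc (2 * c : ℝ) = 1 / k * (2 * c * k) := by field_simp
      _ < _ := this
  linarith

/-- One telescoping step. -/
lemma telescope' {B : V →ₗ[ℝ] W →ₗ[ℝ] ℝ} {Y : Set V} {Z : Set W}
    (hY : SymConv Y) (hZ : SymConv Z) {ρ σ : ℝ} (u u' : Finset W)
    (hu : ∀ z ∈ Z, ∃ w ∈ u, ∀ v ∈ Y, B v (z - w) ≤ ρ * σ)
    (hu' : ∀ x ∈ lay B Y Z ρ σ, ∃ w ∈ u', ∀ v ∈ Y, B v (x - w) ≤ σ) :
    ∃ u'' : Finset W, u''.card ≤ u.card * u'.card ∧
      ∀ z ∈ Z, ∃ w ∈ u'', ∀ v ∈ Y, B v (z - w) ≤ σ := by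
  classical
  have h1 : ∀ m : W, ∃ p : W, (∃ z ∈ Z, ∀ v ∈ Y, B v (z - m) ≤ ρ * σ) →
      (p ∈ Z ∧ ∀ v ∈ Y, B v (p - m) ≤ ρ * σ) := by
    intro m
    by_cases h : ∃ z ∈ Z, ∀ v ∈ Y, B v (z - m) ≤ ρ * σ
    · obtain ⟨z, hz, hz2⟩ := h
      exact ⟨z, fun _ => ⟨hz, hz2⟩⟩
    · exact ⟨0, fun h2 => absurd h2 h⟩
  choose p hp using h1
  refine ⟨(u ×ˢ u').image (fun q => p q.1 + q.2), ?_, ?_⟩
  · refine le_trans Finset.card_image_le ?_
    rw [Finset.card_product]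
  · intro z hz
    obtain ⟨m, hm, hm2⟩ := hu z hz
    obtain ⟨hpZ, hpm⟩ := hp m ⟨z, hz, hm2⟩
    have hlay : z - p m ∈ lay B Y Z ρ σ := by
      refine ⟨?_, fun v hv => ?_⟩
      · have := hZ.add_mem hz (hZ.neg _ hpZ) (by norm_num : (0 : ℝ) ≤ 1 / 2)
          (by norm_num : (0 : ℝ) ≤ 1 / 2) (by norm_num)
        rw [smul_sub]
        rwa [smul_neg, ← sub_eq_add_neg] at this
      · have a1 := hm2 v hv
        have a2 := hpm (-v) (hY.neg v hv)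
        simp only [map_sub, map_neg, LinearMap.neg_apply] at a1 a2 ⊢
        linarith
    obtain ⟨w, hw, hw2⟩ := hu' _ hlay
    refine ⟨p m + w, Finset.mem_image.mpr ⟨(m, w), Finset.mem_product.mpr ⟨hm, hw⟩, rfl⟩, ?_⟩
    intro v hv
    have := hw2 v hv
    rwa [sub_sub] at this

/-- A maximal separated family in `Y` is a net. -/
lemma net_of_max {B : V →ₗ[ℝ] W →ₗ[ℝ] ℝ} {Y : Set V} {Λ : Set W} (hΛ : ∀ z ∈ Λ, -z ∈ Λ)
    {η : ℝ} {T : Finset V} (hT : YSep B Y Λ η T)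
    (hmax : ∀ T', YSep B Y Λ η T' → T'.card ≤ T.card) (hη : 0 < η) :
    ∀ s ∈ Y, ∃ w ∈ T, ∀ x ∈ Λ, |B (s - w) x| ≤ η := by
  classical
  intro s hs
  by_contra hcon
  push Not at hcon
  have hsT : s ∉ T := by
    intro h
    obtain ⟨x, _, hx⟩ := hcon s h
    rw [sub_self, map_zero, LinearMap.zero_apply, abs_zero] at hx
    linarith
  have hsep : ∀ w ∈ T, ∃ z ∈ Λ, η ≤ B (s - w) z := by
    intro w hw
    obtain ⟨x, hx, hx2⟩ := hcon w hw
    rcases lt_abs.mp hx2 with h | h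
    · exact ⟨x, hx, h.le⟩
    · exact ⟨-x, hΛ x hx, by rw [map_neg]; exact h.le⟩
  have hsep' : ∀ w ∈ T, ∃ z ∈ Λ, η ≤ B (w - s) z := by
    intro w hw
    obtain ⟨z, hz, hz2⟩ := hsep w hw
    refine ⟨-z, hΛ z hz, ?_⟩
    rw [map_neg, ← LinearMap.neg_apply, ← map_neg, neg_sub]
    exact hz2
  have hnew : YSep B Y Λ η (insert s T) := by
    refine ⟨fun a ha => ?_, fun a ha b hb hab => ?_⟩
    · rcases Finset.mem_insert.mp ha with rfl | h
      · exact hs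
      · exact hT.1 a h
    · rcases Finset.mem_insert.mp ha with rfl | ha'
      · rcases Finset.mem_insert.mp hb with rfl | hb'
        · exact absurd rfl hab
        · exact hsep b hb'
      · rcases Finset.mem_insert.mp hb with rfl | hb'
        · exact hsep' a ha'
        · exact hT.2 a ha' b hb' hab
  have := hmax _ hnew
  rw [Finset.card_insert_of_notMem hsT] at this
  omega

/-- A maximal separated family in `Λ` is a net. -/
lemma cover_of_max {B : V →ₗ[ℝ] W →ₗ[ℝ] ℝ} {Y : Set V} {Λ : Set W} (hY : SymConv Y)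
    {η : ℝ} {X : Finset W} (hX : ZSep B Y Λ η X)
    (hmax : ∀ X', ZSep B Y Λ η X' → X'.card ≤ X.card) (hη : 0 < η) :
    ∀ x ∈ Λ, ∃ w ∈ X, ∀ v ∈ Y, B v (x - w) ≤ η := by
  classical
  intro s hs
  by_contra hcon
  push Not at hcon
  have hsT : s ∉ X := by
    intro h
    obtain ⟨x, _, hx⟩ := hcon s h
    rw [sub_self, map_zero] at hx
    linarith
  have hsep' : ∀ w ∈ X, ∃ v ∈ Y, η < B v (w - s) := by
    intro w hw
    obtain ⟨v, hv, hv2⟩ := hcon w hw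
    refine ⟨-v, hY.neg v hv, ?_⟩
    rw [map_neg, LinearMap.neg_apply, ← map_neg, neg_sub]
    exact hv2
  have hnew : ZSep B Y Λ η (insert s X) := by
    refine ⟨fun a ha => ?_, fun a ha b hb hab => ?_⟩
    · rcases Finset.mem_insert.mp ha with rfl | h
      · exact hs
      · exact hX.1 a h
    · rcases Finset.mem_insert.mp ha with rfl | ha'
      · rcases Finset.mem_insert.mp hb with rfl | hb'
        · exact absurd rfl hab
        · exact hcon b hb'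
      · rcases Finset.mem_insert.mp hb with rfl | hb'
        · exact hsep' a ha'
        · exact hX.2 a ha' b hb' hab
  have := hmax _ hnew
  rw [Finset.card_insert_of_notMem hsT] at this
  omega

/-- The assembly over the layers, given a bound `card X ≤ (card T)^E` in each layer. -/
theorem assemble {B : V →ₗ[ℝ] W →ₗ[ℝ] ℝ} {Y : Set V} {Z : Set W} (hY : SymConv Y)
    (hZ : SymConv Z) {ρ δ c : ℝ} (hδ : 0 < δ) (hρ : 2 ≤ ρ) (hρδ : 16 ≤ ρ * δ)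
    (hc : 4 * c < δ / 4) (hc0 : 0 < c) (hc1 : c ≤ 1 / 2) (t : Finset V)
    (ht : ∀ y ∈ Y, ∃ w ∈ t, ∀ z ∈ Z, B (y - w) z ≤ c) (E : ℕ)
    (hE : ∀ (i : ℕ) (T : Finset V) (X : Finset W), T.card ≤ t.card →
      YSep B Y (lay B Y Z ρ (ρ ^ i)) (δ * ρ ^ i) T →
      (∀ s ∈ Y, ∃ w ∈ T, ∀ x ∈ lay B Y Z ρ (ρ ^ i),
        |B (s - w) x| ≤ δ * ρ ^ i) →
      ZSep B Y (lay B Y Z ρ (ρ ^ i)) (ρ ^ i) X → X.card ≤ T.card ^ E) :
    ∃ u : Finset W, u.card ≤ (t.card ^ 2) ^ E ∧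
      ∀ z ∈ Z, ∃ w ∈ u, ∀ v ∈ Y, B v (z - w) ≤ 1 := by
  classical
  have hρ0 : 0 < ρ := by linarith
  -- maximal families in Y
  have hTb : ∀ i, ∀ T, YSep B Y (lay B Y Z ρ (ρ ^ i)) (δ * ρ ^ i) T → T.card ≤ t.card := by
    intro i T hT
    obtain ⟨G, hG, hGc⟩ := SF_step hY hZ hδ hρ hρδ hT (SF_singleton B Z hY _ _ (i + 2))
    have := SF_card hY hZ (by linarith) hc t ht hG
    rw [hGc, Finset.card_singleton, mul_one] at this
    exact this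
  have hTex : ∀ i, ∃ T, YSep B Y (lay B Y Z ρ (ρ ^ i)) (δ * ρ ^ i) T ∧
      ∀ T', YSep B Y (lay B Y Z ρ (ρ ^ i)) (δ * ρ ^ i) T' → T'.card ≤ T.card := fun i =>
    exists_max_card _ ⟨by simp, by simp⟩ t.card (hTb i)
  choose T hT hTmax using hTex
  have hnet : ∀ i, ∀ s ∈ Y, ∃ w ∈ T i, ∀ x ∈ lay B Y Z ρ (ρ ^ i),
      |B (s - w) x| ≤ δ * ρ ^ i := fun i =>
    net_of_max (fun z hz => lay_neg hY hZ hz) (hT i) (hTmax i) (by positivity)
  have hXb : ∀ i, ∀ X, ZSep B Y (lay B Y Z ρ (ρ ^ i)) (ρ ^ i) X → X.card ≤ (T i).card ^ E :=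
    fun i X hX => hE i (T i) X (hTb i _ (hT i)) (hT i) (hnet i) hX
  have hXex : ∀ i, ∃ X, ZSep B Y (lay B Y Z ρ (ρ ^ i)) (ρ ^ i) X ∧
      ∀ X', ZSep B Y (lay B Y Z ρ (ρ ^ i)) (ρ ^ i) X' → X'.card ≤ X.card := fun i =>
    exists_max_card _ ⟨by simp, by simp⟩ ((T i).card ^ E) (hXb i)
  choose X hX hXmax using hXex
  have hcov : ∀ i, ∀ x ∈ lay B Y Z ρ (ρ ^ i), ∃ w ∈ X i, ∀ v ∈ Y, B v (x - w) ≤ ρ ^ i :=
    fun i => cover_of_max hY (hX i) (hXmax i) (by positivity)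
  -- the number of layers
  obtain ⟨m, hm⟩ : ∃ m : ℕ, (t.card : ℝ) ≤ ρ ^ (2 * m) := by
    refine ⟨t.card, ?_⟩
    have h1 : (t.card : ℝ) ≤ 2 ^ t.card := by
      exact_mod_cast (Nat.lt_two_pow_self).le
    have h2 : (2 : ℝ) ^ t.card ≤ ρ ^ t.card := pow_le_pow_left₀ (by norm_num) hρ _
    have h3 : ρ ^ t.card ≤ ρ ^ (2 * t.card) := pow_le_pow_right₀ (by linarith) (by omega)
    linarith
  have key : ∀ n : ℕ, n ≤ 2 * m → ∃ u : Finset W,
      u.card ≤ (∏ i ∈ Finset.range n, (T (2 * m - 1 - i)).card) ^ E ∧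
      ∀ z ∈ Z, ∃ w ∈ u, ∀ v ∈ Y, B v (z - w) ≤ ρ ^ (2 * m - n) := by
    intro n
    induction n with
    | zero =>
      intro _
      refine ⟨{0}, by simp, fun z hz => ⟨0, by simp, fun v hv => ?_⟩⟩
      have h1 := pairing_bound' hY hZ hc0.le t ht hv hz
      rw [sub_zero, Nat.sub_zero]
      have h2 : 2 * c * t.card ≤ 1 * t.card := by
        apply mul_le_mul_of_nonneg_right _ (by positivity)
        linarith
      linarith
    | succ n ih =>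
      intro hn
      obtain ⟨u, hu, hu2⟩ := ih (by omega)
      set i := 2 * m - 1 - n with hi
      have hρe : ρ ^ (2 * m - n) = ρ * ρ ^ i := by
        rw [← pow_succ']
        congr 1
        omega
      rw [hρe] at hu2
      obtain ⟨u'', hc, hcov'⟩ := telescope' hY hZ u (X i) hu2 (hcov i)
      refine ⟨u'', ?_, ?_⟩
      · rw [Finset.prod_range_succ, mul_pow]
        exact hc.trans (Nat.mul_le_mul hu (hXb i _ (hX i)))
      · have e : 2 * m - (n + 1) = i := by omega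
        rw [e]
        exact hcov'
  obtain ⟨u, hu, hu2⟩ := key (2 * m) le_rfl
  refine ⟨u, ?_, ?_⟩
  · refine hu.trans ?_
    apply Nat.pow_le_pow_left
    have e1 : ∏ i ∈ Finset.range (2 * m), (T (2 * m - 1 - i)).card
        = ∏ i ∈ Finset.range (2 * m), (T i).card :=
      Finset.prod_range_reflect (fun i => (T i).card) (2 * m)
    rw [e1]
    exact prod_bound hY hZ hδ hρ hρδ hc t ht T hT m
  · intro z hz
    obtain ⟨w, hw, hw2⟩ := hu2 z hz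
    refine ⟨w, hw, fun v hv => ?_⟩
    have := hw2 v hv
    simpa using this

end Vale.Agent.P126.AL
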