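import Vale.Agent.P126.AL3

/-!
P126, near-linear duality, part 4: the bound `card X ≤ (card T)^E` in each layer.
-/

namespace Vale.Agent.P126.AL

open Finset

variable {V W : Type*} [AddCommGroup V] [Module ℝ V] [AddCommGroup W] [Module ℝ W]

lemma log_succ_le (J : ℕ) : Real.log ((J : ℝ) + 1) ≤ J := by
  have h : (0 : ℝ) < (J : ℝ) + 1 := by positivity
  have := Real.log_le_sub_one_of_pos h
  linarith

lemma log_two_le_one : Real.log 2 ≤ 1 := by
  have : Real.log 2 < 0.6931471808 := Real.log_two_lt_d9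
  linarith

/-- numeric: the base of the power in the case `J + 1 ≤ N`. -/
lemma base_le {J N : ℕ} (hN2 : 2 ≤ N) (hJN : J + 1 ≤ N) :
    (65536 * (J + 1) ^ 2 + 1) * N + 1 ≤ N ^ 20 := by
  have h1 : (J + 1) ^ 2 ≤ N ^ 2 := Nat.pow_le_pow_left hJN 2
  have h2 : (65536 * (J + 1) ^ 2 + 1) * N + 1 ≤ 2 ^ 17 * N ^ 3 := by
    calc (65536 * (J + 1) ^ 2 + 1) * N + 1 ≤ (65536 * N ^ 2 + 1) * N + 1 := by gcongr
      _ = 65536 * N ^ 3 + N + 1 := by ring
      _ ≤ 2 ^ 17 * N ^ 3 := by nlinarith [Nat.pow_le_pow_left hN2 2, Nat.pow_le_pow_left hN2 3]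
  have h3 : 2 ^ 17 ≤ N ^ 17 := Nat.pow_le_pow_left hN2 17
  calc (65536 * (J + 1) ^ 2 + 1) * N + 1 ≤ 2 ^ 17 * N ^ 3 := h2
    _ ≤ N ^ 17 * N ^ 3 := Nat.mul_le_mul_right _ h3
    _ = N ^ 20 := by rw [← pow_add]

/-- numeric: the base of the power in the case `N ≤ J`. -/
lemma base_le' {J N : ℕ} (hN : N ≤ J) (hJ : 1 ≤ J) :
    (65536 * (J + 1) ^ 2 + 1) * N + 1 ≤ 2 ^ 17 * (J + 1) ^ 3 := by
  calc (65536 * (J + 1) ^ 2 + 1) * N + 1 ≤ (65536 * (J + 1) ^ 2 + 1) * J + 1 := by gcongr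
    _ ≤ 2 ^ 17 * (J + 1) ^ 3 := by
      have : (J + 1) ^ 3 = (J + 1) ^ 2 * J + (J + 1) ^ 2 := by ring
      nlinarith [Nat.pow_le_pow_left (Nat.succ_le_succ hJ) 2]

theorem layer_card {B : V →ₗ[ℝ] W →ₗ[ℝ] ℝ} {Y : Set V} {Z : Set W} (hY : SymConv Y)
    {J : ℕ} (hJ : 1 ≤ J) {ρ δ : ℝ} (hρ : ρ = 512 * (J + 1))
    (hδ : δ = 1 / (32 * (J + 1))) {K₀ : ℕ} {κ : ℝ} (hκ : 0 < κ)
    (hκ2 : 2 * Real.log (2 * (((65536 * (J + 1) ^ 2 : ℕ) + 1) * K₀)) ≤
      κ ^ J * (1 / (256 * (1024 * (J + 1)) ^ 2)))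
    {Q : ℕ} (hQ : ⌊2 * (2 : ℝ) ^ 40⌋₊ + 1 ≤ Q)
    (i : ℕ) (T : Finset V) (X : Finset W) (hTc : T.card ≤ K₀) (hTY : ∀ w ∈ T, w ∈ Y)
    (hnet : ∀ s ∈ Y, ∃ w ∈ T, ∀ x ∈ lay B Y Z ρ (ρ ^ i), |B (s - w) x| ≤ δ * ρ ^ i)
    (hX : ZSep B Y (lay B Y Z ρ (ρ ^ i)) (ρ ^ i) X) :
    X.card ≤ T.card ^ (1 + 20 * (J * (⌊2 * κ⌋₊ + 1)) + 23 * (J * Q)) := by
  classical
  have hJ0 : (1 : ℝ) ≤ J := by exact_mod_cast hJ
  have hρ0 : 0 < ρ := by rw [hρ]; positivity
  have hσ : 0 < ρ ^ i := by positivity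
  have hTne : T.Nonempty := by
    obtain ⟨w, hw, _⟩ := hnet 0 hY.zero
    exact ⟨w, hw⟩
  rcases X.eq_empty_or_nonempty with h0 | hXne
  · rw [h0]; simp
  set E := 1 + 20 * (J * (⌊2 * κ⌋₊ + 1)) + 23 * (J * Q) with hE
  set σ := ρ ^ i with hσdef
  have hδ1 : δ ≤ 1 / 4 := by
    rw [hδ, div_le_div_iff₀ (by positivity) (by norm_num)]
    linarith
  rcases Nat.lt_or_ge T.card 2 with hT1 | hT2
  · -- a single centre
    have hT1' : T.card = 1 := by have := hTne.card_pos; omega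
    rw [hT1', one_pow, Finset.card_le_one]
    intro x hx x' hx'
    by_contra hne
    obtain ⟨y, hy, hy2⟩ := hX.2 x hx x' hx' hne
    obtain ⟨w0, hw0⟩ := Finset.card_eq_one.mp hT1'
    have hsmall : ∀ v ∈ Y, ∀ z ∈ X, B v z ≤ δ * σ := by
      intro v hv z hz
      obtain ⟨w, hw, hw2⟩ := hnet v hv
      obtain ⟨w', hw', hw2'⟩ := hnet (-v) (hY.neg v hv)
      rw [hw0, Finset.mem_singleton] at hw hw'
      subst hw; subst hw'
      have a1 := (abs_le.mp (hw2 z (hX.1 z hz))).2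
      have a2 := (abs_le.mp (hw2' z (hX.1 z hz))).1
      simp only [map_sub, map_neg, LinearMap.sub_apply, LinearMap.neg_apply] at a1 a2
      linarith
    have b1 := hsmall y hy x hx
    have b2 := hsmall (-y) (hY.neg y hy) x' hx'
    rw [map_neg, LinearMap.neg_apply] at b2
    rw [map_sub] at hy2
    have b3 : δ * σ ≤ 1 / 4 * σ := mul_le_mul_of_nonneg_right hδ1 hσ.le
    linarith
  · -- rescale the pairing
    have hσinv : 0 < 1 / σ := by positivity
    have hB' : ∀ (v : V) (z : W), ((1 / σ : ℝ) • B) v z = (1 / σ) * B v z := by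
      intro v z
      rw [LinearMap.smul_apply, LinearMap.smul_apply, smul_eq_mul]
    have hBD : ∀ y ∈ Y, ∀ x ∈ X, |((1 / σ : ℝ) • B) y x| ≤ 1024 * (J + 1) := by
      intro y hy x hx
      rw [hB', abs_mul, abs_of_pos hσinv]
      have := lay_abs hY (hX.1 x hx) hy
      calc 1 / σ * |B y x| ≤ 1 / σ * (2 * ρ * σ) := mul_le_mul_of_nonneg_left this hσinv.le
        _ = 2 * ρ := by field_simp
        _ = 1024 * (J + 1) := by rw [hρ]; ring
    have hnet' : ∀ s ∈ Y, ∃ w ∈ T, ∀ x ∈ X, |((1 / σ : ℝ) • B) (s - w) x| ≤ δ := by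
      intro s hs
      obtain ⟨w, hw, hw2⟩ := hnet s hs
      refine ⟨w, hw, fun x hx => ?_⟩
      rw [hB', abs_mul, abs_of_pos hσinv]
      calc 1 / σ * |B (s - w) x| ≤ 1 / σ * (δ * σ) :=
            mul_le_mul_of_nonneg_left (hw2 x (hX.1 x hx)) hσinv.le
        _ = δ := by field_simp
    have hsep : ∀ x ∈ X, ∀ x' ∈ X, x ≠ x' → ∃ y ∈ Y, 1 ≤ ((1 / σ : ℝ) • B) y (x - x') := by
      intro x hx x' hx' hne
      obtain ⟨y, hy, hy2⟩ := hX.2 x hx x' hx' hne
      refine ⟨y, hy, ?_⟩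
      rw [hB']
      calc (1 : ℝ) = 1 / σ * σ := by field_simp
        _ ≤ 1 / σ * B y (x - x') := mul_le_mul_of_nonneg_left hy2.le hσinv.le
    have hD1 : (1 : ℝ) ≤ 1024 * (J + 1) := by linarith
    rcases Nat.lt_or_ge J T.card with hA | hB
    · -- case A
      have h1 := layer_bound hXne hY hTY hTne J (M := 65536 * (J + 1) ^ 2) hδ.le hD1 hBD hnet'
        (by push_cast; nlinarith) hκ (by
          refine le_trans ?_ hκ2
          have hpos : (0 : ℝ) < T.card := by exact_mod_cast hTne.card_pos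
          have hle : (T.card : ℝ) ≤ K₀ := by exact_mod_cast hTc
          have : Real.log (2 * (((65536 * (J + 1) ^ 2 : ℕ) + 1) * (T.card : ℝ))) ≤
              Real.log (2 * (((65536 * (J + 1) ^ 2 : ℕ) + 1) * (K₀ : ℝ))) := by
            apply Real.log_le_log (by positivity)
            gcongr
          linarith) hsep
      refine h1.trans ?_
      have h2 := base_le hT2 hA
      calc 2 * ((65536 * (J + 1) ^ 2 + 1) * T.card + 1) ^ (J * (⌊2 * κ⌋₊ + 1))
          ≤ T.card * (T.card ^ 20) ^ (J * (⌊2 * κ⌋₊ + 1)) :=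
            Nat.mul_le_mul hT2 (Nat.pow_le_pow_left h2 _)
        _ = T.card ^ (1 + 20 * (J * (⌊2 * κ⌋₊ + 1))) := by
            rw [← pow_mul, pow_add, pow_one]
        _ ≤ T.card ^ E := Nat.pow_le_pow_right (by omega) (by rw [hE]; omega)
    · -- case B
      set s := Nat.sqrt J with hs
      have hs1 : 1 ≤ s := by
        rw [hs, Nat.le_sqrt]; simpa using hJ
      have hsJ : s * s ≤ J := Nat.sqrt_le J
      have hJs : J + 1 ≤ (s + 1) ^ 2 := by
        have := Nat.lt_succ_sqrt J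
        rw [sq]
        exact this
      have hsle : s ≤ J := Nat.sqrt_le_self J
      have hsleR : (s : ℝ) ≤ J := by exact_mod_cast hsle
      have hs2 : s + 1 ≤ 2 ^ s := Nat.lt_two_pow_self
      have hJ6 : (J + 1) ^ 3 ≤ 2 ^ (6 * s) := by
        calc (J + 1) ^ 3 ≤ ((s + 1) ^ 2) ^ 3 := Nat.pow_le_pow_left hJs 3
          _ = (s + 1) ^ 6 := by rw [← pow_mul]
          _ ≤ (2 ^ s) ^ 6 := Nat.pow_le_pow_left hs2 6
          _ = 2 ^ (6 * s) := by rw [← pow_mul, mul_comm]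
      have hbase := base_le' hB hJ
      have hlogb : 2 * Real.log (2 * (((65536 * (J + 1) ^ 2 : ℕ) + 1) * (T.card : ℝ))) ≤
          36 * (J + 1) := by
        have hpos : (0 : ℝ) < T.card := by exact_mod_cast hTne.card_pos
        have h1 : (2 * (((65536 * (J + 1) ^ 2 : ℕ) + 1) * (T.card : ℝ))) ≤
            2 ^ 18 * ((J : ℝ) + 1) ^ 3 := by
          have : (2 * ((65536 * (J + 1) ^ 2 + 1) * T.card) : ℕ) ≤ 2 ^ 18 * (J + 1) ^ 3 := by
            have := hbase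
            rw [show 2 ^ 18 = 2 * 2 ^ 17 by norm_num]
            rw [mul_assoc 2 (2 ^ 17)]
            omega
          exact_mod_cast this
        have h2 : Real.log (2 * (((65536 * (J + 1) ^ 2 : ℕ) + 1) * (T.card : ℝ))) ≤
            Real.log (2 ^ 18 * ((J : ℝ) + 1) ^ 3) := Real.log_le_log (by positivity) h1
        have h5 : Real.log (2 ^ 18 * ((J : ℝ) + 1) ^ 3) =
            18 * Real.log 2 + 3 * Real.log ((J : ℝ) + 1) := by
          rw [Real.log_mul (by positivity) (by positivity), Real.log_pow, Real.log_pow]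
          push_cast
          ring
        rw [h5] at h2
        have h3 := log_succ_le J
        have h4 := log_two_le_one
        linarith
      have h1 := layer_bound hXne hY hTY hTne s (M := 65536 * (J + 1) ^ 2) (D := 1024 * (J + 1))
        (κ := (2 : ℝ) ^ 40) (δ := δ)
        (by
          rw [hδ]
          apply one_div_le_one_div_of_le (by positivity)
          linarith) hD1 hBD hnet'
        (by push_cast; nlinarith) (by positivity) (by
          refine hlogb.trans ?_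
          rw [mul_one_div, le_div_iff₀ (by positivity)]
          have e1 : 36 * ((J : ℝ) + 1) * (256 * (1024 * (J + 1)) ^ 2) ≤
              2 ^ 34 * ((J : ℝ) + 1) ^ 3 := by
            have : (0 : ℝ) ≤ ((J : ℝ) + 1) ^ 3 := by positivity
            nlinarith
          have e2 : ((J : ℝ) + 1) ^ 3 ≤ 2 ^ (6 * s) := by exact_mod_cast hJ6
          have e3 : (2 : ℝ) ^ 34 * 2 ^ (6 * s) ≤ (2 ^ 40) ^ s := by
            rw [← pow_mul, ← pow_add]
            exact pow_le_pow_right₀ (by norm_num) (by omega)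
          calc 36 * ((J : ℝ) + 1) * (256 * (1024 * (J + 1)) ^ 2)
              ≤ 2 ^ 34 * ((J : ℝ) + 1) ^ 3 := e1
            _ ≤ 2 ^ 34 * 2 ^ (6 * s) := by gcongr
            _ ≤ _ := e3) hsep
      refine h1.trans ?_
      have hbase2 : (65536 * (J + 1) ^ 2 + 1) * T.card + 1 ≤ 2 ^ (23 * s) := by
        calc (65536 * (J + 1) ^ 2 + 1) * T.card + 1 ≤ 2 ^ 17 * (J + 1) ^ 3 := hbase
          _ ≤ 2 ^ 17 * 2 ^ (6 * s) := Nat.mul_le_mul_left _ hJ6
          _ = 2 ^ (17 + 6 * s) := by rw [← pow_add]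
          _ ≤ 2 ^ (23 * s) := Nat.pow_le_pow_right (by norm_num) (by omega)
      calc 2 * ((65536 * (J + 1) ^ 2 + 1) * T.card + 1) ^ (s * (⌊2 * (2 : ℝ) ^ 40⌋₊ + 1))
          ≤ 2 * (2 ^ (23 * s)) ^ (s * (⌊2 * (2 : ℝ) ^ 40⌋₊ + 1)) :=
            Nat.mul_le_mul_left _ (Nat.pow_le_pow_left hbase2 _)
        _ ≤ 2 * (2 ^ (23 * s)) ^ (s * Q) :=
            Nat.mul_le_mul_left _ (Nat.pow_le_pow_right (by positivity)
              (Nat.mul_le_mul_left _ hQ))
        _ = 2 ^ (1 + 23 * (s * s * Q)) := by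
            rw [← pow_mul, pow_add, pow_one]
            congr 2
            ring
        _ ≤ 2 ^ (1 + 23 * (J * Q)) := by
            apply Nat.pow_le_pow_right (by norm_num)
            have := Nat.mul_le_mul_right Q hsJ
            omega
        _ ≤ T.card ^ (1 + 23 * (J * Q)) := Nat.pow_le_pow_left hT2 _
        _ ≤ T.card ^ E := Nat.pow_le_pow_right (by omega) (by rw [hE]; omega)

end Vale.Agent.P126.AL
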