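import Vale.Agent.P126.AL4

/-!
P126, near-linear duality, part 5: the core theorem in numerical form, and both inequalities for
symmetric convex bodies.
-/

namespace Vale.Agent.P126.AL

open Finset

/-- Numerical lemma: the condition on `κ`. -/
lemma kappa_cond {J k : ℕ} (hJ : 1 ≤ J) (hk : 2 ≤ k) {ℓ : ℝ} (hℓ : ℓ = Real.log k) :
    2 * Real.log (2 * (((65536 * (J + 1) ^ 2 : ℕ) + 1) * k)) ≤
      (2 ^ 38 * ℓ ^ ((J : ℝ)⁻¹)) ^ J * (1 / (256 * (1024 * (J + 1)) ^ 2)) := by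
  have hk0 : (0 : ℝ) < k := by positivity
  have hℓ2 : 1 / 2 ≤ ℓ := by
    have h1 : (0.6931471803 : ℝ) < Real.log 2 := Real.log_two_gt_d9
    have h2 : Real.log 2 ≤ Real.log k := Real.log_le_log (by norm_num) (by exact_mod_cast hk)
    rw [hℓ]; linarith
  have hJR : (1 : ℝ) ≤ J := by exact_mod_cast hJ
  have hpow : (2 ^ 38 * ℓ ^ ((J : ℝ)⁻¹)) ^ J = 2 ^ (38 * J) * ℓ := by
    rw [mul_pow, Real.rpow_inv_natCast_pow (by linarith) (by omega), ← pow_mul]
  rw [hpow, mul_one_div, le_div_iff₀ (by positivity)]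
  have h1 : Real.log (2 * (((65536 * (J + 1) ^ 2 : ℕ) + 1) * k)) ≤
      18 * Real.log 2 + 2 * Real.log ((J : ℝ) + 1) + ℓ := by
    have e : 18 * Real.log 2 + 2 * Real.log ((J : ℝ) + 1) + ℓ =
        Real.log (2 ^ 18 * ((J : ℝ) + 1) ^ 2 * k) := by
      rw [Real.log_mul (by positivity) (by positivity), Real.log_mul (by positivity)
        (by positivity), Real.log_pow, Real.log_pow, hℓ]
      push_cast
      ring
    rw [e]
    apply Real.log_le_log (by positivity)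
    push_cast
    have : (2 * (65536 * ((J : ℝ) + 1) ^ 2 + 1)) ≤ 2 ^ 18 * ((J : ℝ) + 1) ^ 2 := by nlinarith
    calc 2 * ((65536 * ((J : ℝ) + 1) ^ 2 + 1) * k) = (2 * (65536 * ((J : ℝ) + 1) ^ 2 + 1)) * k := by
          ring
      _ ≤ 2 ^ 18 * ((J : ℝ) + 1) ^ 2 * k := by gcongr
  have h3 := log_succ_le J
  have h4 := log_two_le_one
  have h5 : Real.log (2 * (((65536 * (J + 1) ^ 2 : ℕ) + 1) * k)) ≤ 64 * ((J : ℝ) + 1) * ℓ := by
    nlinarith
  have h6 : ((J : ℝ) + 1) ^ 3 ≤ 2 ^ (3 * J) := by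
    have : J + 1 ≤ 2 ^ J := Nat.lt_two_pow_self
    have h : (J + 1) ^ 3 ≤ 2 ^ (3 * J) := by
      calc (J + 1) ^ 3 ≤ (2 ^ J) ^ 3 := Nat.pow_le_pow_left this 3
        _ = 2 ^ (3 * J) := by rw [← pow_mul, mul_comm]
    exact_mod_cast h
  have h7 : (2 : ℝ) ^ 35 * 2 ^ (3 * J) ≤ 2 ^ (38 * J) := by
    rw [← pow_add]
    exact pow_le_pow_right₀ (by norm_num) (by omega)
  have hℓ0 : 0 < ℓ := by linarith
  calc 2 * Real.log (2 * (((65536 * (J + 1) ^ 2 : ℕ) + 1) * k)) *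
        (256 * (1024 * ((J : ℝ) + 1)) ^ 2)
      ≤ 2 * (64 * ((J : ℝ) + 1) * ℓ) * (256 * (1024 * ((J : ℝ) + 1)) ^ 2) := by gcongr
    _ = 2 ^ 35 * ((J : ℝ) + 1) ^ 3 * ℓ := by ring
    _ ≤ 2 ^ 35 * 2 ^ (3 * J) * ℓ := by gcongr
    _ ≤ 2 ^ (38 * J) * ℓ := by gcongr

lemma floor_const : ⌊2 * (2 : ℝ) ^ 40⌋₊ = 2 ^ 41 := by
  have : 2 * (2 : ℝ) ^ 40 = ((2 ^ 41 : ℕ) : ℝ) := by push_cast; norm_num
  rw [this, Nat.floor_natCast]

/-- The core theorem in numerical form. -/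
theorem core_log {V W : Type*} [AddCommGroup V] [Module ℝ V] [AddCommGroup W] [Module ℝ W]
    {B : V →ₗ[ℝ] W →ₗ[ℝ] ℝ} {Y : Set V} {Z : Set W} (hY : SymConv Y)
    (hZ : SymConv Z) {J : ℕ} (hJ : 1 ≤ J) (t : Finset V)
    (ht : ∀ y ∈ Y, ∃ w ∈ t, ∀ z ∈ Z, B (y - w) z ≤ 1 / (1024 * (J + 1))) :
    ∃ u : Finset W, Real.log u.card ≤ 2 ^ 48 * J * (Real.log t.card) ^ (1 + 1 / (J : ℝ)) ∧
      ∀ z ∈ Z, ∃ w ∈ u, ∀ v ∈ Y, B v (z - w) ≤ 1 := by
  have hJR : (1 : ℝ) ≤ J := by exact_mod_cast hJ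
  have hkpos : 0 < t.card := by
    obtain ⟨w, hw, _⟩ := ht 0 hY.zero
    exact Finset.card_pos.mpr ⟨w, hw⟩
  have hc1 : 1 / (1024 * ((J : ℝ) + 1)) ≤ 1 / 2 :=
    one_div_le_one_div_of_le (by norm_num) (by linarith)
  rcases Nat.lt_or_ge t.card 2 with h1 | h2
  · have hk : t.card = 1 := by omega
    refine ⟨{0}, ?_, fun z hz => ⟨0, by simp, fun v hv => ?_⟩⟩
    · rw [hk]
      simp only [Finset.card_singleton, Nat.cast_one, Real.log_one]
      rw [Real.zero_rpow (by positivity), mul_zero]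
    · have := pairing_bound' hY hZ (by positivity) t ht hv hz
      rw [hk] at this
      rw [sub_zero]
      push_cast at this
      linarith
  · set ℓ := Real.log t.card with hℓ
    have hℓ2 : 1 / 2 ≤ ℓ := by
      have h1 : (0.6931471803 : ℝ) < Real.log 2 := Real.log_two_gt_d9
      have h3 : Real.log 2 ≤ Real.log t.card :=
        Real.log_le_log (by norm_num) (by exact_mod_cast h2)
      rw [hℓ]; linarith
    have hℓ0 : 0 < ℓ := by linarith
    set p := ℓ ^ ((J : ℝ)⁻¹) with hp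
    have hp0 : 0 < p := Real.rpow_pos_of_pos hℓ0 _
    have hp2 : 1 / 2 ≤ p := by
      rcases le_total 1 ℓ with h | h
      · have := Real.one_le_rpow h (by positivity : (0 : ℝ) ≤ (J : ℝ)⁻¹)
        linarith
      · have h3 : (J : ℝ)⁻¹ ≤ 1 := inv_le_one_of_one_le₀ hJR
        have := Real.rpow_le_rpow_of_exponent_ge hℓ0 h h3
        rw [Real.rpow_one] at this
        linarith
    set κ := 2 ^ 38 * p with hκ
    have hκ0 : 0 < κ := by positivity
    have hκ2 := kappa_cond hJ h2 hℓ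
    obtain ⟨Q, hQ⟩ : ∃ Q : ℕ, Q = ⌊2 * (2 : ℝ) ^ 40⌋₊ + 1 := ⟨_, rfl⟩
    have hQR : (Q : ℝ) ≤ 2 ^ 41 + 1 := by
      rw [hQ, floor_const]; push_cast; norm_num
    set E := 1 + 20 * (J * (⌊2 * κ⌋₊ + 1)) + 23 * (J * Q) with hE
    obtain ⟨u, hu, hu2⟩ := assemble (B := B) hY hZ (ρ := 512 * (J + 1))
      (δ := 1 / (32 * (J + 1))) (c := 1 / (1024 * (J + 1))) (by positivity) (by linarith)
      (by field_simp; norm_num)
      (by
        have : 4 * (1 / (1024 * ((J : ℝ) + 1))) = (1 / 2) * (1 / (32 * ((J : ℝ) + 1)) / 4) := by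
          field_simp; norm_num
        rw [this]
        have : 0 < 1 / (32 * ((J : ℝ) + 1)) / 4 := by positivity
        linarith) (by positivity) hc1 t ht E
      (fun i T X hTc hTY hnet hX =>
        layer_card hY hJ rfl rfl hκ0 hκ2 hQ.ge i T X hTc hTY.1 hnet hX)
    refine ⟨u, ?_, hu2⟩
    have hER : (E : ℝ) ≤ 2 ^ 47 * J * p := by
      have hfl : (⌊2 * κ⌋₊ : ℝ) ≤ 2 ^ 39 * p := by
        refine (Nat.floor_le (by positivity)).trans (le_of_eq ?_)
        rw [hκ]; ring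
      rw [hE]
      push_cast
      have e1 : 20 * ((J : ℝ) * ((⌊2 * κ⌋₊ : ℝ) + 1)) ≤ 20 * (J * (2 ^ 39 * p + 1)) := by gcongr
      have e2 : 23 * ((J : ℝ) * Q) ≤ 23 * (J * (2 ^ 41 + 1)) := by gcongr
      have e3 : (1 : ℝ) ≤ J * 1 := by linarith
      have e4 : (J : ℝ) * 1 + 20 * (J * (2 ^ 39 * p + 1)) + 23 * (J * (2 ^ 41 + 1)) =
          J * (1 + 20 * (2 ^ 39 * p + 1) + 23 * (2 ^ 41 + 1)) := by ring
      have e5 : 1 + 20 * (2 ^ 39 * p + 1) + 23 * (2 ^ 41 + 1) ≤ 2 ^ 47 * p := by nlinarith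
      calc 1 + 20 * ((J : ℝ) * ((⌊2 * κ⌋₊ : ℝ) + 1)) + 23 * (J * Q)
          ≤ J * 1 + 20 * (J * (2 ^ 39 * p + 1)) + 23 * (J * (2 ^ 41 + 1)) := by linarith
        _ = J * (1 + 20 * (2 ^ 39 * p + 1) + 23 * (2 ^ 41 + 1)) := e4
        _ ≤ J * (2 ^ 47 * p) := by gcongr
        _ = _ := by ring
    have hupos : 0 < u.card := by
      obtain ⟨w, hw, _⟩ := hu2 0 hZ.zero
      exact Finset.card_pos.mpr ⟨w, hw⟩
    have hlog : Real.log u.card ≤ E * (2 * ℓ) := by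
      have h3 : (u.card : ℝ) ≤ ((t.card : ℝ) ^ 2) ^ E := by exact_mod_cast hu
      have h4 := Real.log_le_log (by exact_mod_cast hupos) h3
      rw [Real.log_pow, Real.log_pow] at h4
      push_cast at h4
      exact h4
    have hfin : ℓ ^ (1 + 1 / (J : ℝ)) = ℓ * p := by
      rw [Real.rpow_add hℓ0, Real.rpow_one, one_div]
    rw [hfin]
    calc Real.log u.card ≤ E * (2 * ℓ) := hlog
      _ ≤ (2 ^ 47 * J * p) * (2 * ℓ) := by gcongr
      _ = 2 ^ 48 * J * (ℓ * p) := by ring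

open scoped Pointwise

variable {n : ℕ}

lemma symConv_body {K : Set (E n)} (hK : IsSymBody K) : SymConv K :=
  ⟨hK.convex, hK.symm, hK.zero_mem⟩

lemma symConv_polar {K : Set (E n)} (hK : IsSymBody K) : SymConv (polar K) :=
  ⟨polar_convex K, fun _ hy => neg_mem_polar hK.symm hy, zero_mem_polar K⟩

lemma log_coverNum_le {A B : Set (E n)} (u : Finset (E n)) (h : ∀ a ∈ A, ∃ x ∈ u, a - x ∈ B) :
    Real.log (coverNum A B) ≤ Real.log u.card := by
  have h1 := coverNum_le u h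
  rcases Nat.eq_zero_or_pos (coverNum A B) with h0 | h0
  · rw [h0]
    simp only [Nat.cast_zero, Real.log_zero]
    rcases Nat.eq_zero_or_pos u.card with h2 | h2
    · simp [h2]
    · exact Real.log_nonneg (by exact_mod_cast h2)
  · exact Real.log_le_log (by exact_mod_cast h0) (by exact_mod_cast h1)

/-- `log N(K, L) ≤ C J (log N(L°, a⁻¹ K°))^{1+1/J}` for every `a ≥ 1024 (J + 1)`. -/
theorem upper {J : ℕ} (hJ : 1 ≤ J) {a : ℝ} (ha : 1024 * ((J : ℝ) + 1) ≤ a) (K L : Set (E n))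
    (hK : IsSymBody K) (hL : IsSymBody L) :
    Real.log (coverNum K L) ≤ 2 ^ 48 * J *
      (Real.log (coverNum (polar L) (a⁻¹ • polar K))) ^ (1 + 1 / (J : ℝ)) := by
  have ha0 : 0 < a := lt_of_lt_of_le (by positivity) ha
  obtain ⟨ε, hε, hball⟩ := exists_ball_subset_polar hK.compact
  have hcov : ∃ t : Finset (E n), polar L ⊆ ⋃ x ∈ t, (fun b => x + b) '' (a⁻¹ • polar K) := by
    apply exists_cover (polar_bounded hL) (ε := ε / a) (by positivity)
    intro y hy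
    rw [Set.mem_inv_smul_set_iff₀ ha0.ne']
    apply hball
    rw [mem_ball_zero_iff] at hy ⊢
    rw [norm_smul, Real.norm_of_nonneg ha0.le]
    rw [lt_div_iff₀ ha0] at hy
    linarith
  obtain ⟨t, ht, ht2⟩ := coverNum_spec hcov
  obtain ⟨u, hu, hu2⟩ := core_log (B := innerₗ (E n)) (symConv_polar hL) (symConv_body hK) hJ t
    (by
      intro y hy
      obtain ⟨w, hw, hw2⟩ := ht2 y hy
      refine ⟨w, hw, fun z hz => ?_⟩
      rw [Set.mem_inv_smul_set_iff₀ ha0.ne'] at hw2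
      have h1 := hw2 z hz
      rw [inner_smul_right] at h1
      rw [innerₗ_apply_apply, real_inner_comm]
      have h2 : inner ℝ z (y - w) ≤ 1 / a := by
        rw [le_div_iff₀ ha0]; linarith
      exact h2.trans (one_div_le_one_div_of_le (by positivity) ha))
  rw [ht] at hu
  refine (log_coverNum_le u fun z hz => ?_).trans hu
  obtain ⟨w, hw, hw2⟩ := hu2 z hz
  exact ⟨w, hw, mem_of_bipolar hL fun y hy => by simpa using hw2 y hy⟩

/-- `log N(L°, a K°) ≤ C J (log N(K, L))^{1+1/J}` for every `a ≥ 1024 (J + 1)`. -/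
theorem lower {J : ℕ} (hJ : 1 ≤ J) {a : ℝ} (ha : 1024 * ((J : ℝ) + 1) ≤ a) (K L : Set (E n))
    (hK : IsSymBody K) (hL : IsSymBody L) :
    Real.log (coverNum (polar L) (a • polar K)) ≤ 2 ^ 48 * J *
      (Real.log (coverNum K L)) ^ (1 + 1 / (J : ℝ)) := by
  classical
  have ha0 : 0 < a := lt_of_lt_of_le (by positivity) ha
  obtain ⟨δ, hδ, hball⟩ := Metric.isOpen_iff.mp isOpen_interior 0 hL.zero_mem_interior
  have hcov : ∃ t : Finset (E n), K ⊆ ⋃ x ∈ t, (fun b => x + b) '' L :=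
    exists_cover hK.compact.isBounded hδ (hball.trans interior_subset)
  obtain ⟨t, ht, ht2⟩ := coverNum_spec hcov
  have hpol := symConv_polar hL
  have hZ : SymConv (a⁻¹ • polar L) := by
    refine ⟨hpol.convex.smul _, fun z hz => ?_, ?_⟩
    · rw [Set.mem_inv_smul_set_iff₀ ha0.ne'] at hz ⊢
      rw [smul_neg]
      exact hpol.neg _ hz
    · rw [Set.mem_inv_smul_set_iff₀ ha0.ne', smul_zero]
      exact hpol.zero
  obtain ⟨u, hu, hu2⟩ := core_log (B := innerₗ (E n)) (symConv_body hK) hZ hJ t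
    (by
      intro y hy
      obtain ⟨w, hw, hw2⟩ := ht2 y hy
      refine ⟨w, hw, fun z hz => ?_⟩
      rw [Set.mem_inv_smul_set_iff₀ ha0.ne'] at hz
      have h1 := hz _ hw2
      rw [inner_smul_right] at h1
      rw [innerₗ_apply_apply]
      have h2 : inner ℝ (y - w) z ≤ 1 / a := by
        rw [le_div_iff₀ ha0]; linarith
      exact h2.trans (one_div_le_one_div_of_le (by positivity) ha))
  rw [ht] at hu
  have hcard : (u.image fun w => a • w).card = u.card :=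
    Finset.card_image_of_injective _ (smul_right_injective _ ha0.ne')
  have h1 := log_coverNum_le (A := polar L) (B := a • polar K)
    (u.image fun w => a • w) (fun z hz => by
      obtain ⟨w, hw, hw2⟩ := hu2 (a⁻¹ • z) (Set.smul_mem_smul_set hz)
      refine ⟨a • w, Finset.mem_image_of_mem _ hw, ?_⟩
      rw [Set.mem_smul_set_iff_inv_smul_mem₀ ha0.ne']
      intro x hx
      have := hw2 x hx
      rw [innerₗ_apply_apply] at this
      rwa [smul_sub, inv_smul_smul₀ ha0.ne'])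
  rw [hcard] at h1
  exact h1.trans hu

end Vale.Agent.P126.AL
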