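import Vale.Agent.P126.AL5

/-!
P126, near-linear duality, part 6: the `ε`-form and the `log log N` form.
-/

namespace Vale.Agent.P126.AL

open scoped Pointwise

variable {n : ℕ}

/-- Duality with both losses at most a constant times `1 + log (1 + log N(K, L))`. -/
theorem loglog (K L : Set (E n)) (hK : IsSymBody K) (hL : IsSymBody L) {a : ℝ}
    (ha : a = 2 ^ 50 * (1 + Real.log (1 + Real.log (coverNum K L)))) :
    Real.log (coverNum (polar L) (a • polar K)) ≤ a * Real.log (coverNum K L) ∧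
    Real.log (coverNum K L) ≤ a * Real.log (coverNum (polar L) (a⁻¹ • polar K)) := by
  set k := Real.log (coverNum K L) with hk
  have hk0 : 0 ≤ k := Real.log_natCast_nonneg _
  have hlk : 0 ≤ Real.log (1 + k) := Real.log_nonneg (by linarith)
  set J := ⌊Real.log (1 + k)⌋₊ + 1 with hJ
  have hJ1 : 1 ≤ J := by omega
  have hJR : (1 : ℝ) ≤ J := by exact_mod_cast hJ1
  have hJle : (J : ℝ) ≤ 1 + Real.log (1 + k) := by
    have := Nat.floor_le hlk
    rw [hJ]; push_cast; linarith
  have hJge : Real.log (1 + k) ≤ J := by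
    have := (Nat.lt_floor_add_one (Real.log (1 + k))).le
    rw [hJ]; push_cast; exact this
  have haJ : 2 ^ 50 * (J : ℝ) ≤ a := by rw [ha]; gcongr
  have ha1 : 1024 * ((J : ℝ) + 1) ≤ a := by linarith
  have ha0 : 1 ≤ a := by linarith
  have hroot : ∀ x : ℝ, 0 ≤ x → x ≤ k → x ^ (1 + 1 / (J : ℝ)) ≤ 3 * x := by
    intro x hx0 hxk
    rcases eq_or_lt_of_le hx0 with h | h
    · rw [← h, Real.zero_rpow (by positivity)]; simp
    · rw [Real.rpow_add h, Real.rpow_one, mul_comm]
      apply mul_le_mul_of_nonneg_right _ hx0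
      calc x ^ (1 / (J : ℝ)) ≤ (1 + k) ^ (1 / (J : ℝ)) :=
            Real.rpow_le_rpow hx0 (by linarith) (by positivity)
        _ = Real.exp (Real.log (1 + k) * (1 / (J : ℝ))) := Real.rpow_def_of_pos (by linarith) _
        _ ≤ Real.exp 1 := by
            apply Real.exp_le_exp.mpr
            rw [mul_one_div, div_le_one (by linarith)]
            exact hJge
        _ ≤ 3 := by
            have := Real.exp_one_lt_d9
            linarith
  constructor
  · have h1 := lower hJ1 ha1 K L hK hL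
    rw [← hk] at h1
    calc Real.log (coverNum (polar L) (a • polar K)) ≤ 2 ^ 48 * J * k ^ (1 + 1 / (J : ℝ)) := h1
      _ ≤ 2 ^ 48 * J * (3 * k) := by gcongr; exact hroot k hk0 le_rfl
      _ ≤ (2 ^ 50 * J) * k := by nlinarith [mul_nonneg (by linarith : (0 : ℝ) ≤ J) hk0]
      _ ≤ a * k := by gcongr
  · have h1 := upper hJ1 ha1 K L hK hL
    rw [← hk] at h1
    set m := Real.log (coverNum (polar L) (a⁻¹ • polar K)) with hm
    have hm0 : 0 ≤ m := Real.log_natCast_nonneg _
    rcases le_total m k with h | h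
    · calc k ≤ 2 ^ 48 * J * m ^ (1 + 1 / (J : ℝ)) := h1
        _ ≤ 2 ^ 48 * J * (3 * m) := by gcongr; exact hroot m hm0 h
        _ ≤ (2 ^ 50 * J) * m := by nlinarith [mul_nonneg (by linarith : (0 : ℝ) ≤ J) hm0]
        _ ≤ a * m := by gcongr
    · calc k ≤ 1 * m := by linarith
        _ ≤ a * m := by gcongr

lemma rpow_exponent {J : ℕ} {ε : ℝ} (hJ : 1 ≤ J) (hε : 0 < ε) (hJε : 1 / (J : ℝ) ≤ ε) (N : ℕ) :
    (Real.log N) ^ (1 + 1 / (J : ℝ)) ≤ 2 ^ (1 + ε) * (Real.log N) ^ (1 + ε) := by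
  set x := Real.log N with hx
  rcases Nat.lt_or_ge N 2 with h1 | h2
  · have hx0 : x = 0 := by
      have : N = 0 ∨ N = 1 := by omega
      rcases this with h | h <;> rw [hx, h] <;> simp
    rw [hx0, Real.zero_rpow (by positivity), Real.zero_rpow (by positivity), mul_zero]
  · have hx2 : 1 / 2 ≤ x := by
      have h1 : (0.6931471803 : ℝ) < Real.log 2 := Real.log_two_gt_d9
      have h3 : Real.log 2 ≤ Real.log N :=
        Real.log_le_log (by norm_num) (by exact_mod_cast h2)
      rw [hx]; linarith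
    have hx0 : 0 < x := by linarith
    have h2ε : (1 : ℝ) ≤ 2 ^ (1 + ε) := Real.one_le_rpow (by norm_num) (by linarith)
    have hxε : 0 < x ^ (1 + ε) := Real.rpow_pos_of_pos hx0 _
    rcases le_total 1 x with h | h
    · calc x ^ (1 + 1 / (J : ℝ)) ≤ x ^ (1 + ε) :=
            Real.rpow_le_rpow_of_exponent_le h (by linarith)
        _ = 1 * x ^ (1 + ε) := (one_mul _).symm
        _ ≤ 2 ^ (1 + ε) * x ^ (1 + ε) := by gcongr
    · calc x ^ (1 + 1 / (J : ℝ)) ≤ 1 := Real.rpow_le_one hx0.le h (by positivity)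
        _ ≤ (2 * x) ^ (1 + ε) := Real.one_le_rpow (by linarith) (by linarith)
        _ = 2 ^ (1 + ε) * x ^ (1 + ε) := Real.mul_rpow (by norm_num) hx0.le

/-- Duality with exponent `1 + ε` and constants depending only on `ε`. -/
theorem eps_form (ε : ℝ) (hε : 0 < ε) : ∃ a b : ℝ, 1 ≤ a ∧ 1 ≤ b ∧ ∀ n : ℕ, 1 ≤ n →
    ∀ K L : Set (E n), IsSymBody K → IsSymBody L →
      Real.log (coverNum (polar L) (a • polar K)) ≤ b * (Real.log (coverNum K L)) ^ (1 + ε) ∧
      Real.log (coverNum K L) ≤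
        b * (Real.log (coverNum (polar L) (a⁻¹ • polar K))) ^ (1 + ε) := by
  set J := ⌈1 / ε⌉₊ with hJ
  have hJ1 : 1 ≤ J := Nat.one_le_ceil_iff.mpr (by positivity)
  have hJR : (1 : ℝ) ≤ J := by exact_mod_cast hJ1
  have hJε : 1 / (J : ℝ) ≤ ε := by
    have := Nat.le_ceil (1 / ε)
    rw [← hJ] at this
    rw [div_le_iff₀ (by linarith)]
    rw [div_le_iff₀ hε] at this
    linarith
  have h2ε : (1 : ℝ) ≤ 2 ^ (1 + ε) := Real.one_le_rpow (by norm_num) (by linarith)
  refine ⟨1024 * ((J : ℝ) + 1), 2 ^ 48 * J * 2 ^ (1 + ε), by linarith, ?_, ?_⟩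
  · have : (1 : ℝ) ≤ 2 ^ 48 * J := by nlinarith
    nlinarith
  · intro n _ K L hK hL
    have h1 := lower hJ1 (le_refl _) K L hK hL
    have h2 := upper hJ1 (le_refl _) K L hK hL
    constructor
    · calc _ ≤ _ := h1
        _ ≤ 2 ^ 48 * J * (2 ^ (1 + ε) * (Real.log (coverNum K L)) ^ (1 + ε)) := by
            gcongr
            exact rpow_exponent hJ1 hε hJε _
        _ = _ := by ring
    · calc _ ≤ _ := h2
        _ ≤ 2 ^ 48 * J * (2 ^ (1 + ε) *
            (Real.log (coverNum (polar L) ((1024 * ((J : ℝ) + 1))⁻¹ • polar K))) ^ (1 + ε)) := by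
            gcongr
            exact rpow_exponent hJ1 hε hJε _
        _ = _ := by ring

end Vale.Agent.P126.AL
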