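import Vale.Agent.P126.AL6

/-!
P126, near-linear duality, part 7: a volume bound for the separated sets of a layer, and the
version of the theorem in which `log N` is replaced by `min (n, log N)` in the loss.
-/

namespace Vale.Agent.P126.AL

open Finset MeasureTheory
open scoped Pointwise

variable {n : ℕ}

/-- Packing bound: if the sets `a + cY`, `a ∈ T ⊆ Y`, are pairwise disjoint then
`card T ≤ ((1 + c) / c) ^ n`. -/
lemma vol_card {Y : Set (E n)} (hY : SymConv Y) (hcl : IsClosed Y) (hbd : Bornology.IsBounded Y)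
    (hint : (interior Y).Nonempty) {c : ℝ} (hc : 0 < c) (T : Finset (E n)) (hTY : ∀ a ∈ T, a ∈ Y)
    (hsep : ∀ a ∈ T, ∀ b ∈ T, a ≠ b → ∀ y ∈ Y, ∀ y' ∈ Y, a + c • y ≠ b + c • y') :
    (T.card : ℝ) ≤ ((1 + c) / c) ^ n := by
  classical
  set μ : Measure (E n) := volume with hμ
  have hpos : 0 < μ Y := (isOpen_interior.measure_pos μ hint).trans_le (measure_mono interior_subset)
  have hfin : μ Y < ⊤ := hbd.measure_lt_top
  have hmeas : ∀ a : E n, MeasurableSet (a +ᵥ (c • Y)) := fun a => by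
    have : IsClosed (a +ᵥ (c • Y)) := (hcl.smul₀ c).vadd a
    exact this.measurableSet
  have hdisj : (T : Set (E n)).PairwiseDisjoint (fun a => a +ᵥ (c • Y)) := by
    intro a ha b hb hab
    rw [Function.onFun, Set.disjoint_left]
    rintro x ⟨u, hu, hux⟩ ⟨v, hv, hvx⟩
    obtain ⟨y, hy, rfl⟩ := hu
    obtain ⟨y', hy', rfl⟩ := hv
    apply hsep a ha b hb hab y hy y' hy'
    have h1 : a + c • y = x := hux
    have h2 : b + c • y' = x := hvx
    rw [h1, h2]
  have hsub : (⋃ a ∈ T, (a +ᵥ (c • Y))) ⊆ (1 + c) • Y := by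
    intro x hx
    simp only [Set.mem_iUnion, exists_prop] at hx
    obtain ⟨a, ha, u, hu, hux⟩ := hx
    obtain ⟨y, hy, rfl⟩ := hu
    rw [Set.mem_smul_set_iff_inv_smul_mem₀ (by positivity)]
    have h1 : a + c • y = x := hux
    rw [← h1, smul_add, smul_smul]
    exact hY.add_mem (hTY a ha) hy (by positivity) (by positivity)
      (le_of_eq (by field_simp))
  have h1 : μ (⋃ a ∈ T, (a +ᵥ (c • Y))) = T.card * (ENNReal.ofReal (c ^ n) * μ Y) := by
    rw [measure_biUnion_finset hdisj (fun a _ => hmeas a)]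
    have : ∀ a ∈ T, μ (a +ᵥ (c • Y)) = ENNReal.ofReal (c ^ n) * μ Y := by
      intro a _
      rw [measure_vadd, Measure.addHaar_smul, finrank_euclideanSpace_fin,
        abs_of_nonneg (by positivity)]
    rw [Finset.sum_congr rfl this, Finset.sum_const, nsmul_eq_mul]
  have h2 : μ ((1 + c) • Y) = ENNReal.ofReal ((1 + c) ^ n) * μ Y := by
    rw [Measure.addHaar_smul, finrank_euclideanSpace_fin, abs_of_nonneg (by positivity)]
  have h3 := measure_mono (μ := μ) hsub
  rw [h1, h2, ← mul_assoc] at h3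
  have h4 : (T.card : ENNReal) * ENNReal.ofReal (c ^ n) ≤ ENNReal.ofReal ((1 + c) ^ n) :=
    (ENNReal.mul_le_mul_iff_left hpos.ne' hfin.ne).mp h3
  have h5 : ENNReal.ofReal ((T.card : ℝ) * c ^ n) ≤ ENNReal.ofReal ((1 + c) ^ n) := by
    rw [ENNReal.ofReal_mul (by positivity), ENNReal.ofReal_natCast]
    exact h4
  rw [ENNReal.ofReal_le_ofReal_iff (by positivity)] at h5
  rw [div_pow, le_div_iff₀ (by positivity)]
  exact h5

/-- Numerical lemma: the condition on `κ`. -/
lemma kappa_cond' {J k : ℕ} (hJ : 1 ≤ J) (hk : 1 ≤ k) {m : ℝ} (hm : 1 / 2 ≤ m)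
    (hkm : Real.log k ≤ 17 * ((J : ℝ) + 1) * m) :
    2 * Real.log (2 * (((65536 * (J + 1) ^ 2 : ℕ) + 1) * k)) ≤
      (2 ^ 38 * m ^ ((J : ℝ)⁻¹)) ^ J * (1 / (256 * (1024 * (J + 1)) ^ 2)) := by
  have hk0 : (0 : ℝ) < k := by exact_mod_cast hk
  have hJR : (1 : ℝ) ≤ J := by exact_mod_cast hJ
  have hpow : (2 ^ 38 * m ^ ((J : ℝ)⁻¹)) ^ J = 2 ^ (38 * J) * m := by
    rw [mul_pow, Real.rpow_inv_natCast_pow (by linarith) (by omega), ← pow_mul]
  rw [hpow, mul_one_div, le_div_iff₀ (by positivity)]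
  have h1 : Real.log (2 * (((65536 * (J + 1) ^ 2 : ℕ) + 1) * k)) ≤
      18 * Real.log 2 + 2 * Real.log ((J : ℝ) + 1) + Real.log k := by
    have e : 18 * Real.log 2 + 2 * Real.log ((J : ℝ) + 1) + Real.log k =
        Real.log (2 ^ 18 * ((J : ℝ) + 1) ^ 2 * k) := by
      rw [Real.log_mul (by positivity) (by positivity), Real.log_mul (by positivity)
        (by positivity), Real.log_pow, Real.log_pow]
      push_cast
      ring
    rw [e]
    apply Real.log_le_log (by positivity)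
    push_cast
    have : (2 * (65536 * ((J : ℝ) + 1) ^ 2 + 1)) ≤ 2 ^ 18 * ((J : ℝ) + 1) ^ 2 := by nlinarith
    calc 2 * ((65536 * ((J : ℝ) + 1) ^ 2 + 1) * k) = (2 * (65536 * ((J : ℝ) + 1) ^ 2 + 1)) * k := by
          ring
      _ ≤ 2 ^ 18 * ((J : ℝ) + 1) ^ 2 * k := by gcongr
  have h3 := log_succ_le J
  have h4 := log_two_le_one
  have h5 : Real.log (2 * (((65536 * (J + 1) ^ 2 : ℕ) + 1) * k)) ≤ 64 * ((J : ℝ) + 1) * m := by
    nlinarith
  have h6 : ((J : ℝ) + 1) ^ 3 ≤ 2 ^ (3 * J) := by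
    have : J + 1 ≤ 2 ^ J := Nat.lt_two_pow_self
    have h : (J + 1) ^ 3 ≤ 2 ^ (3 * J) := by
      calc (J + 1) ^ 3 ≤ (2 ^ J) ^ 3 := Nat.pow_le_pow_left this 3
        _ = 2 ^ (3 * J) := by rw [← pow_mul, mul_comm]
    exact_mod_cast h
  have h7 : (2 : ℝ) ^ 35 * 2 ^ (3 * J) ≤ 2 ^ (38 * J) := by
    rw [← pow_add]
    exact pow_le_pow_right₀ (by norm_num) (by omega)
  have hm0 : 0 < m := by linarith
  calc 2 * Real.log (2 * (((65536 * (J + 1) ^ 2 : ℕ) + 1) * k)) *
        (256 * (1024 * ((J : ℝ) + 1)) ^ 2)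
      ≤ 2 * (64 * ((J : ℝ) + 1) * m) * (256 * (1024 * ((J : ℝ) + 1)) ^ 2) := by gcongr
    _ = 2 ^ 35 * ((J : ℝ) + 1) ^ 3 * m := by ring
    _ ≤ 2 ^ 35 * 2 ^ (3 * J) * m := by gcongr
    _ ≤ 2 ^ (38 * J) * m := by gcongr

/-- The core theorem with the loss `min (n, log N)^{1/J}`. -/
theorem core_min (hn : 1 ≤ n) {B : E n →ₗ[ℝ] E n →ₗ[ℝ] ℝ} {Y Z : Set (E n)} (hY : SymConv Y)
    (hcl : IsClosed Y) (hbd : Bornology.IsBounded Y) (hint : (interior Y).Nonempty)
    (hZ : SymConv Z) {J : ℕ} (hJ : 1 ≤ J) (t : Finset (E n))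
    (ht : ∀ y ∈ Y, ∃ w ∈ t, ∀ z ∈ Z, B (y - w) z ≤ 1 / (1024 * (J + 1))) :
    ∃ u : Finset (E n), Real.log u.card ≤
      2 ^ 48 * J * (min (n : ℝ) (Real.log t.card)) ^ (1 / (J : ℝ)) * Real.log t.card ∧
      ∀ z ∈ Z, ∃ w ∈ u, ∀ v ∈ Y, B v (z - w) ≤ 1 := by
  have hJR : (1 : ℝ) ≤ J := by exact_mod_cast hJ
  have hnR : (1 : ℝ) ≤ n := by exact_mod_cast hn
  have hkpos : 0 < t.card := by
    obtain ⟨w, hw, _⟩ := ht 0 hY.zero
    exact Finset.card_pos.mpr ⟨w, hw⟩
  have hc1 : 1 / (1024 * ((J : ℝ) + 1)) ≤ 1 / 2 :=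
    one_div_le_one_div_of_le (by norm_num) (by linarith)
  rcases Nat.lt_or_ge t.card 2 with h1 | h2
  · have hk : t.card = 1 := by omega
    refine ⟨{0}, ?_, fun z hz => ⟨0, by simp, fun v hv => ?_⟩⟩
    · rw [hk]
      simp
    · have := pairing_bound' hY hZ (by positivity) t ht hv hz
      rw [hk] at this
      rw [sub_zero]
      push_cast at this
      linarith
  · set ℓ := Real.log t.card with hℓ
    have hℓ2 : 1 / 2 ≤ ℓ := by
      have h1 : (0.6931471803 : ℝ) < Real.log 2 := Real.log_two_gt_d9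
      have h3 : Real.log 2 ≤ Real.log t.card :=
        Real.log_le_log (by norm_num) (by exact_mod_cast h2)
      rw [hℓ]; linarith
    have hℓ0 : 0 < ℓ := by linarith
    set m := min (n : ℝ) ℓ with hm
    have hm2 : 1 / 2 ≤ m := le_min (by linarith) hℓ2
    have hm0 : 0 < m := by linarith
    set p := m ^ ((J : ℝ)⁻¹) with hp
    have hp0 : 0 < p := Real.rpow_pos_of_pos hm0 _
    have hp2 : 1 / 2 ≤ p := by
      rcases le_total 1 m with h | h
      · have := Real.one_le_rpow h (by positivity : (0 : ℝ) ≤ (J : ℝ)⁻¹)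
        linarith
      · have h3 : (J : ℝ)⁻¹ ≤ 1 := inv_le_one_of_one_le₀ hJR
        have := Real.rpow_le_rpow_of_exponent_ge hm0 h h3
        rw [Real.rpow_one] at this
        linarith
    set κ := 2 ^ 38 * p with hκ
    have hκ0 : 0 < κ := by positivity
    set K₀ : ℕ := min t.card ((2 ^ 17 * (J + 1) ^ 2) ^ n) with hK₀
    have hK1 : 1 ≤ K₀ := le_min (by omega) (Nat.one_le_pow _ _ (by positivity))
    have hlogK : Real.log K₀ ≤ 17 * ((J : ℝ) + 1) * m := by
      have hK1R : (0 : ℝ) < K₀ := by exact_mod_cast hK1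
      have a1 : Real.log K₀ ≤ ℓ :=
        Real.log_le_log hK1R (by exact_mod_cast min_le_left _ _)
      have a2 : Real.log K₀ ≤ 17 * ((J : ℝ) + 1) * n := by
        have : (K₀ : ℝ) ≤ (2 ^ 17 * ((J : ℝ) + 1) ^ 2) ^ n := by
          exact_mod_cast min_le_right _ _
        have h3 := Real.log_le_log hK1R this
        rw [Real.log_pow, Real.log_mul (by positivity) (by positivity), Real.log_pow,
          Real.log_pow] at h3
        have h4 := log_succ_le J
        have h5 := log_two_le_one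
        push_cast at h3
        have h6 : 17 * Real.log 2 + 2 * Real.log ((J : ℝ) + 1) ≤ 17 * ((J : ℝ) + 1) := by
          linarith
        calc Real.log K₀ ≤ n * (17 * Real.log 2 + 2 * Real.log ((J : ℝ) + 1)) := h3
          _ ≤ n * (17 * ((J : ℝ) + 1)) := by gcongr
          _ = _ := by ring
      rcases min_choice (n : ℝ) ℓ with h | h
      · rw [hm, h]; exact a2
      · rw [hm, h]
        nlinarith
    have hκ2 := kappa_cond' hJ hK1 hm2 hlogK
    obtain ⟨Q, hQ⟩ : ∃ Q : ℕ, Q = ⌊2 * (2 : ℝ) ^ 40⌋₊ + 1 := ⟨_, rfl⟩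
    have hQR : (Q : ℝ) ≤ 2 ^ 41 + 1 := by
      rw [hQ, floor_const]; push_cast; norm_num
    set E₀ := 1 + 20 * (J * (⌊2 * κ⌋₊ + 1)) + 23 * (J * Q) with hE
    obtain ⟨u, hu, hu2⟩ := assemble (B := B) hY hZ (ρ := 512 * (J + 1))
      (δ := 1 / (32 * (J + 1))) (c := 1 / (1024 * (J + 1))) (by positivity) (by linarith)
      (by field_simp; norm_num)
      (by
        have : 4 * (1 / (1024 * ((J : ℝ) + 1))) = (1 / 2) * (1 / (32 * ((J : ℝ) + 1)) / 4) := by
          field_simp; norm_num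
        rw [this]
        have : 0 < 1 / (32 * ((J : ℝ) + 1)) / 4 := by positivity
        linarith) (by positivity) hc1 t ht E₀
      (fun i T X hTc hTY hnet hX => by
        refine layer_card hY hJ rfl rfl hκ0 hκ2 hQ.ge i T X (le_min hTc ?_) hTY.1 hnet hX
        set c : ℝ := 1 / (98304 * ((J : ℝ) + 1) ^ 2) with hc
        have hc0 : 0 < c := by positivity
        have hvol := vol_card hY hcl hbd hint hc0 T hTY.1 (fun a ha b hb hab y hy y' hy' heq => by
          obtain ⟨z, hz, hz2⟩ := hTY.2 a ha b hb hab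
          have hσ : (0 : ℝ) < (512 * ((J : ℝ) + 1)) ^ i := by positivity
          have e1 : a - b = c • (y' - y) := by
            rw [smul_sub, sub_eq_sub_iff_add_eq_add, heq]
            abel
          have b1 := (abs_le.mp (lay_abs hY hz hy)).1
          have b2 := (abs_le.mp (lay_abs hY hz hy')).2
          have b3 : B (a - b) z = c * (B y' z - B y z) := by
            rw [e1, map_smul, LinearMap.smul_apply, map_sub, LinearMap.sub_apply, smul_eq_mul]
          have b4 : B (a - b) z ≤ c * (4 * (512 * ((J : ℝ) + 1)) * (512 * ((J : ℝ) + 1)) ^ i) := by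
            rw [b3]
            apply mul_le_mul_of_nonneg_left _ hc0.le
            linarith
          have b5 : c * (4 * (512 * ((J : ℝ) + 1)) * (512 * ((J : ℝ) + 1)) ^ i) =
              (2 / 3) * (1 / (32 * ((J : ℝ) + 1)) * (512 * ((J : ℝ) + 1)) ^ i) := by
            rw [hc]
            field_simp
            norm_num
          have b6 : 0 < 1 / (32 * ((J : ℝ) + 1)) * (512 * ((J : ℝ) + 1)) ^ i := by positivity
          linarith)
        have h3 : ((1 + c) / c) ^ n ≤ (2 ^ 17 * ((J : ℝ) + 1) ^ 2) ^ n := by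
          apply pow_le_pow_left₀ (by positivity)
          have : (1 + c) / c = 98304 * ((J : ℝ) + 1) ^ 2 + 1 := by
            rw [hc]; field_simp
          rw [this]
          nlinarith
        exact_mod_cast hvol.trans h3)
    refine ⟨u, ?_, hu2⟩
    have hER : (E₀ : ℝ) ≤ 2 ^ 47 * J * p := by
      have hfl : (⌊2 * κ⌋₊ : ℝ) ≤ 2 ^ 39 * p := by
        refine (Nat.floor_le (by positivity)).trans (le_of_eq ?_)
        rw [hκ]; ring
      rw [hE]
      push_cast
      have e1 : 20 * ((J : ℝ) * ((⌊2 * κ⌋₊ : ℝ) + 1)) ≤ 20 * (J * (2 ^ 39 * p + 1)) := by gcongr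
      have e2 : 23 * ((J : ℝ) * Q) ≤ 23 * (J * (2 ^ 41 + 1)) := by gcongr
      have e3 : (1 : ℝ) ≤ J * 1 := by linarith
      have e4 : (J : ℝ) * 1 + 20 * (J * (2 ^ 39 * p + 1)) + 23 * (J * (2 ^ 41 + 1)) =
          J * (1 + 20 * (2 ^ 39 * p + 1) + 23 * (2 ^ 41 + 1)) := by ring
      have e5 : 1 + 20 * (2 ^ 39 * p + 1) + 23 * (2 ^ 41 + 1) ≤ 2 ^ 47 * p := by nlinarith
      calc 1 + 20 * ((J : ℝ) * ((⌊2 * κ⌋₊ : ℝ) + 1)) + 23 * (J * Q)
          ≤ J * 1 + 20 * (J * (2 ^ 39 * p + 1)) + 23 * (J * (2 ^ 41 + 1)) := by linarith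
        _ = J * (1 + 20 * (2 ^ 39 * p + 1) + 23 * (2 ^ 41 + 1)) := e4
        _ ≤ J * (2 ^ 47 * p) := by gcongr
        _ = _ := by ring
    have hupos : 0 < u.card := by
      obtain ⟨w, hw, _⟩ := hu2 0 hZ.zero
      exact Finset.card_pos.mpr ⟨w, hw⟩
    have hlog : Real.log u.card ≤ E₀ * (2 * ℓ) := by
      have h3 : (u.card : ℝ) ≤ ((t.card : ℝ) ^ 2) ^ E₀ := by exact_mod_cast hu
      have h4 := Real.log_le_log (by exact_mod_cast hupos) h3
      rw [Real.log_pow, Real.log_pow] at h4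
      push_cast at h4
      exact h4
    rw [one_div, ← hp]
    calc Real.log u.card ≤ E₀ * (2 * ℓ) := hlog
      _ ≤ (2 ^ 47 * J * p) * (2 * ℓ) := by gcongr
      _ = 2 ^ 48 * J * p * ℓ := by ring

lemma polar_isClosed (K : Set (E n)) : IsClosed (polar K) := by
  have : polar K = ⋂ x ∈ K, {y : E n | inner ℝ x y ≤ 1} := by
    ext y; simp [polar]
  rw [this]
  refine isClosed_biInter fun x _ => ?_
  exact isClosed_le (continuous_const.inner continuous_id) continuous_const

lemma polar_interior {K : Set (E n)} (hK : IsCompact K) : (interior (polar K)).Nonempty := by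
  obtain ⟨ε, hε, hball⟩ := exists_ball_subset_polar hK
  exact ⟨0, mem_interior.mpr ⟨Metric.ball 0 ε, hball, Metric.isOpen_ball, by simpa using hε⟩⟩

/-- `log N(K, L) ≤ C J min(n, m)^{1/J} m`, `m = log N(L°, a⁻¹ K°)`, `a ≥ 1024 (J + 1)`. -/
theorem upper_min (hn : 1 ≤ n) {J : ℕ} (hJ : 1 ≤ J) {a : ℝ} (ha : 1024 * ((J : ℝ) + 1) ≤ a)
    (K L : Set (E n)) (hK : IsSymBody K) (hL : IsSymBody L) :
    Real.log (coverNum K L) ≤ 2 ^ 48 * J *
      (min (n : ℝ) (Real.log (coverNum (polar L) (a⁻¹ • polar K)))) ^ (1 / (J : ℝ)) *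
        Real.log (coverNum (polar L) (a⁻¹ • polar K)) := by
  have ha0 : 0 < a := lt_of_lt_of_le (by positivity) ha
  obtain ⟨ε, hε, hball⟩ := exists_ball_subset_polar hK.compact
  have hcov : ∃ t : Finset (E n), polar L ⊆ ⋃ x ∈ t, (fun b => x + b) '' (a⁻¹ • polar K) := by
    apply exists_cover (polar_bounded hL) (ε := ε / a) (by positivity)
    intro y hy
    rw [Set.mem_inv_smul_set_iff₀ ha0.ne']
    apply hball
    rw [mem_ball_zero_iff] at hy ⊢
    rw [norm_smul, Real.norm_of_nonneg ha0.le]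
    rw [lt_div_iff₀ ha0] at hy
    linarith
  obtain ⟨t, ht, ht2⟩ := coverNum_spec hcov
  obtain ⟨u, hu, hu2⟩ := core_min hn (B := innerₗ (E n)) (symConv_polar hL) (polar_isClosed L)
    (polar_bounded hL) (polar_interior hL.compact) (symConv_body hK) hJ t
    (by
      intro y hy
      obtain ⟨w, hw, hw2⟩ := ht2 y hy
      refine ⟨w, hw, fun z hz => ?_⟩
      rw [Set.mem_inv_smul_set_iff₀ ha0.ne'] at hw2
      have h1 := hw2 z hz
      rw [inner_smul_right] at h1
      rw [innerₗ_apply_apply, real_inner_comm]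
      have h2 : inner ℝ z (y - w) ≤ 1 / a := by
        rw [le_div_iff₀ ha0]; linarith
      exact h2.trans (one_div_le_one_div_of_le (by positivity) ha))
  rw [ht] at hu
  refine (log_coverNum_le u fun z hz => ?_).trans hu
  obtain ⟨w, hw, hw2⟩ := hu2 z hz
  exact ⟨w, hw, mem_of_bipolar hL fun y hy => by simpa using hw2 y hy⟩

/-- `log N(L°, a K°) ≤ C J min(n, k)^{1/J} k`, `k = log N(K, L)`, `a ≥ 1024 (J + 1)`. -/
theorem lower_min (hn : 1 ≤ n) {J : ℕ} (hJ : 1 ≤ J) {a : ℝ} (ha : 1024 * ((J : ℝ) + 1) ≤ a)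
    (K L : Set (E n)) (hK : IsSymBody K) (hL : IsSymBody L) :
    Real.log (coverNum (polar L) (a • polar K)) ≤ 2 ^ 48 * J *
      (min (n : ℝ) (Real.log (coverNum K L))) ^ (1 / (J : ℝ)) * Real.log (coverNum K L) := by
  classical
  have ha0 : 0 < a := lt_of_lt_of_le (by positivity) ha
  obtain ⟨δ, hδ, hball⟩ := Metric.isOpen_iff.mp isOpen_interior 0 hL.zero_mem_interior
  have hcov : ∃ t : Finset (E n), K ⊆ ⋃ x ∈ t, (fun b => x + b) '' L :=
    exists_cover hK.compact.isBounded hδ (hball.trans interior_subset)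
  obtain ⟨t, ht, ht2⟩ := coverNum_spec hcov
  have hpol := symConv_polar hL
  have hZ : SymConv (a⁻¹ • polar L) := by
    refine ⟨hpol.convex.smul _, fun z hz => ?_, ?_⟩
    · rw [Set.mem_inv_smul_set_iff₀ ha0.ne'] at hz ⊢
      rw [smul_neg]
      exact hpol.neg _ hz
    · rw [Set.mem_inv_smul_set_iff₀ ha0.ne', smul_zero]
      exact hpol.zero
  obtain ⟨u, hu, hu2⟩ := core_min hn (B := innerₗ (E n)) (symConv_body hK) hK.compact.isClosed
    hK.compact.isBounded hK.interior_nonempty hZ hJ t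
    (by
      intro y hy
      obtain ⟨w, hw, hw2⟩ := ht2 y hy
      refine ⟨w, hw, fun z hz => ?_⟩
      rw [Set.mem_inv_smul_set_iff₀ ha0.ne'] at hz
      have h1 := hz _ hw2
      rw [inner_smul_right] at h1
      rw [innerₗ_apply_apply]
      have h2 : inner ℝ (y - w) z ≤ 1 / a := by
        rw [le_div_iff₀ ha0]; linarith
      exact h2.trans (one_div_le_one_div_of_le (by positivity) ha))
  rw [ht] at hu
  have hcard : (u.image fun w => a • w).card = u.card :=
    Finset.card_image_of_injective _ (smul_right_injective _ ha0.ne')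
  have h1 := log_coverNum_le (A := polar L) (B := a • polar K)
    (u.image fun w => a • w) (fun z hz => by
      obtain ⟨w, hw, hw2⟩ := hu2 (a⁻¹ • z) (Set.smul_mem_smul_set hz)
      refine ⟨a • w, Finset.mem_image_of_mem _ hw, ?_⟩
      rw [Set.mem_smul_set_iff_inv_smul_mem₀ ha0.ne']
      intro x hx
      have := hw2 x hx
      rw [innerₗ_apply_apply] at this
      rwa [smul_sub, inv_smul_smul₀ ha0.ne'])
  rw [hcard] at h1
  exact h1.trans hu

/-- Duality with both losses at most a constant times `1 + log (1 + min (n, log N(K, L)))`. -/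
theorem loglog_min (hn : 1 ≤ n) (K L : Set (E n)) (hK : IsSymBody K) (hL : IsSymBody L) {a : ℝ}
    (ha : a = 2 ^ 50 * (1 + Real.log (1 + min (n : ℝ) (Real.log (coverNum K L))))) :
    Real.log (coverNum (polar L) (a • polar K)) ≤ a * Real.log (coverNum K L) ∧
    Real.log (coverNum K L) ≤ a * Real.log (coverNum (polar L) (a⁻¹ • polar K)) := by
  set k := Real.log (coverNum K L) with hk
  have hk0 : 0 ≤ k := Real.log_natCast_nonneg _
  set M := min (n : ℝ) k with hM
  have hM0 : 0 ≤ M := le_min (by positivity) hk0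
  have hlk : 0 ≤ Real.log (1 + M) := Real.log_nonneg (by linarith)
  set J := ⌊Real.log (1 + M)⌋₊ + 1 with hJ
  have hJ1 : 1 ≤ J := by omega
  have hJR : (1 : ℝ) ≤ J := by exact_mod_cast hJ1
  have hJle : (J : ℝ) ≤ 1 + Real.log (1 + M) := by
    have := Nat.floor_le hlk
    rw [hJ]; push_cast; linarith
  have hJge : Real.log (1 + M) ≤ J := by
    have := (Nat.lt_floor_add_one (Real.log (1 + M))).le
    rw [hJ]; push_cast; exact this
  have haJ : 2 ^ 50 * (J : ℝ) ≤ a := by rw [ha]; gcongr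
  have ha1 : 1024 * ((J : ℝ) + 1) ≤ a := by linarith
  have ha0 : 1 ≤ a := by linarith
  have hroot : ∀ x : ℝ, 0 ≤ x → x ≤ M → x ^ (1 / (J : ℝ)) ≤ 3 := by
    intro x hx0 hxk
    calc x ^ (1 / (J : ℝ)) ≤ (1 + M) ^ (1 / (J : ℝ)) :=
          Real.rpow_le_rpow hx0 (by linarith) (by positivity)
      _ = Real.exp (Real.log (1 + M) * (1 / (J : ℝ))) := Real.rpow_def_of_pos (by linarith) _
      _ ≤ Real.exp 1 := by
          apply Real.exp_le_exp.mpr
          rw [mul_one_div, div_le_one (by linarith)]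
          exact hJge
      _ ≤ 3 := by
          have := Real.exp_one_lt_d9
          linarith
  constructor
  · have h1 := lower_min hn hJ1 ha1 K L hK hL
    rw [← hk, ← hM] at h1
    calc Real.log (coverNum (polar L) (a • polar K))
        ≤ 2 ^ 48 * J * M ^ (1 / (J : ℝ)) * k := h1
      _ ≤ 2 ^ 48 * J * 3 * k := by gcongr; exact hroot M hM0 le_rfl
      _ ≤ (2 ^ 50 * J) * k := by nlinarith [mul_nonneg (by linarith : (0 : ℝ) ≤ J) hk0]
      _ ≤ a * k := by gcongr
  · have h1 := upper_min hn hJ1 ha1 K L hK hL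
    rw [← hk] at h1
    set m := Real.log (coverNum (polar L) (a⁻¹ • polar K)) with hm
    have hm0 : 0 ≤ m := Real.log_natCast_nonneg _
    rcases le_total m k with h | h
    · have h2 : min (n : ℝ) m ≤ M := min_le_min_left _ h
      have h3 : 0 ≤ min (n : ℝ) m := le_min (by positivity) hm0
      calc k ≤ 2 ^ 48 * J * (min (n : ℝ) m) ^ (1 / (J : ℝ)) * m := h1
        _ ≤ 2 ^ 48 * J * 3 * m := by gcongr; exact hroot _ h3 h2
        _ ≤ (2 ^ 50 * J) * m := by nlinarith [mul_nonneg (by linarith : (0 : ℝ) ≤ J) hm0]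
        _ ≤ a * m := by gcongr
    · calc k ≤ 1 * m := by linarith
        _ ≤ a * m := by gcongr

end Vale.Agent.P126.AL
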