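import Vale.Agent.P126.Core

/-!
P126: local covering at one scale, telescoping over the scales, and the core theorem.
-/

namespace Vale.Agent.P126

open Finset

variable {V W : Type*} [AddCommGroup V] [Module ℝ V] [AddCommGroup W] [Module ℝ W]

/-- The centres of the net can be taken in `Y`. -/
lemma net_centres {B : V →ₗ[ℝ] W →ₗ[ℝ] ℝ} {Y : Set V} {Z : Set W} (hY : SymConv Y)
    (hZ : SymConv Z) (t : Finset V) (ht : ∀ y ∈ Y, ∃ w ∈ t, ∀ z ∈ Z, B (y - w) z ≤ 1 / 256) :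
    ∃ p : {w // w ∈ t} → V, (∀ m, p m ∈ Y) ∧
      ∀ y ∈ Y, ∃ m, ∀ z ∈ Z, B (y - p m) z ≤ 1 / 128 := by
  classical
  have h1 : ∀ m : {w // w ∈ t}, ∃ p ∈ Y, (∃ y ∈ Y, ∀ z ∈ Z, B (y - m.1) z ≤ 1 / 256) →
      ∀ z ∈ Z, B (p - m.1) z ≤ 1 / 256 := by
    intro m
    by_cases h : ∃ y ∈ Y, ∀ z ∈ Z, B (y - m.1) z ≤ 1 / 256
    · obtain ⟨y, hy, hy2⟩ := h
      exact ⟨y, hy, fun _ => hy2⟩
    · exact ⟨0, hY.zero, fun h2 => absurd h2 h⟩
  choose p hp hp2 using h1
  refine ⟨p, hp, fun y hy => ?_⟩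
  obtain ⟨w, hw, hw2⟩ := ht y hy
  refine ⟨⟨w, hw⟩, fun z hz => ?_⟩
  have a1 := hw2 z hz
  have a2 := hp2 ⟨w, hw⟩ ⟨y, hy, hw2⟩ _ (hZ.neg z hz)
  simp only [map_sub, map_neg, LinearMap.sub_apply] at a1 a2 ⊢
  linarith

/-- Maximality of a chain forces every point of the layer to be close to the convex hull. -/
lemma close_to_hull {B : V →ₗ[ℝ] W →ₗ[ℝ] ℝ} {Y : Set V} {Z : Set W} (hY : SymConv Y)
    {σ : ℝ} {r : ℕ} (hr0 : 0 < r) {z : Fin r → W} {y : Fin r → V}
    (hz : ∀ j, z j ∈ layer B Y Z σ) (hy : ∀ j, y j ∈ Y)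
    (hc : ∀ l j, l < j → B (y j) (z l) + σ / 4 ≤ B (y j) (z j))
    (hmax : ¬ Chain B Y Z σ (r + 1)) {x : W} (hx : x ∈ layer B Y Z σ) :
    ∃ lam : Fin r → ℝ, (∀ l, 0 ≤ lam l) ∧ ∑ l, lam l = 1 ∧
      ∀ v ∈ Y, B v (x - ∑ l, lam l • z l) ≤ σ / 4 := by
  have : Nonempty (Fin r) := ⟨⟨0, hr0⟩⟩
  have h1 : ∀ v ∈ Y, ∃ l, ((B.flip (x - z l)) : V →ₗ[ℝ] ℝ) v < σ / 4 := by
    intro v hv
    by_contra hcon
    push Not at hcon
    apply hmax
    refine ⟨Fin.snoc z x, Fin.snoc y v, ?_, ?_, ?_⟩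
    · intro j
      refine Fin.lastCases ?_ (fun i => ?_) j
      · rw [Fin.snoc_last]; exact hx
      · rw [Fin.snoc_castSucc]; exact hz i
    · intro j
      refine Fin.lastCases ?_ (fun i => ?_) j
      · rw [Fin.snoc_last]; exact hv
      · rw [Fin.snoc_castSucc]; exact hy i
    · intro l j
      refine Fin.lastCases ?_ (fun i => ?_) j
      · refine Fin.lastCases ?_ (fun i' => ?_) l
        · intro h; exact absurd h (lt_irrefl _)
        · intro _
          rw [Fin.snoc_last, Fin.snoc_last, Fin.snoc_castSucc]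
          have := hcon i'
          rw [LinearMap.flip_apply, map_sub] at this
          linarith
      · refine Fin.lastCases ?_ (fun i' => ?_) l
        · intro h
          exact absurd h (not_lt.mpr (Fin.castSucc_lt_last i).le)
        · intro h
          rw [Fin.snoc_castSucc, Fin.snoc_castSucc, Fin.snoc_castSucc]
          exact hc i' i (by simpa using h)
  obtain ⟨lam, h0, hs, hl⟩ := minimax Y hY.convex ⟨0, hY.zero⟩
    (fun l => (B.flip (x - z l) : V →ₗ[ℝ] ℝ)) (σ / 4) h1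
  refine ⟨lam, h0, hs, fun v hv => ?_⟩
  have h2 := hl v hv
  have e : B v (x - ∑ l, lam l • z l) = ∑ l, lam l * (B.flip (x - z l)) v := by
    have e1 : ∀ l, lam l * (B.flip (x - z l)) v = lam l * B v x - lam l * B v (z l) := by
      intro l
      rw [LinearMap.flip_apply, map_sub, mul_sub]
    simp_rw [e1]
    rw [Finset.sum_sub_distrib, ← Finset.sum_mul, hs, one_mul, map_sub, map_sum]
    simp only [map_smul, smul_eq_mul]
  rw [e]
  exact h2

/-- Local covering at one scale. -/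
lemma local_cover {B : V →ₗ[ℝ] W →ₗ[ℝ] ℝ} {Y : Set V} {Z : Set W} (hY : SymConv Y)
    (hZ : SymConv Z) (t : Finset V) (ht : ∀ y ∈ Y, ∃ w ∈ t, ∀ z ∈ Z, B (y - w) z ≤ 1 / 256)
    {σ : ℝ} (hσ : 1 ≤ σ) {r : ℕ} (hr0 : 0 < r) (hr : Chain B Y Z σ r)
    (hmax : ¬ Chain B Y Z σ (r + 1)) (s : ℕ) (hs0 : 0 < s)
    (hs : Real.log (2 * t.card) ≤ s * (1 / 2 ^ 24)) :
    ∃ u : Finset W, u.card ≤ r ^ s ∧
      ∀ x ∈ layer B Y Z σ, ∃ w ∈ u, ∀ v ∈ Y, B v (x - w) ≤ σ := by
  classical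
  obtain ⟨z, y, hz, hy, hc⟩ := hr
  obtain ⟨p, hpY, hp⟩ := net_centres hY hZ t ht
  have : Nonempty {w // w ∈ t} := by
    obtain ⟨w, hw, _⟩ := ht 0 hY.zero
    exact ⟨⟨w, hw⟩⟩
  have hsR : (0 : ℝ) < s := by exact_mod_cast hs0
  set av : (Fin s → Fin r) → W := fun j => (1 / (s : ℝ)) • ∑ i, z (j i) with hav
  refine ⟨Finset.univ.image av, ?_, ?_⟩
  · refine le_trans Finset.card_image_le ?_
    simp
  · intro x hx
    obtain ⟨lam, h0, h1, h2⟩ := close_to_hull hY hr0 hz hy hc hmax hx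
    set zs : W := ∑ l, lam l • z l with hzs
    have hzsl : zs ∈ layer B Y Z σ :=
      (layer_convex hZ).sum_mem (fun l _ => h0 l) h1 (fun l _ => hz l)
    have hden : (0 : ℝ) < 512 * σ := by linarith
    set X : {w // w ∈ t} → Fin r → ℝ := fun m l => B (p m) (z l - zs) / (512 * σ) with hX
    have hX1 : ∀ m l, |X m l| ≤ 1 := by
      intro m l
      rw [hX]
      simp only
      rw [abs_div, abs_of_pos hden, div_le_one hden, map_sub]
      have a1 := layer_abs hY (hz l) (hpY m)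
      have a2 := layer_abs hY hzsl (hpY m)
      calc |B (p m) (z l) - B (p m) zs| ≤ |B (p m) (z l)| + |B (p m) zs| := abs_sub _ _
        _ ≤ 512 * σ := by linarith
    have hXm : ∀ m, ∑ l, lam l * X m l = 0 := by
      intro m
      have e1 : ∑ l, lam l * X m l = (∑ l, lam l * B (p m) (z l - zs)) / (512 * σ) := by
        rw [Finset.sum_div]
        apply Finset.sum_congr rfl
        intro l _
        simp only [hX]
        ring
      have e2 : ∑ l, lam l * B (p m) (z l - zs) = 0 := by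
        simp only [map_sub, mul_sub, Finset.sum_sub_distrib]
        rw [← Finset.sum_mul, h1, one_mul, hzs]
        simp [map_sum, map_smul]
      rw [e1, e2, zero_div]
    obtain ⟨j, hj⟩ := sampling lam h0 h1 X hX1 hXm (1 / 2048) (by norm_num) (by norm_num) s
      (by
        have e : Fintype.card {w // w ∈ t} = t.card := by simp
        rw [e]
        refine hs.trans (le_of_eq ?_)
        norm_num)
    refine ⟨av j, Finset.mem_image_of_mem _ (Finset.mem_univ j), fun v hv => ?_⟩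
    have havl : av j ∈ layer B Y Z σ := by
      have e : av j = ∑ i : Fin s, (1 / (s : ℝ)) • z (j i) := by
        simp only [hav, Finset.smul_sum]
      rw [e]
      apply (layer_convex hZ).sum_mem (fun i _ => by positivity) _ (fun i _ => hz (j i))
      rw [Finset.sum_const, Finset.card_univ, Fintype.card_fin, nsmul_eq_mul]
      field_simp
    obtain ⟨m, hm⟩ := hp v hv
    have b1 : B v (x - zs) ≤ σ / 4 := h2 v hv
    have b2 : |B (p m) (av j - zs)| ≤ σ / 4 := by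
      have e1 : B (p m) (av j - zs) = (512 * σ / s) * ∑ i, X m (j i) := by
        simp only [hX, hav, map_sub, map_smul, map_sum, smul_eq_mul]
        rw [← Finset.sum_div, Finset.sum_sub_distrib, Finset.sum_const, Finset.card_univ,
          Fintype.card_fin, nsmul_eq_mul]
        field_simp
      have e2 := hj m
      rw [e1, abs_mul, abs_of_pos (by positivity)]
      calc 512 * σ / s * |∑ i, X m (j i)| ≤ 512 * σ / s * (1 / 2048 * s) := by gcongr
        _ = σ / 4 := by field_simp; ring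
    have b3 : B (v - p m) ((1 / 2 : ℝ) • zs) ≤ 1 / 128 := hm _ hzsl.1
    have b4 : B (v - p m) ((1 / 2 : ℝ) • (-av j)) ≤ 1 / 128 :=
      hm _ (layer_neg hY hZ havl).1
    have b5 := (abs_le.mp b2).1
    simp only [map_sub, map_neg, map_smul, LinearMap.sub_apply, smul_eq_mul] at b1 b3 b4 b5 ⊢
    linarith

/-- One telescoping step. -/
lemma telescope {B : V →ₗ[ℝ] W →ₗ[ℝ] ℝ} {Y : Set V} {Z : Set W}
    (hY : SymConv Y) (hZ : SymConv Z) {σ ρ : ℝ} (hρ : ρ = 128 * σ) (u u' : Finset W)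
    (hu : ∀ z ∈ Z, ∃ w ∈ u, ∀ v ∈ Y, B v (z - w) ≤ ρ)
    (hu' : ∀ x ∈ layer B Y Z σ, ∃ w ∈ u', ∀ v ∈ Y, B v (x - w) ≤ σ) :
    ∃ u'' : Finset W, u''.card ≤ u.card * u'.card ∧
      ∀ z ∈ Z, ∃ w ∈ u'', ∀ v ∈ Y, B v (z - w) ≤ σ := by
  classical
  have h1 : ∀ m : W, ∃ p : W, (∃ z ∈ Z, ∀ v ∈ Y, B v (z - m) ≤ ρ) →
      (p ∈ Z ∧ ∀ v ∈ Y, B v (p - m) ≤ ρ) := by
    intro m
    by_cases h : ∃ z ∈ Z, ∀ v ∈ Y, B v (z - m) ≤ ρ
    · obtain ⟨z, hz, hz2⟩ := h
      exact ⟨z, fun _ => ⟨hz, hz2⟩⟩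
    · exact ⟨0, fun h2 => absurd h2 h⟩
  choose p hp using h1
  refine ⟨(u ×ˢ u').image (fun q => p q.1 + q.2), ?_, ?_⟩
  · refine le_trans Finset.card_image_le ?_
    rw [Finset.card_product]
  · intro z hz
    obtain ⟨m, hm, hm2⟩ := hu z hz
    obtain ⟨hpZ, hpm⟩ := hp m ⟨z, hz, hm2⟩
    have hlay : z - p m ∈ layer B Y Z σ := by
      refine ⟨?_, fun v hv => ?_⟩
      · have := hZ.add_mem hz (hZ.neg _ hpZ) (by norm_num : (0 : ℝ) ≤ 1 / 2)
          (by norm_num : (0 : ℝ) ≤ 1 / 2) (by norm_num)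
        rw [smul_sub]
        rwa [smul_neg, ← sub_eq_add_neg] at this
      · have a1 := hm2 v hv
        have a2 := hpm (-v) (hY.neg v hv)
        simp only [map_sub, map_neg, LinearMap.neg_apply] at a1 a2 ⊢
        linarith
    obtain ⟨w, hw, hw2⟩ := hu' _ hlay
    refine ⟨p m + w, Finset.mem_image.mpr ⟨(m, w), Finset.mem_product.mpr ⟨hm, hw⟩, rfl⟩, ?_⟩
    intro v hv
    have := hw2 v hv
    rwa [sub_sub] at this

/-- Existence of maximal chains, with the dual chains attached. -/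
lemma exists_max_chain {B : V →ₗ[ℝ] W →ₗ[ℝ] ℝ} {Y : Set V} {Z : Set W} (hY : SymConv Y)
    (hZ : SymConv Z) (t : Finset V) (ht : ∀ y ∈ Y, ∃ w ∈ t, ∀ z ∈ Z, B (y - w) z ≤ 1 / 256)
    (i : ℕ) :
    ∃ r, 0 < r ∧ Chain B Y Z ((128 : ℝ) ^ i) r ∧ ¬ Chain B Y Z ((128 : ℝ) ^ i) (r + 1) := by
  classical
  have hpos : (0 : ℝ) < (128 : ℝ) ^ i := by positivity
  have hone : Chain B Y Z ((128 : ℝ) ^ i) 1 := by
    refine ⟨fun _ => 0, fun _ => 0, fun _ => ⟨by simpa using hZ.zero, fun y _ => ?_⟩,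
      fun _ => hY.zero, fun l j h => ?_⟩
    · simp only [map_zero]; positivity
    · exact absurd h (by rw [Subsingleton.elim l j]; exact lt_irrefl _)
  have hbd : ∀ r, Chain B Y Z ((128 : ℝ) ^ i) r → r ≤ 4097 * t.card := by
    intro r hr
    obtain ⟨d, hd, hd2⟩ := diag hY hpos hr
    have h1 := sepFam_step hY hZ hd2 (sepFam_one B Z hY (i + 2))
    have h2 := sepFam_card hY hZ t ht h1
    rw [mul_one] at h2
    exact hd.trans (Nat.mul_le_mul_left _ h2)
  by_contra hcon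
  push Not at hcon
  have hall : ∀ r, 0 < r → Chain B Y Z ((128 : ℝ) ^ i) r := by
    intro r hr
    induction r with
    | zero => omega
    | succ r ih =>
      rcases Nat.eq_zero_or_pos r with h0 | h0
      · subst h0; exact hone
      · exact hcon r h0 (ih h0)
  have := hbd _ (hall (4097 * t.card + 1) (by omega))
  omega

/-- The core theorem. -/
theorem core {B : V →ₗ[ℝ] W →ₗ[ℝ] ℝ} {Y : Set V} {Z : Set W} (hY : SymConv Y)
    (hZ : SymConv Z) (t : Finset V) (ht : ∀ y ∈ Y, ∃ w ∈ t, ∀ z ∈ Z, B (y - w) z ≤ 1 / 256)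
    (T : ℕ) (hT : t.card ≤ 2 ^ T) (s : ℕ) (hs0 : 0 < s)
    (hs : Real.log (2 * t.card) ≤ s * (1 / 2 ^ 24)) :
    ∃ u : Finset W, u.card ≤ (4097 ^ (2 * T) * t.card ^ 2) ^ s ∧
      ∀ z ∈ Z, ∃ w ∈ u, ∀ v ∈ Y, B v (z - w) ≤ 1 := by
  classical
  choose r hr0 hr hmax using exists_max_chain hY hZ t ht
  have hdia : ∀ i, ∃ d, r i ≤ 4097 * d ∧ DChain B Y Z ((128 : ℝ) ^ i) d :=
    fun i => diag hY (by positivity) (hr i)
  choose d hrd hd using hdia
  -- descending induction on the scale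
  have key : ∀ n : ℕ, n ≤ 2 * T → ∃ u : Finset W,
      u.card ≤ (∏ i ∈ Finset.range n, r (2 * T - 1 - i)) ^ s ∧
      ∀ z ∈ Z, ∃ w ∈ u, ∀ v ∈ Y, B v (z - w) ≤ (128 : ℝ) ^ (2 * T - n) := by
    intro n
    induction n with
    | zero =>
      intro _
      refine ⟨{0}, by simp, fun z hz => ⟨0, by simp, fun v hv => ?_⟩⟩
      have h1 := pairing_bound hY hZ t ht hv hz
      rw [sub_zero]
      have h2 : (t.card : ℝ) ≤ 2 ^ T := by exact_mod_cast hT
      have h3 : (2 : ℝ) ^ T ≤ 128 ^ T := pow_le_pow_left₀ (by norm_num) (by norm_num) T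
      have h4 : (128 : ℝ) ^ T ≤ 128 ^ (2 * T - 0) :=
        pow_le_pow_right₀ (by norm_num) (by omega)
      have h5 : (t.card : ℝ) / 128 ≤ t.card := by
        have : (0 : ℝ) ≤ t.card := by positivity
        linarith
      linarith
    | succ n ih =>
      intro hn
      obtain ⟨u, hu, hu2⟩ := ih (by omega)
      set i := 2 * T - 1 - n with hi
      have hσ : (1 : ℝ) ≤ (128 : ℝ) ^ i := one_le_pow₀ (by norm_num)
      obtain ⟨u', hu', hu'2⟩ := local_cover hY hZ t ht hσ (hr0 i) (hr i) (hmax i) s hs0 hs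
      have hρ : (128 : ℝ) ^ (2 * T - n) = 128 * (128 : ℝ) ^ i := by
        rw [← pow_succ']
        congr 1
        omega
      obtain ⟨u'', hc, hcov⟩ := telescope hY hZ hρ u u' hu2 hu'2
      refine ⟨u'', ?_, ?_⟩
      · rw [Finset.prod_range_succ, mul_pow]
        exact hc.trans (Nat.mul_le_mul hu hu')
      · have e : 2 * T - (n + 1) = i := by omega
        rw [e]
        exact hcov
  obtain ⟨u, hu, hu2⟩ := key (2 * T) le_rfl
  refine ⟨u, ?_, ?_⟩
  · refine hu.trans ?_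
    apply Nat.pow_le_pow_left
    have e1 : ∏ i ∈ Finset.range (2 * T), r (2 * T - 1 - i) = ∏ i ∈ Finset.range (2 * T), r i :=
      Finset.prod_range_reflect r (2 * T)
    rw [e1]
    calc ∏ i ∈ Finset.range (2 * T), r i ≤ ∏ i ∈ Finset.range (2 * T), (4097 * d i) :=
          Finset.prod_le_prod' fun i _ => hrd i
      _ = 4097 ^ (2 * T) * ∏ i ∈ Finset.range (2 * T), d i := by
          rw [Finset.prod_mul_distrib, Finset.prod_const, Finset.card_range]
      _ ≤ _ := Nat.mul_le_mul_left _ (prod_bound hY hZ t ht d hd T)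
  · intro z hz
    obtain ⟨w, hw, hw2⟩ := hu2 z hz
    refine ⟨w, hw, fun v hv => ?_⟩
    have := hw2 v hv
    simpa using this

end Vale.Agent.P126
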