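import Vale.Agent.P126.Defs
import Vale.Agent.P126.Cover

/-!
P126: the quadratic duality theorem, in both directions.
-/

namespace Vale.Agent.P126

open scoped Pointwise

/-- Numerical form of the core bound. -/
lemma num_bound (k : ℕ) (hk : 2 ≤ k) (N : ℕ) (hN : N ≤ (4097 ^ (2 * (Nat.log 2 k + 1)) * k ^ 2)
    ^ (2 ^ 24 * (Nat.log 2 k + 2))) : Real.log N ≤ 2 ^ 33 * (Real.log k) ^ 2 := by
  set T := Nat.log 2 k + 1 with hT
  have hk0 : (0 : ℝ) < k := by positivity
  have hlog2 : (0.6931471803 : ℝ) < Real.log 2 := Real.log_two_gt_d9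
  have hlk : Real.log 2 ≤ Real.log k := by
    apply Real.log_le_log (by norm_num)
    exact_mod_cast hk
  have hTk : (Nat.log 2 k : ℝ) * Real.log 2 ≤ Real.log k := by
    rw [← Real.log_pow]
    apply Real.log_le_log (by positivity)
    exact_mod_cast Nat.pow_log_le_self 2 (by omega)
  set x := Real.log k with hx
  have hx0 : 0 < x := by linarith
  have hT1 : (Nat.log 2 k : ℝ) ≤ 3 / 2 * x := by
    have h0 : (0 : ℝ) ≤ (Nat.log 2 k : ℝ) := by positivity
    nlinarith
  have hx1 : 1 ≤ 3 / 2 * x := by linarith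
  have h4097 : Real.log 4097 ≤ 10 := by
    have h1 : Real.log 4097 ≤ Real.log ((2 : ℝ) ^ (12 : ℕ) * 2) := by
      apply Real.log_le_log (by norm_num) (by norm_num)
    have h2 : Real.log ((2 : ℝ) ^ (12 : ℕ) * 2) = 13 * Real.log 2 := by
      rw [Real.log_mul (by norm_num) (by norm_num), Real.log_pow]
      push_cast; ring
    have h3 : Real.log 2 < 0.6931471808 := Real.log_two_lt_d9
    rw [h2] at h1
    linarith
  have h4097' : 0 ≤ Real.log 4097 := Real.log_nonneg (by norm_num)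
  rcases Nat.eq_zero_or_pos N with hN0 | hN0
  · rw [hN0]; simp; positivity
  have hmain : Real.log N ≤ Real.log (((4097 : ℝ) ^ (2 * T) * (k : ℝ) ^ 2)
      ^ (2 ^ 24 * (Nat.log 2 k + 2))) := by
    apply Real.log_le_log (by exact_mod_cast hN0)
    exact_mod_cast hN
  rw [Real.log_pow, Real.log_mul (by positivity) (by positivity), Real.log_pow, Real.log_pow]
    at hmain
  rw [← hx] at hmain
  have hcast : ((2 ^ 24 * (Nat.log 2 k + 2) : ℕ) : ℝ) = 2 ^ 24 * ((Nat.log 2 k : ℝ) + 2) := by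
    push_cast; ring
  have hcast2 : ((2 * T : ℕ) : ℝ) = 2 * ((Nat.log 2 k : ℝ) + 1) := by
    rw [hT]; push_cast; ring
  have hcast3 : ((2 : ℕ) : ℝ) = 2 := by norm_num
  rw [hcast, hcast2, hcast3] at hmain
  refine hmain.trans ?_
  have e1 : 2 * ((Nat.log 2 k : ℝ) + 1) * Real.log 4097 + 2 * x ≤ 62 * x := by
    nlinarith
  have e2 : (2 : ℝ) ^ 24 * ((Nat.log 2 k : ℝ) + 2) ≤ 2 ^ 24 * (9 / 2 * x) := by
    have : (Nat.log 2 k : ℝ) + 2 ≤ 9 / 2 * x := by linarith
    nlinarith
  calc 2 ^ 24 * ((Nat.log 2 k : ℝ) + 2) * (2 * ((Nat.log 2 k : ℝ) + 1) * Real.log 4097 + 2 * x)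
      ≤ (2 ^ 24 * (9 / 2 * x)) * (62 * x) := by
        apply mul_le_mul e2 e1 (by positivity) (by positivity)
    _ ≤ 2 ^ 33 * x ^ 2 := by nlinarith [sq_nonneg x]

/-- The core theorem in numerical form. -/
theorem core_log {V W : Type*} [AddCommGroup V] [Module ℝ V] [AddCommGroup W] [Module ℝ W]
    {B : V →ₗ[ℝ] W →ₗ[ℝ] ℝ} {Y : Set V} {Z : Set W} (hY : SymConv Y)
    (hZ : SymConv Z) (t : Finset V) (ht : ∀ y ∈ Y, ∃ w ∈ t, ∀ z ∈ Z, B (y - w) z ≤ 1 / 256) :
    ∃ u : Finset W, Real.log u.card ≤ 2 ^ 33 * (Real.log t.card) ^ 2 ∧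
      ∀ z ∈ Z, ∃ w ∈ u, ∀ v ∈ Y, B v (z - w) ≤ 1 := by
  have hkpos : 0 < t.card := by
    obtain ⟨w, hw, _⟩ := ht 0 hY.zero
    exact Finset.card_pos.mpr ⟨w, hw⟩
  rcases Nat.lt_or_ge t.card 2 with h1 | h2
  · have hk : t.card = 1 := by omega
    refine ⟨{0}, by simp [hk], fun z hz => ⟨0, by simp, fun v hv => ?_⟩⟩
    have := pairing_bound hY hZ t ht hv hz
    rw [hk] at this
    rw [sub_zero]
    norm_num at this ⊢
    linarith
  · have hT : t.card ≤ 2 ^ (Nat.log 2 t.card + 1) :=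
      (Nat.lt_pow_succ_log_self (by norm_num) _).le
    have hs : Real.log (2 * t.card) ≤ (2 ^ 24 * (Nat.log 2 t.card + 2) : ℕ) * (1 / 2 ^ 24) := by
      have e1 : Real.log (2 * t.card) ≤ Real.log ((2 : ℝ) ^ (Nat.log 2 t.card + 2)) := by
        apply Real.log_le_log (by positivity)
        have : (t.card : ℝ) ≤ 2 ^ (Nat.log 2 t.card + 1) := by exact_mod_cast hT
        calc (2 : ℝ) * t.card ≤ 2 * 2 ^ (Nat.log 2 t.card + 1) := by gcongr
          _ = 2 ^ (Nat.log 2 t.card + 2) := by ring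
      rw [Real.log_pow] at e1
      have e2 : Real.log 2 ≤ 1 := by
        have : Real.log 2 < 0.6931471808 := Real.log_two_lt_d9
        linarith
      have e3 : (0 : ℝ) ≤ (Nat.log 2 t.card + 2 : ℕ) := by positivity
      calc Real.log (2 * t.card) ≤ (Nat.log 2 t.card + 2 : ℕ) * Real.log 2 := e1
        _ ≤ (Nat.log 2 t.card + 2 : ℕ) * 1 := mul_le_mul_of_nonneg_left e2 e3
        _ = _ := by push_cast; ring
    obtain ⟨u, hu, hu2⟩ := core hY hZ t ht (Nat.log 2 t.card + 1) hT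
      (2 ^ 24 * (Nat.log 2 t.card + 2)) (by positivity) hs
    exact ⟨u, num_bound t.card h2 u.card hu, hu2⟩

variable {n : ℕ}

lemma symConv_body {K : Set (E n)} (hK : IsSymBody K) : SymConv K :=
  ⟨hK.convex, hK.symm, hK.zero_mem⟩

lemma symConv_polar {K : Set (E n)} (hK : IsSymBody K) : SymConv (polar K) :=
  ⟨polar_convex K, fun _ hy => neg_mem_polar hK.symm hy, zero_mem_polar K⟩

lemma log_coverNum_le {A B : Set (E n)} (u : Finset (E n)) (h : ∀ a ∈ A, ∃ x ∈ u, a - x ∈ B) :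
    Real.log (coverNum A B) ≤ Real.log u.card := by
  have h1 := coverNum_le u h
  rcases Nat.eq_zero_or_pos (coverNum A B) with h0 | h0
  · rw [h0]
    simp only [Nat.cast_zero, Real.log_zero]
    rcases Nat.eq_zero_or_pos u.card with h2 | h2
    · simp [h2]
    · exact Real.log_nonneg (by exact_mod_cast h2)
  · exact Real.log_le_log (by exact_mod_cast h0) (by exact_mod_cast h1)

/-- `log N(K, L) ≤ b (log N(L°, a⁻¹ K°))²`. -/
theorem upper (K L : Set (E n)) (hK : IsSymBody K) (hL : IsSymBody L) :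
    Real.log (coverNum K L) ≤
      2 ^ 33 * (Real.log (coverNum (polar L) ((256 : ℝ)⁻¹ • polar K))) ^ 2 := by
  obtain ⟨ε, hε, hball⟩ := exists_ball_subset_polar hK.compact
  have hcov : ∃ t : Finset (E n), polar L ⊆ ⋃ x ∈ t, (fun b => x + b) '' ((256 : ℝ)⁻¹ • polar K) := by
    apply exists_cover (polar_bounded hL) (ε := ε / 256) (by positivity)
    intro y hy
    rw [Set.mem_inv_smul_set_iff₀ (by norm_num)]
    apply hball
    rw [mem_ball_zero_iff] at hy ⊢
    rw [norm_smul, Real.norm_of_nonneg (by norm_num)]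
    linarith
  obtain ⟨t, ht, ht2⟩ := coverNum_spec hcov
  obtain ⟨u, hu, hu2⟩ := core_log (B := innerₗ (E n)) (symConv_polar hL) (symConv_body hK) t
    (by
      intro y hy
      obtain ⟨w, hw, hw2⟩ := ht2 y hy
      refine ⟨w, hw, fun z hz => ?_⟩
      rw [Set.mem_inv_smul_set_iff₀ (by norm_num)] at hw2
      have := hw2 z hz
      rw [inner_smul_right] at this
      rw [innerₗ_apply_apply, real_inner_comm]
      linarith)
  rw [ht] at hu
  refine (log_coverNum_le u fun z hz => ?_).trans hu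
  obtain ⟨w, hw, hw2⟩ := hu2 z hz
  exact ⟨w, hw, mem_of_bipolar hL fun y hy => by simpa using hw2 y hy⟩

/-- `log N(L°, a K°) ≤ b (log N(K, L))²`. -/
theorem lower (K L : Set (E n)) (hK : IsSymBody K) (hL : IsSymBody L) :
    Real.log (coverNum (polar L) ((256 : ℝ) • polar K)) ≤
      2 ^ 33 * (Real.log (coverNum K L)) ^ 2 := by
  classical
  obtain ⟨δ, hδ, hball⟩ := Metric.isOpen_iff.mp isOpen_interior 0 hL.zero_mem_interior
  have hcov : ∃ t : Finset (E n), K ⊆ ⋃ x ∈ t, (fun b => x + b) '' L :=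
    exists_cover hK.compact.isBounded hδ (hball.trans interior_subset)
  obtain ⟨t, ht, ht2⟩ := coverNum_spec hcov
  have hpol := symConv_polar hL
  have hZ : SymConv ((256 : ℝ)⁻¹ • polar L) := by
    refine ⟨hpol.convex.smul _, fun z hz => ?_, ?_⟩
    · rw [Set.mem_inv_smul_set_iff₀ (by norm_num)] at hz ⊢
      rw [smul_neg]
      exact hpol.neg _ hz
    · rw [Set.mem_inv_smul_set_iff₀ (by norm_num), smul_zero]
      exact hpol.zero
  obtain ⟨u, hu, hu2⟩ := core_log (B := innerₗ (E n)) (symConv_body hK) hZ t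
    (by
      intro y hy
      obtain ⟨w, hw, hw2⟩ := ht2 y hy
      refine ⟨w, hw, fun z hz => ?_⟩
      rw [Set.mem_inv_smul_set_iff₀ (by norm_num)] at hz
      have := hz _ hw2
      rw [inner_smul_right] at this
      rw [innerₗ_apply_apply]
      linarith)
  rw [ht] at hu
  have hcard : (u.image fun w => (256 : ℝ) • w).card = u.card :=
    Finset.card_image_of_injective _ (smul_right_injective _ (by norm_num))
  have h1 := log_coverNum_le (A := polar L) (B := (256 : ℝ) • polar K)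
    (u.image fun w => (256 : ℝ) • w) (fun z hz => by
      obtain ⟨w, hw, hw2⟩ := hu2 ((256 : ℝ)⁻¹ • z) (Set.smul_mem_smul_set hz)
      refine ⟨(256 : ℝ) • w, Finset.mem_image_of_mem _ hw, ?_⟩
      rw [Set.mem_smul_set_iff_inv_smul_mem₀ (by norm_num)]
      intro x hx
      have := hw2 x hx
      rw [innerₗ_apply_apply] at this
      rwa [smul_sub, inv_smul_smul₀ (by norm_num)])
  rw [hcard] at h1
  exact h1.trans hu

end Vale.Agent.P126
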