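import Mathlib

/-!
P126: definitions (symmetric convex bodies, polars, covering numbers) and elementary facts.
-/

namespace Vale.Agent.P126

open scoped Pointwise

/-- `ℝⁿ` with the standard inner product. -/
abbrev E (n : ℕ) := EuclideanSpace ℝ (Fin n)

/-- Origin-symmetric convex bodies: compact convex sets with nonempty interior and `K = -K`. -/
structure IsSymBody {n : ℕ} (K : Set (E n)) : Prop where
  convex : Convex ℝ K
  compact : IsCompact K
  interior_nonempty : (interior K).Nonempty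
  symm : ∀ x ∈ K, -x ∈ K

/-- The polar `K° = {y : ⟨x, y⟩ ≤ 1 for all x ∈ K}`. -/
def polar {n : ℕ} (K : Set (E n)) : Set (E n) := {y | ∀ x ∈ K, inner ℝ x y ≤ 1}

/-- The covering number `N(A, B)`: the least number of translates `x + B` (`x ∈ ℝⁿ` arbitrary)
whose union contains `A`. -/
noncomputable def coverNum {n : ℕ} (A B : Set (E n)) : ℕ :=
  sInf {m : ℕ | ∃ t : Finset (E n), t.card = m ∧ A ⊆ ⋃ x ∈ t, (fun b => x + b) '' B}

variable {n : ℕ}

lemma IsSymBody.zero_mem_interior {K : Set (E n)} (hK : IsSymBody K) :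
    (0 : E n) ∈ interior K := by
  obtain ⟨x, hx⟩ := hK.interior_nonempty
  have h1 : -x ∈ interior K := by
    have hneg : K = -K := by
      ext y
      rw [Set.mem_neg]
      exact ⟨fun h => hK.symm y h, fun h => by simpa using hK.symm _ h⟩
    have h2 : interior (-K) = -interior K := by
      have := (Homeomorph.neg (E n)).preimage_interior K
      simpa using this.symm
    have h3 : interior K = -interior K := by
      conv_lhs => rw [hneg]
      exact h2
    rw [h3, Set.mem_neg, neg_neg]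
    exact hx
  have h4 := hK.convex.interior hx h1 (by norm_num : (0 : ℝ) ≤ 1 / 2)
    (by norm_num : (0 : ℝ) ≤ 1 / 2) (by norm_num)
  simpa using h4

lemma IsSymBody.zero_mem {K : Set (E n)} (hK : IsSymBody K) : (0 : E n) ∈ K :=
  interior_subset hK.zero_mem_interior

lemma polar_convex (K : Set (E n)) : Convex ℝ (polar K) := by
  intro y hy w hw a b ha hb hab x hx
  rw [inner_add_right, inner_smul_right, inner_smul_right]
  have h1 := hy x hx
  have h2 := hw x hx
  nlinarith

lemma zero_mem_polar (K : Set (E n)) : (0 : E n) ∈ polar K := by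
  intro x _
  simp

lemma neg_mem_polar {K : Set (E n)} (hK : ∀ x ∈ K, -x ∈ K) {y : E n} (hy : y ∈ polar K) :
    -y ∈ polar K := by
  intro x hx
  have := hy (-x) (hK x hx)
  rwa [inner_neg_left, ← inner_neg_right] at this

/-- `K°` contains a ball around the origin. -/
lemma exists_ball_subset_polar {K : Set (E n)} (hK : IsCompact K) :
    ∃ ε : ℝ, 0 < ε ∧ Metric.ball 0 ε ⊆ polar K := by
  obtain ⟨R, hR⟩ := hK.isBounded.exists_norm_le
  refine ⟨1 / (|R| + 1), by positivity, fun y hy x hx => ?_⟩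
  have h1 : ‖y‖ < 1 / (|R| + 1) := by simpa using hy
  have h2 : ‖x‖ ≤ |R| + 1 := (hR x hx).trans ((le_abs_self R).trans (by linarith))
  have h3 : (0 : ℝ) < |R| + 1 := by positivity
  calc inner ℝ x y ≤ ‖x‖ * ‖y‖ := real_inner_le_norm x y
    _ ≤ (|R| + 1) * (1 / (|R| + 1)) := by gcongr
    _ = 1 := by field_simp

/-- `L°` is bounded. -/
lemma polar_bounded {L : Set (E n)} (hL : IsSymBody L) : Bornology.IsBounded (polar L) := by
  obtain ⟨δ, hδ, hball⟩ := Metric.isOpen_iff.mp isOpen_interior 0 hL.zero_mem_interior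
  rw [isBounded_iff_forall_norm_le]
  refine ⟨2 / δ, fun y hy => ?_⟩
  by_cases h0 : y = 0
  · subst h0; simp; positivity
  · have hn : 0 < ‖y‖ := norm_pos_iff.mpr h0
    have h1 : (δ / 2 / ‖y‖) • y ∈ L := by
      apply interior_subset
      apply hball
      rw [mem_ball_zero_iff, norm_smul, Real.norm_of_nonneg (by positivity)]
      have : δ / 2 / ‖y‖ * ‖y‖ = δ / 2 := by field_simp
      rw [this]; linarith
    have h2 := hy _ h1
    rw [real_inner_smul_left, real_inner_self_eq_norm_sq] at h2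
    have h3 : δ / 2 / ‖y‖ * ‖y‖ ^ 2 = δ / 2 * ‖y‖ := by field_simp
    rw [h3] at h2
    rw [le_div_iff₀ hδ]
    linarith

/-- The bipolar theorem, in the form needed here. -/
lemma mem_of_bipolar {L : Set (E n)} (hL : IsSymBody L) {x : E n}
    (h : ∀ y ∈ polar L, inner ℝ y x ≤ 1) : x ∈ L := by
  by_contra hx
  obtain ⟨f, u, hf, hu⟩ := geometric_hahn_banach_closed_point hL.convex hL.compact.isClosed hx
  have hu0 : 0 < u := by
    have := hf 0 hL.zero_mem
    simpa using this
  set w := (InnerProductSpace.toDual ℝ (E n)).symm f with hw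
  have hfw : ∀ v, f v = inner ℝ w v := by
    intro v
    rw [hw, InnerProductSpace.toDual_symm_apply]
  have hmem : (1 / u) • w ∈ polar L := by
    intro v hv
    rw [inner_smul_right, real_inner_comm, ← hfw]
    have := hf v hv
    rw [one_div, inv_mul_le_iff₀ hu0]
    linarith
  have h1 := h _ hmem
  rw [real_inner_smul_left, ← hfw, one_div, inv_mul_le_iff₀ hu0] at h1
  linarith

/-- Finite covers exist. -/
lemma exists_cover {A B : Set (E n)} (hA : Bornology.IsBounded A) {ε : ℝ} (hε : 0 < ε)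
    (hB : Metric.ball 0 ε ⊆ B) :
    ∃ t : Finset (E n), A ⊆ ⋃ x ∈ t, (fun b => x + b) '' B := by
  have hTB : TotallyBounded A :=
    (Bornology.IsBounded.isCompact_closure hA).totallyBounded.subset subset_closure
  obtain ⟨t, ht, hcov⟩ := Metric.totallyBounded_iff.mp hTB ε hε
  refine ⟨ht.toFinset, fun a ha => ?_⟩
  have := hcov ha
  simp only [Set.mem_iUnion, exists_prop] at this ⊢
  obtain ⟨x, hx, hax⟩ := this
  refine ⟨x, by simpa using hx, a - x, hB ?_, by simp⟩
  rw [mem_ball_zero_iff]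
  rwa [Metric.mem_ball, dist_eq_norm] at hax

lemma coverNum_spec {A B : Set (E n)}
    (h : ∃ t : Finset (E n), A ⊆ ⋃ x ∈ t, (fun b => x + b) '' B) :
    ∃ t : Finset (E n), t.card = coverNum A B ∧ ∀ a ∈ A, ∃ x ∈ t, a - x ∈ B := by
  obtain ⟨t0, ht0⟩ := h
  have hne : {m : ℕ | ∃ t : Finset (E n), t.card = m ∧
      A ⊆ ⋃ x ∈ t, (fun b => x + b) '' B}.Nonempty := ⟨t0.card, t0, rfl, ht0⟩
  obtain ⟨t, ht, hcov⟩ := Nat.sInf_mem hne
  refine ⟨t, ht, fun a ha => ?_⟩
  have := hcov ha
  simp only [Set.mem_iUnion, exists_prop] at this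
  obtain ⟨x, hx, b, hb, rfl⟩ := this
  exact ⟨x, hx, by simpa using hb⟩

lemma coverNum_le {A B : Set (E n)} (t : Finset (E n)) (h : ∀ a ∈ A, ∃ x ∈ t, a - x ∈ B) :
    coverNum A B ≤ t.card := by
  apply Nat.sInf_le
  refine ⟨t, rfl, fun a ha => ?_⟩
  obtain ⟨x, hx, hb⟩ := h a ha
  simp only [Set.mem_iUnion, exists_prop]
  exact ⟨x, hx, a - x, hb, by simp⟩

end Vale.Agent.P126
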