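import Vale.Agent.P126.NLPotential
import Vale.Agent.P126.Defs

/-!
P126, near-linear duality: the core theorem, numerical bounds, and the theorem for convex bodies.
-/

namespace Vale.Agent.P126.NL

open Finset
open scoped Pointwise

variable {V W : Type*} [AddCommGroup V] [Module ℝ V] [AddCommGroup W] [Module ℝ W]

/-- The core theorem. -/
theorem core {f N : ℕ} (hf : N = 2 * f + 4) {B : V →ₗ[ℝ] W →ₗ[ℝ] ℝ} {Y : Set V} {Z : Set W}
    (hY : SymConv Y) (hZ : SymConv Z) (t : Finset V)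
    (ht : ∀ y ∈ Y, ∃ w ∈ t, ∀ z ∈ Z, B (y - w) z ≤ 1 / (64 * N))
    (T : ℕ) (hT : t.card ≤ 2 ^ T) {κ sb : ℝ} (hκ : 1 ≤ κ) (hsb : κ ^ f = sb)
    (hlog : Real.log (cells N * t.card) ≤ sb) :
    ∃ u : Finset W, u.card ≤ ((2 * cells N) ^ (2 * T) * t.card ^ 2)
        ^ (4096 * N ^ 4 + 1 + f * (⌊κ * N⌋₊ + 1)) ∧
      ∀ z ∈ Z, ∃ w ∈ u, ∀ v ∈ Y, B v (z - w) ≤ 1 := by
  classical
  have hN : 0 < N := by omega
  have hNR : (1 : ℝ) ≤ N := by exact_mod_cast hN
  set M := 4096 * N ^ 4 + 1 + f * (⌊κ * N⌋₊ + 1) with hM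
  choose r hr0 hrle hr hmax using exists_max_chain hN hY hZ t ht
  have hQ : ∀ i : ℕ, (0 : ℝ) < (32 * N : ℝ) ^ i := fun i => by positivity
  have hdia : ∀ i, ∃ d, r i ≤ cells N * d ∧ DChain N B Y Z ((32 * N : ℝ) ^ i) d :=
    fun i => diag hN hY (hQ i) (hr i)
  choose d hrd hd using hdia
  have hloc : ∀ i, Cov B Y ((32 * N : ℝ) ^ i) (layer N B Y Z ((32 * N : ℝ) ^ i))
      ((r i + 1) ^ M) := by
    intro i
    refine local_cover hf hY (hQ i) (hr0 i) (hr i) (hmax i) hκ hsb ?_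
    refine le_trans ?_ hlog
    apply Real.log_le_log (by exact_mod_cast hr0 i)
    exact_mod_cast hrle i
  have key : ∀ n : ℕ, n ≤ 2 * T → ∃ u : Finset W,
      u.card ≤ (∏ i ∈ Finset.range n, (r (2 * T - 1 - i) + 1)) ^ M ∧
      ∀ z ∈ Z, ∃ w ∈ u, ∀ v ∈ Y, B v (z - w) ≤ (32 * N : ℝ) ^ (2 * T - n) := by
    intro n
    induction n with
    | zero =>
      intro _
      refine ⟨{0}, by simp, fun z hz => ⟨0, by simp, fun v hv => ?_⟩⟩
      have h1 := pairing_bound hN hY hZ t ht hv hz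
      rw [sub_zero]
      have h2 : (t.card : ℝ) ≤ 2 ^ T := by exact_mod_cast hT
      have h3 : (2 : ℝ) ^ T ≤ (32 * N) ^ T := pow_le_pow_left₀ (by norm_num) (by linarith) T
      have h4 : (32 * N : ℝ) ^ T ≤ (32 * N) ^ (2 * T - 0) :=
        pow_le_pow_right₀ (by linarith) (by omega)
      have h5 : (t.card : ℝ) / 32 ≤ t.card := by
        have : (0 : ℝ) ≤ t.card := by positivity
        linarith
      linarith
    | succ n ih =>
      intro hn
      obtain ⟨u, hu, hu2⟩ := ih (by omega)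
      set i := 2 * T - 1 - n with hi
      obtain ⟨u', hu', hu'2⟩ := hloc i
      have hρ : (32 * N : ℝ) ^ (2 * T - n) = 32 * N * (32 * N : ℝ) ^ i := by
        rw [← pow_succ']
        congr 1
        omega
      obtain ⟨u'', hc, hcov⟩ := telescope hY hZ hρ u u' hu2 hu'2
      refine ⟨u'', ?_, ?_⟩
      · rw [Finset.prod_range_succ, mul_pow]
        exact hc.trans (Nat.mul_le_mul hu hu')
      · have e : 2 * T - (n + 1) = i := by omega
        rw [e]
        exact hcov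
  obtain ⟨u, hu, hu2⟩ := key (2 * T) le_rfl
  refine ⟨u, ?_, ?_⟩
  · refine hu.trans ?_
    apply Nat.pow_le_pow_left
    have e1 : ∏ i ∈ Finset.range (2 * T), (r (2 * T - 1 - i) + 1)
        = ∏ i ∈ Finset.range (2 * T), (r i + 1) :=
      Finset.prod_range_reflect (fun i => r i + 1) (2 * T)
    rw [e1]
    calc ∏ i ∈ Finset.range (2 * T), (r i + 1)
        ≤ ∏ i ∈ Finset.range (2 * T), (2 * cells N * d i) := by
          apply Finset.prod_le_prod'
          intro i _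
          have h1 := hrd i
          have h2 := hr0 i
          calc r i + 1 ≤ 2 * r i := by omega
            _ ≤ 2 * (cells N * d i) := Nat.mul_le_mul_left _ h1
            _ = 2 * cells N * d i := by ring
      _ = (2 * cells N) ^ (2 * T) * ∏ i ∈ Finset.range (2 * T), d i := by
          rw [Finset.prod_mul_distrib, Finset.prod_const, Finset.card_range]
      _ ≤ _ := Nat.mul_le_mul_left _ (prod_bound hN hY hZ t ht d hd T)
  · intro z hz
    obtain ⟨w, hw, hw2⟩ := hu2 z hz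
    refine ⟨w, hw, fun v hv => ?_⟩
    have := hw2 v hv
    simpa using this

lemma log_cells {N : ℕ} (hN : 6 ≤ N) : Real.log (2 * cells N) ≤ 6 * N := by
  have hNR : (6 : ℝ) ≤ N := by exact_mod_cast hN
  have h1 : (2 : ℝ) * cells N ≤ (N : ℝ) ^ 6 := by
    unfold cells
    push_cast
    have h2 : (1296 : ℝ) ≤ (N : ℝ) ^ 4 := by
      have := pow_le_pow_left₀ (by norm_num : (0 : ℝ) ≤ 6) hNR 4
      norm_num at this
      exact this
    have h3 : (1 : ℝ) ≤ (N : ℝ) ^ 2 := one_le_pow₀ (by linarith)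
    have h4 : (N : ℝ) ^ 6 = (N : ℝ) ^ 4 * (N : ℝ) ^ 2 := by ring
    rw [h4]
    nlinarith
  have hpos : (0 : ℝ) < 2 * cells N := by unfold cells; positivity
  calc Real.log (2 * cells N) ≤ Real.log ((N : ℝ) ^ 6) := Real.log_le_log hpos h1
    _ = 6 * Real.log N := by rw [Real.log_pow]; norm_num
    _ ≤ 6 * N := by
      have := Real.log_le_self (show (0 : ℝ) ≤ N by positivity)
      linarith

lemma exp_bound {f N q : ℕ} (hf : N = 2 * f + 4) {p : ℝ} (hq : (q : ℝ) ≤ 10 * N ^ 2 * p)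
    (hp1 : (0.69 : ℝ) ≤ p) :
    ((4096 * N ^ 4 + 1 + f * (q + 1) : ℕ) : ℝ) ≤ 6000 * N ^ 4 * p := by
  have hNf : (N : ℝ) = 2 * f + 4 := by rw [hf]; push_cast; ring
  have hf0 : (0 : ℝ) ≤ f := by positivity
  have hN6 : (4 : ℝ) ≤ N := by linarith
  have hN0 : (0 : ℝ) < N := by linarith
  have hp0 : 0 < p := by linarith
  push_cast
  have a1 : (f : ℝ) ≤ N / 2 := by linarith
  have a2 : (f : ℝ) * ((q : ℝ) + 1) ≤ N / 2 * (10 * N ^ 2 * p + 1) := by
    apply mul_le_mul a1 (by linarith) (by positivity) (by positivity)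
  have a3 : (4 : ℝ) ^ 3 ≤ N ^ 3 := pow_le_pow_left₀ (by norm_num) hN6 3
  have a4 : (N : ℝ) ^ 4 = N ^ 3 * N := by ring
  have a5 : (4 : ℝ) * N ^ 3 ≤ N ^ 4 := by
    rw [a4, mul_comm]
    exact mul_le_mul_of_nonneg_left hN6 (by positivity)
  have a6 : 1 + (N : ℝ) / 2 ≤ N ^ 4 := by
    have : (64 : ℝ) * N ≤ N ^ 4 := by
      rw [a4]
      apply mul_le_mul_of_nonneg_right _ hN0.le
      norm_num at a3
      exact a3
    linarith
  have a7 : (0 : ℝ) < N ^ 4 := by positivity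
  have a8 : (0.69 : ℝ) * N ^ 4 ≤ N ^ 4 * p := by
    rw [mul_comm (0.69 : ℝ)]
    exact mul_le_mul_of_nonneg_left hp1 a7.le
  have a9 : N / 2 * (10 * (N : ℝ) ^ 2 * p + 1) = 5 * N ^ 3 * p + N / 2 := by ring
  have a10 : (4 : ℝ) * N ^ 3 * p ≤ N ^ 4 * p := mul_le_mul_of_nonneg_right a5 hp0.le
  rw [a9] at a2
  have a11 : 6000 * (N : ℝ) ^ 4 * p = 6000 * (N ^ 4 * p) := by ring
  have a12 : 5 * (N : ℝ) ^ 3 * p = 5 / 4 * (4 * N ^ 3 * p) := by ring
  rw [a11]
  rw [a12] at a2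
  linarith

lemma cells_ge_one (N : ℕ) : (1 : ℝ) ≤ cells N := by
  unfold cells
  push_cast
  have : (0 : ℝ) ≤ 256 * (N : ℝ) ^ 2 := by positivity
  linarith

lemma log_cells_nonneg (N : ℕ) : 0 ≤ Real.log (2 * cells N) := by
  apply Real.log_nonneg
  have := cells_ge_one N
  linarith

lemma factor_bound {N : ℕ} (hN : 6 ≤ N) {L h : ℝ} (hL : 0 ≤ L) (hT1 : L + 1 ≤ 3 * h) :
    2 * (L + 1) * Real.log (2 * cells N) + 2 * h ≤ 37 * N * h := by
  have hNR : (6 : ℝ) ≤ N := by exact_mod_cast hN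
  have hh : 0 ≤ h := by linarith
  have hlc := log_cells hN
  have b1 : 2 * (L + 1) * Real.log (2 * cells N) ≤ 2 * (3 * h) * (6 * N) :=
    mul_le_mul (by linarith) hlc (log_cells_nonneg N) (by positivity)
  have b2 : 2 * h ≤ N * h := mul_le_mul_of_nonneg_right (by linarith) hh
  linarith

lemma final_const {f N : ℕ} (hf1 : 1 ≤ f) (hf : N = 2 * f + 4) {q : ℝ} (hq : 0 ≤ q) :
    222000 * (N : ℝ) ^ 5 * q ≤ 2 ^ 31 * f ^ 5 * q := by
  have hfR : (1 : ℝ) ≤ f := by exact_mod_cast hf1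
  have hNf : (N : ℝ) = 2 * f + 4 := by rw [hf]; push_cast; ring
  have e5 : (N : ℝ) ≤ 6 * f := by linarith
  have e6 : (N : ℝ) ^ 5 ≤ (6 * f) ^ 5 := pow_le_pow_left₀ (by positivity) e5 5
  have e8 : ((6 : ℝ) * f) ^ 5 = 7776 * f ^ 5 := by ring
  rw [e8] at e6
  have e9 : (0 : ℝ) < (f : ℝ) ^ 5 := by positivity
  apply mul_le_mul_of_nonneg_right _ hq
  linarith

lemma kappa_bound {f N : ℕ} (hf1 : 1 ≤ f) (hN1 : 1 ≤ N) {h κ : ℝ} (hh : 0 < h)
    (hκ : κ = (10 * N * h) ^ (1 / (f : ℝ))) :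
    ((⌊κ * N⌋₊ : ℕ) : ℝ) ≤ 10 * N ^ 2 * h ^ (1 / (f : ℝ)) := by
  have hfR : (1 : ℝ) ≤ f := by exact_mod_cast hf1
  have hf0 : (0 : ℝ) < f := by linarith
  have hN1R : (1 : ℝ) ≤ N := by exact_mod_cast hN1
  have hinv1 : (1 : ℝ) / f ≤ 1 := by rw [div_le_one hf0]; exact hfR
  have hκ2 : κ ≤ 10 * N * h ^ (1 / (f : ℝ)) := by
    rw [hκ, Real.mul_rpow (by positivity) hh.le]
    apply mul_le_mul_of_nonneg_right _ (by positivity)
    have := Real.rpow_le_rpow_of_exponent_le (x := 10 * (N : ℝ)) (by linarith) hinv1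
    rwa [Real.rpow_one] at this
  have hκ0 : 0 ≤ κ := by rw [hκ]; positivity
  have := Nat.floor_le (show 0 ≤ κ * N by positivity)
  calc ((⌊κ * N⌋₊ : ℕ) : ℝ) ≤ κ * N := this
    _ ≤ 10 * N * h ^ (1 / (f : ℝ)) * N := mul_le_mul_of_nonneg_right hκ2 (by positivity)
    _ = _ := by ring

lemma rpow_ge {f : ℕ} (hf1 : 1 ≤ f) {h : ℝ} (hlk : Real.log 2 ≤ h) :
    (0.69 : ℝ) ≤ h ^ (1 / (f : ℝ)) := by
  have hfR : (1 : ℝ) ≤ f := by exact_mod_cast hf1
  have hf0 : (0 : ℝ) < f := by linarith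
  have hlog2 : (0.6931471803 : ℝ) < Real.log 2 := Real.log_two_gt_d9
  have hlog2' : Real.log 2 < 0.6931471808 := Real.log_two_lt_d9
  have hinv1 : (1 : ℝ) / f ≤ 1 := by rw [div_le_one hf0]; exact hfR
  have hinv0 : (0 : ℝ) ≤ 1 / f := by positivity
  have a1 : Real.log 2 ^ (1 / (f : ℝ)) ≤ h ^ (1 / (f : ℝ)) :=
    Real.rpow_le_rpow (by linarith) hlk hinv0
  have a2 : Real.log 2 ≤ Real.log 2 ^ (1 / (f : ℝ)) := by
    have := Real.rpow_le_rpow_of_exponent_ge (x := Real.log 2) (by linarith) (by linarith) hinv1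
    rwa [Real.rpow_one] at this
  linarith

lemma log_two_bound {k : ℕ} (hk : 2 ≤ k) : (Nat.log 2 k : ℝ) + 1 ≤ 3 * Real.log k := by
  have hlog2 : (0.6931471803 : ℝ) < Real.log 2 := Real.log_two_gt_d9
  have hlk : Real.log 2 ≤ Real.log k := Real.log_le_log (by norm_num) (by exact_mod_cast hk)
  have hTk : (Nat.log 2 k : ℝ) * Real.log 2 ≤ Real.log k := by
    rw [← Real.log_pow]
    apply Real.log_le_log (by positivity)
    exact_mod_cast Nat.pow_log_le_self 2 (by omega)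
  have h0 : (0 : ℝ) ≤ (Nat.log 2 k : ℝ) := by positivity
  nlinarith

/-- Numerical form of the core bound. -/
lemma num_bound {f N : ℕ} (hf1 : 1 ≤ f) (hf : N = 2 * f + 4) (k : ℕ) (hk : 2 ≤ k) {κ : ℝ}
    (hκ : κ = (10 * N * Real.log k) ^ (1 / (f : ℝ))) (M' : ℕ)
    (hM' : M' ≤ ((2 * cells N) ^ (2 * (Nat.log 2 k + 1)) * k ^ 2)
        ^ (4096 * N ^ 4 + 1 + f * (⌊κ * N⌋₊ + 1))) :
    Real.log M' ≤ 2 ^ 31 * f ^ 5 * (Real.log k) ^ (1 + 1 / (f : ℝ)) := by
  have hlog2 : (0.6931471803 : ℝ) < Real.log 2 := Real.log_two_gt_d9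
  set h := Real.log k with hh
  have hlk : Real.log 2 ≤ h := Real.log_le_log (by norm_num) (by exact_mod_cast hk)
  have hh0 : 0 < h := by linarith
  have hT1 : (Nat.log 2 k : ℝ) + 1 ≤ 3 * h := log_two_bound hk
  have hfloor := kappa_bound (N := N) hf1 (by omega) hh0 hκ
  have hp1 := rpow_ge hf1 hlk
  set p := h ^ (1 / (f : ℝ)) with hp
  have hMexp : ((4096 * N ^ 4 + 1 + f * (⌊κ * N⌋₊ + 1) : ℕ) : ℝ) ≤ 6000 * N ^ 4 * p :=
    exp_bound hf hfloor hp1
  have hp0 : 0 < p := by linarith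
  have e4 : h ^ (1 + 1 / (f : ℝ)) = h * p := by
    rw [Real.rpow_add hh0, Real.rpow_one]
  rw [e4]
  rcases Nat.eq_zero_or_pos M' with hN0' | hN0'
  · rw [hN0']
    simp only [Nat.cast_zero, Real.log_zero]
    positivity
  have hcpos : (0 : ℝ) < cells N := by
    have := cells_ge_one N
    linarith
  have hmain : Real.log M' ≤ Real.log (((2 * (cells N : ℝ)) ^ (2 * (Nat.log 2 k + 1))
      * (k : ℝ) ^ 2) ^ (4096 * N ^ 4 + 1 + f * (⌊κ * N⌋₊ + 1))) := by
    apply Real.log_le_log (by exact_mod_cast hN0')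
    exact_mod_cast hM'
  have hk0 : (0 : ℝ) < k := by positivity
  rw [Real.log_pow, Real.log_mul (by positivity) (by positivity), Real.log_pow, Real.log_pow]
    at hmain
  rw [← hh] at hmain
  have hcast2 : ((2 * (Nat.log 2 k + 1) : ℕ) : ℝ) = 2 * ((Nat.log 2 k : ℝ) + 1) := by
    push_cast; ring
  have hcast3 : ((2 : ℕ) : ℝ) = 2 := by norm_num
  rw [hcast2, hcast3] at hmain
  have hL : (0 : ℝ) ≤ (Nat.log 2 k : ℝ) := by positivity
  have e1 := factor_bound (N := N) (by omega) hL hT1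
  have e2 : 0 ≤ 2 * ((Nat.log 2 k : ℝ) + 1) * Real.log (2 * cells N) + 2 * h := by
    have := log_cells_nonneg N
    positivity
  have e3 : Real.log M' ≤ 6000 * N ^ 4 * p * (37 * N * h) :=
    hmain.trans (mul_le_mul hMexp e1 e2 (by positivity))
  have e7 : 6000 * (N : ℝ) ^ 4 * p * (37 * N * h) = 222000 * N ^ 5 * (h * p) := by ring
  rw [e7] at e3
  exact e3.trans (final_const hf1 hf (by positivity))

/-- The core theorem in numerical form. -/
theorem core_log {f : ℕ} (hf1 : 1 ≤ f) {B : V →ₗ[ℝ] W →ₗ[ℝ] ℝ} {Y : Set V} {Z : Set W}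
    (hY : SymConv Y) (hZ : SymConv Z) (t : Finset V)
    (ht : ∀ y ∈ Y, ∃ w ∈ t, ∀ z ∈ Z, B (y - w) z ≤ 1 / (64 * ((2 * f + 4 : ℕ) : ℝ))) :
    ∃ u : Finset W, Real.log u.card ≤ 2 ^ 31 * f ^ 5 * (Real.log t.card) ^ (1 + 1 / (f : ℝ)) ∧
      ∀ z ∈ Z, ∃ w ∈ u, ∀ v ∈ Y, B v (z - w) ≤ 1 := by
  have hfR : (1 : ℝ) ≤ f := by exact_mod_cast hf1
  have hf0 : (0 : ℝ) < f := by linarith
  have hkpos : 0 < t.card := by
    obtain ⟨w, hw, _⟩ := ht 0 hY.zero
    exact Finset.card_pos.mpr ⟨w, hw⟩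
  rcases Nat.lt_or_ge t.card 2 with h1 | h2
  · have hk : t.card = 1 := by omega
    refine ⟨{0}, ?_, fun z hz => ⟨0, by simp, fun v hv => ?_⟩⟩
    · rw [hk]
      simp only [Finset.card_singleton, Nat.cast_one, Real.log_one]
      positivity
    · have := pairing_bound (by omega) hY hZ t ht hv hz
      rw [hk] at this
      rw [sub_zero]
      norm_num at this ⊢
      linarith
  · set N := 2 * f + 4 with hN
    set k := t.card with hk
    have hN6 : 6 ≤ N := by omega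
    have hN6R : (6 : ℝ) ≤ N := by exact_mod_cast hN6
    have hlog2 : (0.6931471803 : ℝ) < Real.log 2 := Real.log_two_gt_d9
    have hlk : Real.log 2 ≤ Real.log k := Real.log_le_log (by norm_num) (by exact_mod_cast h2)
    have hT : k ≤ 2 ^ (Nat.log 2 k + 1) :=
      (Nat.lt_pow_succ_log_self (by norm_num) _).le
    have hbase : 1 ≤ 10 * (N : ℝ) * Real.log k := by nlinarith
    have hκ1 : 1 ≤ (10 * (N : ℝ) * Real.log k) ^ (1 / (f : ℝ)) :=
      Real.one_le_rpow hbase (by positivity)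
    have hpow : ((10 * (N : ℝ) * Real.log k) ^ (1 / (f : ℝ))) ^ f = 10 * N * Real.log k := by
      rw [← Real.rpow_natCast, ← Real.rpow_mul (by linarith), one_div,
        inv_mul_cancel₀ hf0.ne', Real.rpow_one]
    have hlog : Real.log (cells N * k) ≤ 10 * N * Real.log k := by
      have hc : (0 : ℝ) < cells N := by unfold cells; positivity
      have hk0 : (0 : ℝ) < k := by positivity
      rw [Real.log_mul hc.ne' hk0.ne']
      have a1 := log_cells hN6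
      have a2 : Real.log (cells N) ≤ Real.log (2 * cells N) :=
        Real.log_le_log hc (by linarith)
      nlinarith
    obtain ⟨u, hu, hu2⟩ := core (f := f) (N := N) hN hY hZ t ht (Nat.log 2 k + 1) hT hκ1 hpow hlog
    exact ⟨u, num_bound hf1 hN k h2 rfl u.card hu, hu2⟩

end Vale.Agent.P126.NL
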