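import Vale.Agent.P126.NLAssembly

/-!
P126, near-linear duality for convex bodies.
-/

namespace Vale.Agent.P126.NL

open Finset
open scoped Pointwise

variable {n : ℕ}

lemma symConv_body {K : Set (E n)} (hK : IsSymBody K) : SymConv K :=
  ⟨hK.convex, hK.symm, hK.zero_mem⟩

lemma symConv_polar {K : Set (E n)} (hK : IsSymBody K) : SymConv (polar K) :=
  ⟨polar_convex K, fun _ hy => neg_mem_polar hK.symm hy, zero_mem_polar K⟩

lemma log_coverNum_le {A B : Set (E n)} (u : Finset (E n)) (h : ∀ a ∈ A, ∃ x ∈ u, a - x ∈ B) :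
    Real.log (coverNum A B) ≤ Real.log u.card := by
  have h1 := coverNum_le u h
  rcases Nat.eq_zero_or_pos (coverNum A B) with h0 | h0
  · rw [h0]
    simp only [Nat.cast_zero, Real.log_zero]
    rcases Nat.eq_zero_or_pos u.card with h2 | h2
    · simp [h2]
    · exact Real.log_nonneg (by exact_mod_cast h2)
  · exact Real.log_le_log (by exact_mod_cast h0) (by exact_mod_cast h1)

/-- `log N(K, L) ≤ C f⁵ (log N(L°, (C f)⁻¹ K°))^(1 + 1/f)`. -/
theorem upper {f : ℕ} (hf : 1 ≤ f) {a : ℝ} (ha : 64 * ((2 * f + 4 : ℕ) : ℝ) ≤ a)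
    (K L : Set (E n)) (hK : IsSymBody K) (hL : IsSymBody L) :
    Real.log (coverNum K L) ≤ 2 ^ 31 * f ^ 5 *
      (Real.log (coverNum (polar L) (a⁻¹ • polar K))) ^ (1 + 1 / (f : ℝ)) := by
  have hNpos : (0 : ℝ) < 64 * ((2 * f + 4 : ℕ) : ℝ) := by positivity
  have ha0 : 0 < a := by linarith
  obtain ⟨ε, hε, hball⟩ := exists_ball_subset_polar hK.compact
  have hcov : ∃ t : Finset (E n), polar L ⊆ ⋃ x ∈ t, (fun b => x + b) '' (a⁻¹ • polar K) := by
    apply exists_cover (polar_bounded hL) (ε := ε / a) (by positivity)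
    intro y hy
    rw [Set.mem_inv_smul_set_iff₀ ha0.ne']
    apply hball
    rw [mem_ball_zero_iff] at hy ⊢
    rw [norm_smul, Real.norm_of_nonneg ha0.le]
    rw [lt_div_iff₀ ha0] at hy
    linarith
  obtain ⟨t, ht, ht2⟩ := coverNum_spec hcov
  obtain ⟨u, hu, hu2⟩ := core_log (B := innerₗ (E n)) hf (symConv_polar hL) (symConv_body hK) t
    (by
      intro y hy
      obtain ⟨w, hw, hw2⟩ := ht2 y hy
      refine ⟨w, hw, fun z hz => ?_⟩
      rw [Set.mem_inv_smul_set_iff₀ ha0.ne'] at hw2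
      have h1 := hw2 z hz
      rw [inner_smul_right] at h1
      rw [innerₗ_apply_apply, real_inner_comm]
      have h2 : inner ℝ z (y - w) ≤ 1 / a := by
        rw [le_div_iff₀ ha0]; linarith
      exact h2.trans (one_div_le_one_div_of_le hNpos ha))
  rw [ht] at hu
  refine (log_coverNum_le u fun z hz => ?_).trans hu
  obtain ⟨w, hw, hw2⟩ := hu2 z hz
  exact ⟨w, hw, mem_of_bipolar hL fun y hy => by simpa using hw2 y hy⟩

/-- `log N(L°, C f K°) ≤ C f⁵ (log N(K, L))^(1 + 1/f)`. -/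
theorem lower {f : ℕ} (hf : 1 ≤ f) {a : ℝ} (ha : 64 * ((2 * f + 4 : ℕ) : ℝ) ≤ a)
    (K L : Set (E n)) (hK : IsSymBody K) (hL : IsSymBody L) :
    Real.log (coverNum (polar L) (a • polar K)) ≤ 2 ^ 31 * f ^ 5 *
      (Real.log (coverNum K L)) ^ (1 + 1 / (f : ℝ)) := by
  classical
  have hNpos : (0 : ℝ) < 64 * ((2 * f + 4 : ℕ) : ℝ) := by positivity
  have ha0 : 0 < a := by linarith
  obtain ⟨δ, hδ, hball⟩ := Metric.isOpen_iff.mp isOpen_interior 0 hL.zero_mem_interior
  have hcov : ∃ t : Finset (E n), K ⊆ ⋃ x ∈ t, (fun b => x + b) '' L :=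
    exists_cover hK.compact.isBounded hδ (hball.trans interior_subset)
  obtain ⟨t, ht, ht2⟩ := coverNum_spec hcov
  have hpol := symConv_polar hL
  have hZ : SymConv (a⁻¹ • polar L) := by
    refine ⟨hpol.convex.smul _, fun z hz => ?_, ?_⟩
    · rw [Set.mem_inv_smul_set_iff₀ ha0.ne'] at hz ⊢
      rw [smul_neg]
      exact hpol.neg _ hz
    · rw [Set.mem_inv_smul_set_iff₀ ha0.ne', smul_zero]
      exact hpol.zero
  obtain ⟨u, hu, hu2⟩ := core_log (B := innerₗ (E n)) hf (symConv_body hK) hZ t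
    (by
      intro y hy
      obtain ⟨w, hw, hw2⟩ := ht2 y hy
      refine ⟨w, hw, fun z hz => ?_⟩
      rw [Set.mem_inv_smul_set_iff₀ ha0.ne'] at hz
      have h1 := hz _ hw2
      rw [inner_smul_right] at h1
      rw [innerₗ_apply_apply]
      have h2 : inner ℝ (y - w) z ≤ 1 / a := by
        rw [le_div_iff₀ ha0]; linarith
      exact h2.trans (one_div_le_one_div_of_le hNpos ha))
  rw [ht] at hu
  have hcard : (u.image fun w => a • w).card = u.card :=
    Finset.card_image_of_injective _ (smul_right_injective _ ha0.ne')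
  have h1 := log_coverNum_le (A := polar L) (B := a • polar K)
    (u.image fun w => a • w) (fun z hz => by
      obtain ⟨w, hw, hw2⟩ := hu2 (a⁻¹ • z) (Set.smul_mem_smul_set hz)
      refine ⟨a • w, Finset.mem_image_of_mem _ hw, ?_⟩
      rw [Set.mem_smul_set_iff_inv_smul_mem₀ ha0.ne']
      intro x hx
      have h2 := hw2 x hx
      rw [innerₗ_apply_apply] at h2
      rwa [smul_sub, inv_smul_smul₀ ha0.ne'])
  rw [hcard] at h1
  exact h1.trans hu

/-- Numbers: `x^(1+1/f) ≤ 2 x^(1+ε)` when `1/f ≤ ε ≤ 1` and `x = log m`, `m : ℕ`. -/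
lemma rpow_compare {f : ℕ} {ε : ℝ} (hf : 1 ≤ f) (hfε : 1 / (f : ℝ) ≤ ε) (m : ℕ) :
    (Real.log m) ^ (1 + 1 / (f : ℝ)) ≤ (2 : ℝ) ^ (1 + ε) * (Real.log m) ^ (1 + ε) := by
  have hfR : (1 : ℝ) ≤ f := by exact_mod_cast hf
  have hf0 : (0 : ℝ) < f := by linarith
  have hinv : (0 : ℝ) < 1 / f := by positivity
  have hε : 0 < ε := by linarith
  rcases Nat.lt_or_ge m 2 with h1 | h2
  · have : Real.log m = 0 := by
      interval_cases m <;> simp
    rw [this, Real.zero_rpow (by positivity), Real.zero_rpow (by positivity)]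
    simp
  · have hlog2 : (0.6931471803 : ℝ) < Real.log 2 := Real.log_two_gt_d9
    have hlk : Real.log 2 ≤ Real.log m := Real.log_le_log (by norm_num) (by exact_mod_cast h2)
    have hpos : 0 < Real.log m := by linarith
    rw [← Real.mul_rpow (by norm_num) hpos.le]
    have h3 : (Real.log m) ^ (1 + 1 / (f : ℝ)) ≤ (2 * Real.log m) ^ (1 + 1 / (f : ℝ)) :=
      Real.rpow_le_rpow hpos.le (by linarith) (by positivity)
    refine h3.trans ?_
    exact Real.rpow_le_rpow_of_exponent_le (by linarith) (by linarith)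

end Vale.Agent.P126.NL
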