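import Vale.Agent.P126.NLCore

/-!
P126, near-linear duality: the log-sum-exp potential, the states `Good` and `Flat`, one phase of
the covering procedure, and the local covering lemma.
-/

namespace Vale.Agent.P126.NL

open Finset

variable {V W : Type*} [AddCommGroup V] [Module ℝ V] [AddCommGroup W] [Module ℝ W]

/-- log-sum-exp potential of the code book `z` -/
noncomputable def Phi (B : V →ₗ[ℝ] W →ₗ[ℝ] ℝ) {r : ℕ} (z : Fin r → W) (u : V) : ℝ :=
  Real.log (∑ l, Real.exp (B u (z l)))

/-- state of the covering procedure; this is the dual form of the statement that every `x ∈ X` is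
`w`-close to a barycentre of a measure of relative entropy at most `D` with respect to the
measure obtained from the code book by tilting with `u`. -/
def Good (B : V →ₗ[ℝ] W →ₗ[ℝ] ℝ) (Y : Set V) {r : ℕ} (z : Fin r → W) (X : Set W) (u : V)
    (w D : ℝ) : Prop :=
  ∀ x ∈ X, ∀ y ∈ Y, ∀ s : ℝ, 0 ≤ s → s * (B y x - w) ≤ D + (Phi B z (u + s • y) - Phi B z u)

/-- no functional in `Y` sees `x` at error level `w` and exponent `s`. -/
def Flat (B : V →ₗ[ℝ] W →ₗ[ℝ] ℝ) (Y : Set V) {r : ℕ} (z : Fin r → W) (X : Set W) (u : V)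
    (w s : ℝ) : Prop :=
  ∀ x ∈ X, ∀ y ∈ Y, s * (B y x - w) ≤ Phi B z (u + s • y) - Phi B z u

/-- `X` is covered by `m` translates of `σ Y°`. -/
def Cov (B : V →ₗ[ℝ] W →ₗ[ℝ] ℝ) (Y : Set V) (σ : ℝ) (X : Set W) (m : ℕ) : Prop :=
  ∃ t : Finset W, t.card ≤ m ∧ ∀ x ∈ X, ∃ c ∈ t, ∀ v ∈ Y, B v (x - c) ≤ σ

lemma Cov.mono {B : V →ₗ[ℝ] W →ₗ[ℝ] ℝ} {Y : Set V} {σ : ℝ} {X : Set W} {m m' : ℕ}
    (h : Cov B Y σ X m) (hm : m ≤ m') : Cov B Y σ X m' := by
  obtain ⟨t, ht, h2⟩ := h
  exact ⟨t, ht.trans hm, h2⟩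

lemma Cov.union {B : V →ₗ[ℝ] W →ₗ[ℝ] ℝ} {Y : Set V} {σ : ℝ} {X X1 : Set W} {n m a : ℕ}
    {E : Fin n → Set W} (h1 : Cov B Y σ X1 a) (h2 : ∀ j, Cov B Y σ (E j) m)
    (hX : ∀ x ∈ X, x ∈ X1 ∨ ∃ j, x ∈ E j) : Cov B Y σ X (a + n * m) := by
  classical
  obtain ⟨t, ht, h3⟩ := h1
  choose tt htt h4 using h2
  refine ⟨t ∪ Finset.univ.biUnion tt, ?_, fun x hx => ?_⟩
  · refine (Finset.card_union_le _ _).trans ?_
    apply Nat.add_le_add ht
    refine Finset.card_biUnion_le.trans ?_
    calc ∑ j : Fin n, (tt j).card ≤ ∑ _j : Fin n, m := Finset.sum_le_sum fun j _ => htt j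
      _ = n * m := by simp
  · rcases hX x hx with h5 | ⟨j, h5⟩
    · obtain ⟨c, hc, hc2⟩ := h3 x h5
      exact ⟨c, Finset.mem_union_left _ hc, hc2⟩
    · obtain ⟨c, hc, hc2⟩ := h4 j x h5
      exact ⟨c, Finset.mem_union_right _ (Finset.mem_biUnion.mpr ⟨j, Finset.mem_univ _, hc⟩), hc2⟩

section Potential

variable {B : V →ₗ[ℝ] W →ₗ[ℝ] ℝ} {Y : Set V} {r : ℕ} {z : Fin r → W}

lemma sum_exp_pos (hr : 0 < r) (u : V) : 0 < ∑ l, Real.exp (B u (z l)) := by
  have : Nonempty (Fin r) := ⟨⟨0, hr⟩⟩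
  exact Finset.sum_pos (fun l _ => Real.exp_pos _) Finset.univ_nonempty

/-- tilted probabilities -/
noncomputable def tiltP (B : V →ₗ[ℝ] W →ₗ[ℝ] ℝ) (z : Fin r → W) (u : V) (l : Fin r) : ℝ :=
  Real.exp (B u (z l)) / ∑ l, Real.exp (B u (z l))

lemma tiltP_nonneg (hr : 0 < r) (u : V) (l : Fin r) : 0 ≤ tiltP B z u l :=
  div_nonneg (Real.exp_pos _).le (sum_exp_pos hr u).le

lemma tiltP_sum (hr : 0 < r) (u : V) : ∑ l, tiltP B z u l = 1 := by
  unfold tiltP
  rw [← Finset.sum_div]
  exact div_self (sum_exp_pos hr u).ne'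

lemma phi_diff (hr : 0 < r) (u v : V) : Phi B z (u + v) - Phi B z u
    = Real.log (∑ l, tiltP B z u l * Real.exp (B v (z l))) := by
  unfold Phi tiltP
  rw [← Real.log_div (sum_exp_pos hr _).ne' (sum_exp_pos hr _).ne']
  congr 1
  rw [Finset.sum_div]
  apply Finset.sum_congr rfl
  intro l _
  rw [map_add, LinearMap.add_apply, Real.exp_add]
  ring

lemma tilt_sum_pos (hr : 0 < r) (u v : V) :
    0 < ∑ l, tiltP B z u l * Real.exp (B v (z l)) := by
  have : Nonempty (Fin r) := ⟨⟨0, hr⟩⟩
  apply Finset.sum_pos _ Finset.univ_nonempty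
  intro l _
  exact mul_pos (div_pos (Real.exp_pos _) (sum_exp_pos hr u)) (Real.exp_pos _)

/-- convexity of the potential along rays -/
lemma phi_slope (hr : 0 < r) (u y : V) {s s' : ℝ} (hs : 0 < s) (hss : s ≤ s') :
    s' / s * (Phi B z (u + s • y) - Phi B z u) ≤ Phi B z (u + s' • y) - Phi B z u := by
  rw [phi_diff hr, phi_diff hr]
  have hp : 1 ≤ s' / s := by rw [le_div_iff₀ hs]; linarith
  have h1 := Real.rpow_arith_mean_le_arith_mean_rpow Finset.univ (fun l => tiltP B z u l)
    (fun l => Real.exp (B (s • y) (z l))) (fun l _ => tiltP_nonneg hr u l) (tiltP_sum hr u)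
    (fun l _ => (Real.exp_pos _).le) hp
  have h2 : ∀ l, Real.exp (B (s • y) (z l)) ^ (s' / s) = Real.exp (B (s' • y) (z l)) := by
    intro l
    rw [← Real.exp_mul]
    congr 1
    simp only [map_smul, LinearMap.smul_apply, smul_eq_mul]
    field_simp
  simp_rw [h2] at h1
  rw [← Real.log_rpow (tilt_sum_pos hr _ _)]
  apply Real.log_le_log
  · exact Real.rpow_pos_of_pos (tilt_sum_pos hr _ _) _
  · exact h1

lemma good_of_flat (hY : SymConv Y) (hr : 0 < r) {X : Set W} {u : V} {w s : ℝ} (hs : 0 < s)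
    (hw : 0 ≤ w) (h : Flat B Y z X u w s) : Good B Y z X u w (s * w) := by
  intro x hx y hy s' hs'
  rcases le_or_gt s' s with hle | hgt
  · have hy2 : (s' / s) • y ∈ Y := hY.smul_mem hy (by positivity) (by rw [div_le_one hs]; exact hle)
    have h1 := h x hx _ hy2
    have e1 : s • (s' / s) • y = s' • y := by
      rw [smul_smul]; congr 1; field_simp
    have e2 : s * (B ((s' / s) • y) x - w) = s' * B y x - s * w := by
      simp only [map_smul, LinearMap.smul_apply, smul_eq_mul]
      field_simp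
    rw [e1, e2] at h1
    have h2 : 0 ≤ s' * w := by positivity
    linarith
  · have h1 := h x hx y hy
    have h2 := phi_slope (B := B) (z := z) hr u y hs hgt.le
    have h3 : 0 ≤ s' / s := by positivity
    have h4 := mul_le_mul_of_nonneg_left h1 h3
    have e1 : s' / s * (s * (B y x - w)) = s' * (B y x - w) := by field_simp
    rw [e1] at h4
    have h5 : 0 ≤ s * w := by positivity
    linarith

lemma good_tilt (hY : SymConv Y) {X : Set W} {u y : V} {w D s g : ℝ} (hs : 0 < s)
    (hy : y ∈ Y) (h : Good B Y z X u w D) :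
    Good B Y z {x ∈ X | Phi B z (u + s • y) - Phi B z u ≤ s * (B y x - (w + g))}
      (u + s • y) w (D - s * g) := by
  intro x hx y' hy' s' hs'
  obtain ⟨hxX, hxE⟩ := hx
  have hss : 0 < s + s' := by linarith
  have hy2 : (s / (s + s')) • y + (s' / (s + s')) • y' ∈ Y :=
    hY.convex hy hy' (by positivity) (by positivity) (by field_simp)
  have h1 := h x hxX _ hy2 (s + s') hss.le
  have e1 : (s + s') • ((s / (s + s')) • y + (s' / (s + s')) • y') = s • y + s' • y' := by
    rw [smul_add, smul_smul, smul_smul]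
    congr 2
    · field_simp
    · field_simp
  have e2 : (s + s') * (B ((s / (s + s')) • y + (s' / (s + s')) • y') x - w)
      = s * B y x + s' * B y' x - (s + s') * w := by
    simp only [map_add, map_smul, LinearMap.add_apply, LinearMap.smul_apply, smul_eq_mul]
    field_simp
  rw [e1, e2, ← add_assoc] at h1
  linarith

lemma empty_of_good_neg (hY : SymConv Y) {X : Set W} {u : V} {w D : ℝ}
    (h : Good B Y z X u w D) (hD : D < 0) : X = ∅ := by
  by_contra hne
  obtain ⟨x, hx⟩ := Set.nonempty_iff_ne_empty.mpr hne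
  have := h x hx 0 hY.zero 0 le_rfl
  simp at this
  linarith

/-- at small exponent, `Flat` gives a single ball -/
lemma final_flat {N : ℕ} {Z : Set W} (hY : SymConv Y) (hr : 0 < r) {σ : ℝ}
    (hz : ∀ j, z j ∈ layer N B Y Z σ) {X : Set W} {u : V} {w s : ℝ} (hs : 0 < s)
    (hs1 : s * (64 * N * σ) ≤ 1) (hw : w + s * (64 * N * σ) ^ 2 ≤ σ)
    (h : Flat B Y z X u w s) : Cov B Y σ X 1 := by
  classical
  refine ⟨{∑ l, tiltP B z u l • z l}, by simp, fun x hx => ⟨_, Finset.mem_singleton_self _, ?_⟩⟩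
  intro y hy
  have h1 := h x hx y hy
  rw [phi_diff hr] at h1
  have h2 : Real.log (∑ l, tiltP B z u l * Real.exp (B (s • y) (z l)))
      ≤ (∑ l, tiltP B z u l * Real.exp (B (s • y) (z l))) - 1 :=
    Real.log_le_sub_one_of_pos (tilt_sum_pos hr _ _)
  have h3 : ∑ l, tiltP B z u l * Real.exp (B (s • y) (z l))
      ≤ ∑ l, tiltP B z u l * (1 + s * B y (z l) + (s * (64 * N * σ)) ^ 2) := by
    apply Finset.sum_le_sum
    intro l _
    apply mul_le_mul_of_nonneg_left _ (tiltP_nonneg hr u l)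
    have a1 := layer_abs hY (hz l) hy
    have e1 : B (s • y) (z l) = s * B y (z l) := by
      simp [map_smul]
    rw [e1]
    have a2 : |s * B y (z l)| ≤ s * (64 * N * σ) := by
      rw [abs_mul, abs_of_pos hs]
      exact mul_le_mul_of_nonneg_left a1 hs.le
    have a3 := Real.abs_exp_sub_one_sub_id_le (a2.trans hs1)
    have a4 := (abs_le.mp a3).2
    have a5 : (s * B y (z l)) ^ 2 ≤ (s * (64 * N * σ)) ^ 2 := by
      rw [← sq_abs]
      exact pow_le_pow_left₀ (abs_nonneg _) a2 2
    linarith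
  have h4 : ∑ l, tiltP B z u l * (1 + s * B y (z l) + (s * (64 * N * σ)) ^ 2)
      = 1 + s * B y (∑ l, tiltP B z u l • z l) + (s * (64 * N * σ)) ^ 2 := by
    have e : ∀ l, tiltP B z u l * (1 + s * B y (z l) + (s * (64 * N * σ)) ^ 2)
        = tiltP B z u l * (1 + (s * (64 * N * σ)) ^ 2) + s * (tiltP B z u l * B y (z l)) := by
      intro l; ring
    simp_rw [e]
    rw [Finset.sum_add_distrib, ← Finset.sum_mul, ← Finset.mul_sum, tiltP_sum hr, map_sum]
    simp only [map_smul, smul_eq_mul]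
    ring
  have h5 : s * (B y x - w) ≤ s * B y (∑ l, tiltP B z u l • z l) + (s * (64 * N * σ)) ^ 2 := by
    linarith
  have h6 : (s * (64 * N * σ)) ^ 2 = s * (s * (64 * N * σ) ^ 2) := by ring
  rw [h6, ← mul_add] at h5
  have h7 := le_of_mul_le_mul_left h5 hs
  rw [map_sub]
  linarith

/-- the starting state: the whole layer, code book = maximal chain -/
lemma start_good {X : Set W} {g : ℝ}
    (hmax : ∀ x ∈ X, ∀ y ∈ Y, ∃ l, B y x < B y (z l) + g) :
    Good B Y z X 0 g (Real.log r) := by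
  intro x hx y hy s hs
  obtain ⟨l, hl⟩ := hmax x hx y hy
  have h1 : Phi B z (0 : V) = Real.log r := by
    unfold Phi
    simp
  rw [h1, zero_add]
  have h2 : s * (B y x - g) ≤ s * B y (z l) := mul_le_mul_of_nonneg_left (by linarith) hs
  have h3 : s * B y (z l) ≤ Phi B z (s • y) := by
    unfold Phi
    rw [Real.le_log_iff_exp_le (Finset.sum_pos (fun l _ => Real.exp_pos _) ⟨l, Finset.mem_univ _⟩)]
    have e : s * B y (z l) = B (s • y) (z l) := by simp [map_smul]
    rw [e]
    exact Finset.single_le_sum (f := fun l => Real.exp (B (s • y) (z l)))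
      (fun i _ => (Real.exp_pos _).le) (Finset.mem_univ l)
  linarith

end Potential

/-- chains can be shortened -/
lemma chain_mono {N : ℕ} {B : V →ₗ[ℝ] W →ₗ[ℝ] ℝ} {Y : Set V} {Z : Set W} {σ : ℝ} {m n : ℕ}
    (hmn : m ≤ n) (h : Chain N B Y Z σ n) : Chain N B Y Z σ m := by
  obtain ⟨z, y, hz, hy, hc⟩ := h
  refine ⟨fun j => z (Fin.castLE hmn j), fun j => y (Fin.castLE hmn j), fun j => hz _,
    fun j => hy _, fun l j hlj => hc _ _ ?_⟩
  simpa using hlj

/-- One phase of the covering procedure. -/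
lemma phase {N : ℕ} {B : V →ₗ[ℝ] W →ₗ[ℝ] ℝ} {Y : Set V} {Z : Set W} (hY : SymConv Y)
    {σ : ℝ} {r r' : ℕ} {z : Fin r' → W} (hmax : ¬ Chain N B Y Z σ (r + 1))
    {w s : ℝ} (hs : 0 < s) {m : ℕ}
    (hyp : ∀ (X : Set W) (u : V), X ⊆ layer N B Y Z σ →
      Flat B Y z X u (w + 2 * (σ / N)) s → Cov B Y σ X m) :
    ∀ (k : ℕ) (X : Set W) (u : V) (D : ℝ), X ⊆ layer N B Y Z σ → Good B Y z X u w D →
      D < k * (s * (σ / N)) → Cov B Y σ X ((r + 1) ^ k * m) := by
  classical
  intro k
  induction k with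
  | zero =>
    intro X u D _ hG hD
    have : X = ∅ := empty_of_good_neg hY hG (by simpa using hD)
    subst this
    exact ⟨∅, by simp, fun x hx => absurd hx (Set.notMem_empty x)⟩
  | succ k ih =>
    intro X u D hXl hG hD
    set g := σ / N with hg
    -- the part on which no functional is seen
    set X1 : Set W := {x ∈ X | ∀ y ∈ Y, s * (B y x - (w + 2 * g)) ≤
      Phi B z (u + s • y) - Phi B z u} with hX1
    have hF : Flat B Y z X1 u (w + 2 * g) s := fun x hx => hx.2
    have hC1 : Cov B Y σ X1 m := hyp X1 u (fun x hx => hXl hx.1) hF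
    -- greedy chains
    let GC : ℕ → Prop := fun n => ∃ (x : Fin n → W) (y : Fin n → V), (∀ j, x j ∈ X) ∧
      (∀ j, y j ∈ Y) ∧
      (∀ j, Phi B z (u + s • y j) - Phi B z u < s * (B (y j) (x j) - (w + 2 * g))) ∧
      ∀ l j, l < j → s * (B (y l) (x j) - (w + g)) < Phi B z (u + s • y l) - Phi B z u
    have hGC0 : GC 0 := ⟨Fin.elim0, Fin.elim0, fun j => Fin.elim0 j, fun j => Fin.elim0 j,
      fun j => Fin.elim0 j, fun l => Fin.elim0 l⟩
    have hGCle : ∀ n, GC n → n ≤ r := by
      intro n hn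
      by_contra hcon
      push Not at hcon
      obtain ⟨x, y, hx, hy, hv, hc⟩ := hn
      apply hmax
      apply chain_mono (n := n) hcon
      refine ⟨fun j => x (Fin.rev j), fun j => y (Fin.rev j), fun j => hXl (hx _),
        fun j => hy _, fun l j hlj => ?_⟩
      have hlt : Fin.rev j < Fin.rev l := Fin.rev_lt_rev.mpr hlj
      have h1 := hc _ _ hlt
      have h2 := hv (Fin.rev j)
      have h3 : s * (B (y (Fin.rev j)) (x (Fin.rev l)) - (w + g))
          < s * (B (y (Fin.rev j)) (x (Fin.rev j)) - (w + 2 * g)) := h1.trans h2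
      have h4 := lt_of_mul_lt_mul_left h3 hs.le
      linarith
    obtain ⟨n, hn, hn1⟩ : ∃ n, GC n ∧ ¬ GC (n + 1) := by
      by_contra hcon
      push Not at hcon
      have hall : ∀ n, GC n := fun n => by
        induction n with
        | zero => exact hGC0
        | succ n ihn => exact hcon n ihn
      have := hGCle _ (hall (r + 1))
      omega
    have hnr := hGCle n hn
    obtain ⟨x, y, hx, hy, hv, hc⟩ := hn
    set E : Fin n → Set W := fun j =>
      {x' ∈ X | Phi B z (u + s • y j) - Phi B z u ≤ s * (B (y j) x' - (w + g))} with hE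
    have hCE : ∀ j, Cov B Y σ (E j) ((r + 1) ^ k * m) := by
      intro j
      apply ih (E j) (u + s • y j) (D - s * g) (fun x' hx' => hXl hx'.1)
        (good_tilt hY hs (hy j) hG)
      push_cast at hD
      linarith
    have hcover : ∀ x' ∈ X, x' ∈ X1 ∨ ∃ j, x' ∈ E j := by
      intro x' hx'
      by_contra hcon
      push Not at hcon
      obtain ⟨hn1', hnE⟩ := hcon
      apply hn1
      have h1 : ∃ y' ∈ Y, Phi B z (u + s • y') - Phi B z u < s * (B y' x' - (w + 2 * g)) := by
        by_contra h2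
        push Not at h2
        exact hn1' ⟨hx', h2⟩
      obtain ⟨y', hy', hv'⟩ := h1
      refine ⟨Fin.snoc x x', Fin.snoc y y', ?_, ?_, ?_, ?_⟩
      · intro j
        refine Fin.lastCases ?_ (fun i => ?_) j
        · rw [Fin.snoc_last]; exact hx'
        · rw [Fin.snoc_castSucc]; exact hx i
      · intro j
        refine Fin.lastCases ?_ (fun i => ?_) j
        · rw [Fin.snoc_last]; exact hy'
        · rw [Fin.snoc_castSucc]; exact hy i
      · intro j
        refine Fin.lastCases ?_ (fun i => ?_) j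
        · rw [Fin.snoc_last, Fin.snoc_last]; exact hv'
        · rw [Fin.snoc_castSucc, Fin.snoc_castSucc]; exact hv i
      · intro l j
        refine Fin.lastCases ?_ (fun i => ?_) j
        · refine Fin.lastCases ?_ (fun i' => ?_) l
          · intro h; exact absurd h (lt_irrefl _)
          · intro _
            rw [Fin.snoc_castSucc, Fin.snoc_last]
            by_contra h3
            push Not at h3
            exact hnE i' ⟨hx', h3⟩
        · refine Fin.lastCases ?_ (fun i' => ?_) l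
          · intro h
            exact absurd h (not_lt.mpr (Fin.castSucc_lt_last i).le)
          · intro h
            rw [Fin.snoc_castSucc, Fin.snoc_castSucc]
            exact hc i' i (by simpa using h)
    refine (Cov.union hC1 hCE hcover).mono ?_
    have h1 : 1 ≤ (r + 1) ^ k := Nat.one_le_pow _ _ (by omega)
    have h2 : m ≤ (r + 1) ^ k * m := Nat.le_mul_of_pos_left m (by omega)
    calc m + n * ((r + 1) ^ k * m) ≤ (r + 1) ^ k * m + r * ((r + 1) ^ k * m) :=
          Nat.add_le_add h2 (Nat.mul_le_mul_right _ hnr)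
      _ = (r + 1) ^ (k + 1) * m := by ring

/-- Local covering lemma. -/
lemma local_cover {f N : ℕ} (hf : N = 2 * f + 4) {B : V →ₗ[ℝ] W →ₗ[ℝ] ℝ} {Y : Set V}
    {Z : Set W} (hY : SymConv Y) {σ : ℝ} (hσ : 0 < σ) {r : ℕ} (hr0 : 0 < r)
    (hr : Chain N B Y Z σ r) (hmax : ¬ Chain N B Y Z σ (r + 1)) {κ sb : ℝ} (hκ : 1 ≤ κ)
    (hsb : κ ^ f = sb) (hlog : Real.log r ≤ sb) :
    Cov B Y σ (layer N B Y Z σ)
      ((r + 1) ^ (4096 * N ^ 4 + 1 + f * (⌊κ * N⌋₊ + 1))) := by
  classical
  have hN4 : (4 : ℝ) ≤ N := by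
    rw [hf]; push_cast
    have : (0 : ℝ) ≤ f := by positivity
    linarith
  have hN0 : (0 : ℝ) < N := by linarith
  have hNne : (N : ℝ) ≠ 0 := hN0.ne'
  obtain ⟨z, y, hz, hy, hc⟩ := hr
  -- the code book property
  have hbook : ∀ x ∈ layer N B Y Z σ, ∀ v ∈ Y, ∃ l, B v x < B v (z l) + σ / N := by
    intro x hx v hv
    by_contra hcon
    push Not at hcon
    apply hmax
    refine ⟨Fin.snoc z x, Fin.snoc y v, ?_, ?_, ?_⟩
    · intro j
      refine Fin.lastCases ?_ (fun i => ?_) j
      · rw [Fin.snoc_last]; exact hx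
      · rw [Fin.snoc_castSucc]; exact hz i
    · intro j
      refine Fin.lastCases ?_ (fun i => ?_) j
      · rw [Fin.snoc_last]; exact hv
      · rw [Fin.snoc_castSucc]; exact hy i
    · intro l j
      refine Fin.lastCases ?_ (fun i => ?_) j
      · refine Fin.lastCases ?_ (fun i' => ?_) l
        · intro h; exact absurd h (lt_irrefl _)
        · intro _
          rw [Fin.snoc_last, Fin.snoc_last, Fin.snoc_castSucc]
          exact hcon i'
      · refine Fin.lastCases ?_ (fun i' => ?_) l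
        · intro h
          exact absurd h (not_lt.mpr (Fin.castSucc_lt_last i).le)
        · intro h
          rw [Fin.snoc_castSucc, Fin.snoc_castSucc, Fin.snoc_castSucc]
          exact hc i' i (by simpa using h)
  have hstart : Good B Y z (layer N B Y Z σ) 0 (σ / N) (Real.log r) := start_good hbook
  have hκ0 : 0 < κ := by linarith
  -- backward induction over the phases
  have key : ∀ i : ℕ, i ≤ f → ∀ (X : Set W) (u : V) (D : ℝ), X ⊆ layer N B Y Z σ →
      Good B Y z X u ((1 + 2 * ((f - i : ℕ) : ℝ)) * (σ / N)) D → D ≤ κ ^ i →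
      Cov B Y σ X ((r + 1) ^ (4096 * N ^ 4 + 1 + i * (⌊κ * N⌋₊ + 1))) := by
    intro i
    induction i with
    | zero =>
      intro _ X u D hX hG hD
      rw [pow_zero] at hD
      have hs : (0 : ℝ) < 1 / (4096 * N ^ 3 * σ) := by positivity
      have hphase := phase (r := r) hY hmax (w := (1 + 2 * ((f - 0 : ℕ) : ℝ)) * (σ / N)) hs
        (m := 1) (z := z) (by
          intro X' u' _ hF
          apply final_flat hY hr0 hz hs _ _ hF
          · rw [one_div, inv_mul_le_iff₀ (by positivity)]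
            have : (64 : ℝ) * N * σ ≤ 4096 * N ^ 3 * σ := by
              have h1 : (N : ℝ) ≤ N ^ 3 := by
                have : (1 : ℝ) ≤ N ^ 2 := one_le_pow₀ (by linarith)
                nlinarith
              nlinarith [mul_le_mul_of_nonneg_right h1 hσ.le]
            linarith
          · have e1 : 1 / (4096 * (N : ℝ) ^ 3 * σ) * (64 * N * σ) ^ 2 = σ / N := by
              field_simp
              ring
            rw [e1, Nat.sub_zero]
            have e2 : (1 + 2 * (f : ℝ)) * (σ / N) + 2 * (σ / N) + σ / N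
                = (2 * f + 4) * (σ / N) := by ring
            rw [e2]
            have e3 : (2 * (f : ℝ) + 4) = N := by rw [hf]; push_cast; ring
            rw [e3]
            exact le_of_eq (mul_div_cancel₀ σ hNne))
      have h1 := hphase (4096 * N ^ 4 + 1) X u D hX hG (by
        have e1 : ((4096 * N ^ 4 + 1 : ℕ) : ℝ) * (1 / (4096 * (N : ℝ) ^ 3 * σ) * (σ / N))
            = 1 + 1 / (4096 * N ^ 4) := by
          push_cast
          field_simp
        rw [e1]
        have : (0 : ℝ) < 1 / (4096 * N ^ 4) := by positivity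
        linarith)
      simpa using h1
    | succ i ih =>
      intro hi X u D hX hG hD
      have hs : (0 : ℝ) < κ ^ i / σ := by positivity
      have hj : ((f - i : ℕ) : ℝ) = ((f - (i + 1) : ℕ) : ℝ) + 1 := by
        have : f - i = (f - (i + 1)) + 1 := by omega
        rw [this]; push_cast; ring
      have hphase := phase (r := r) hY hmax
        (w := (1 + 2 * ((f - (i + 1) : ℕ) : ℝ)) * (σ / N)) hs
        (m := (r + 1) ^ (4096 * N ^ 4 + 1 + i * (⌊κ * N⌋₊ + 1)))
        (z := z) (by
          intro X' u' hX' hF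
          have e1 : (1 + 2 * ((f - (i + 1) : ℕ) : ℝ)) * (σ / N) + 2 * (σ / N)
              = (1 + 2 * ((f - i : ℕ) : ℝ)) * (σ / N) := by
            rw [hj]; ring
          rw [e1] at hF
          have hw0 : (0 : ℝ) ≤ (1 + 2 * ((f - i : ℕ) : ℝ)) * (σ / N) := by positivity
          have hG' := good_of_flat hY hr0 hs hw0 hF
          refine ih (by omega) X' u' _ hX' hG' ?_
          have e2 : (1 + 2 * ((f - i : ℕ) : ℝ)) * (σ / N) ≤ σ := by
            have h1 : ((f - i : ℕ) : ℝ) ≤ f := by exact_mod_cast Nat.sub_le f i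
            have h2 : (1 + 2 * ((f - i : ℕ) : ℝ)) ≤ N := by
              rw [hf]; push_cast; linarith
            calc (1 + 2 * ((f - i : ℕ) : ℝ)) * (σ / N) ≤ N * (σ / N) :=
                  mul_le_mul_of_nonneg_right h2 (by positivity)
              _ = σ := mul_div_cancel₀ σ hNne
          calc κ ^ i / σ * ((1 + 2 * ((f - i : ℕ) : ℝ)) * (σ / N)) ≤ κ ^ i / σ * σ :=
                mul_le_mul_of_nonneg_left e2 hs.le
            _ = κ ^ i := by field_simp)
      have h1 := hphase (⌊κ * N⌋₊ + 1) X u D hX hG (by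
        have h2 : κ * N < ((⌊κ * N⌋₊ + 1 : ℕ) : ℝ) := by
          push_cast
          exact Nat.lt_floor_add_one _
        have e1 : ((⌊κ * N⌋₊ + 1 : ℕ) : ℝ) * (κ ^ i / σ * (σ / N))
            = ((⌊κ * N⌋₊ + 1 : ℕ) : ℝ) * (κ ^ i / N) := by
          field_simp
        rw [e1]
        have h3 : (0 : ℝ) < κ ^ i / N := by positivity
        calc D ≤ κ ^ (i + 1) := hD
          _ = κ * N * (κ ^ i / N) := by field_simp; ring
          _ < _ := mul_lt_mul_of_pos_right h2 h3)
      have e : (r + 1) ^ (⌊κ * N⌋₊ + 1) * (r + 1) ^ (4096 * N ^ 4 + 1 + i * (⌊κ * N⌋₊ + 1))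
          = (r + 1) ^ (4096 * N ^ 4 + 1 + (i + 1) * (⌊κ * N⌋₊ + 1)) := by
        rw [← pow_add]
        congr 1
        ring
      rwa [e] at h1
  have h1 := key f le_rfl (layer N B Y Z σ) 0 (Real.log r) (le_refl _) (by simpa using hstart)
    (by rw [hsb]; exact hlog)
  exact h1

end Vale.Agent.P126.NL
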