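import Mathlib

/-!
P126: two elementary tools.

* `sampling`: a derandomised Chernoff bound (choose `s` sample points so that the averages of
  finitely many bounded functions are simultaneously close to their means);
* `minimax`: a finite minimax statement (from the separation theorem in `ι → ℝ`).
-/

namespace Vale.Agent.P126

open Finset

lemma exp_step {ι : Type*} [Fintype ι] (lam : ι → ℝ) (h0 : ∀ l, 0 ≤ lam l)
    (h1 : ∑ l, lam l = 1) (X : ι → ℝ) (hX : ∀ l, |X l| ≤ 1) (hm : ∑ l, lam l * X l = 0)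
    (θ : ℝ) (hθ : |θ| ≤ 1) :
    ∑ l, lam l * Real.exp (θ * X l) ≤ Real.exp (θ ^ 2) := by
  have key : ∀ l, Real.exp (θ * X l) ≤ 1 + θ * X l + θ ^ 2 := by
    intro l
    have h2 : |θ * X l| ≤ 1 := by
      rw [abs_mul]
      exact mul_le_one₀ hθ (abs_nonneg _) (hX l)
    have h3 := Real.abs_exp_sub_one_sub_id_le h2
    have h4 := (abs_le.mp h3).2
    have h5 : (θ * X l) ^ 2 ≤ θ ^ 2 := by
      rw [mul_pow]
      have h6 : (X l) ^ 2 ≤ 1 := by
        rw [← sq_abs]
        have := abs_nonneg (X l)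
        nlinarith [hX l]
      nlinarith [sq_nonneg θ]
    linarith
  have h7 : ∑ l, lam l * Real.exp (θ * X l) ≤ ∑ l, lam l * (1 + θ * X l + θ ^ 2) :=
    Finset.sum_le_sum fun l _ => mul_le_mul_of_nonneg_left (key l) (h0 l)
  have h8 : ∑ l, lam l * (1 + θ * X l + θ ^ 2) = 1 + θ ^ 2 := by
    have h9 : ∀ l, lam l * (1 + θ * X l + θ ^ 2) = lam l * (1 + θ ^ 2) + θ * (lam l * X l) := by
      intro l; ring
    simp_rw [h9]
    rw [Finset.sum_add_distrib, ← Finset.sum_mul, ← Finset.mul_sum, h1, hm]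
    ring
  have h10 := Real.add_one_le_exp (θ ^ 2)
  linarith

/-- weighted averaging: some term is at most the weighted average. -/
lemma exists_le_of_weighted {ι : Type*} [Fintype ι] (lam : ι → ℝ) (h0 : ∀ l, 0 ≤ lam l)
    (h1 : ∑ l, lam l = 1) (F : ι → ℝ) (C : ℝ) (h : ∑ l, lam l * F l ≤ C) :
    ∃ l, F l ≤ C := by
  by_contra hcon
  push Not at hcon
  have h2 : ∃ l, 0 < lam l := by
    by_contra h3
    push Not at h3
    have : ∑ l, lam l ≤ 0 := Finset.sum_nonpos fun l _ => h3 l
    linarith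
  obtain ⟨l0, hl0⟩ := h2
  have h4 : ∑ l, lam l * C < ∑ l, lam l * F l := by
    apply Finset.sum_lt_sum
    · intro l _
      exact mul_le_mul_of_nonneg_left (hcon l).le (h0 l)
    · exact ⟨l0, Finset.mem_univ _, mul_lt_mul_of_pos_left (hcon l0) hl0⟩
  rw [← Finset.sum_mul, h1, one_mul] at h4
  linarith

lemma sampling_potential {ι κ : Type*} [Fintype ι] [Fintype κ] (lam : ι → ℝ)
    (h0 : ∀ l, 0 ≤ lam l) (h1 : ∑ l, lam l = 1) (X : κ → ι → ℝ) (hX : ∀ m l, |X m l| ≤ 1)
    (hm : ∀ m, ∑ l, lam l * X m l = 0) (θ : ℝ) (hθ : |θ| ≤ 1) (s : ℕ) :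
    ∃ j : Fin s → ι, ∑ m, (Real.exp (θ * ∑ t, X m (j t)) + Real.exp (-θ * ∑ t, X m (j t)))
      ≤ 2 * Fintype.card κ * Real.exp (θ ^ 2) ^ s := by
  induction s with
  | zero =>
    refine ⟨Fin.elim0, ?_⟩
    simp
    linarith
  | succ s ih =>
    obtain ⟨j, hj⟩ := ih
    set F : ι → ℝ := fun l =>
      ∑ m, (Real.exp (θ * ∑ t, X m ((Fin.cons l j : Fin (s + 1) → ι) t))
        + Real.exp (-θ * ∑ t, X m ((Fin.cons l j : Fin (s + 1) → ι) t))) with hF
    have hFl : ∀ l, F l = ∑ m, (Real.exp (θ * X m l) * Real.exp (θ * ∑ t, X m (j t))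
        + Real.exp (-θ * X m l) * Real.exp (-θ * ∑ t, X m (j t))) := by
      intro l
      simp only [hF]
      apply Finset.sum_congr rfl
      intro m _
      rw [Fin.sum_univ_succ]
      simp only [Fin.cons_zero, Fin.cons_succ, mul_add, Real.exp_add]
    have havg : ∑ l, lam l * F l ≤ 2 * Fintype.card κ * Real.exp (θ ^ 2) ^ (s + 1) := by
      have e1 : ∑ l, lam l * F l = ∑ m, ((∑ l, lam l * Real.exp (θ * X m l)) *
          Real.exp (θ * ∑ t, X m (j t)) + (∑ l, lam l * Real.exp (-θ * X m l)) *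
          Real.exp (-θ * ∑ t, X m (j t))) := by
        simp_rw [hFl, Finset.mul_sum, Finset.sum_mul, ← Finset.sum_add_distrib]
        rw [Finset.sum_comm]
        apply Finset.sum_congr rfl
        intro m _
        apply Finset.sum_congr rfl
        intro l _
        ring
      have e2 : ∑ l, lam l * F l ≤ ∑ m, Real.exp (θ ^ 2) * (Real.exp (θ * ∑ t, X m (j t))
          + Real.exp (-θ * ∑ t, X m (j t))) := by
        rw [e1]
        apply Finset.sum_le_sum
        intro m _
        have a1 := exp_step lam h0 h1 (X m) (hX m) (hm m) θ hθ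
        have a2 := exp_step lam h0 h1 (X m) (hX m) (hm m) (-θ) (by rwa [abs_neg])
        rw [neg_sq] at a2
        have b1 := Real.exp_pos (θ * ∑ t, X m (j t))
        have b2 := Real.exp_pos (-θ * ∑ t, X m (j t))
        nlinarith [mul_le_mul_of_nonneg_right a1 b1.le, mul_le_mul_of_nonneg_right a2 b2.le]
      rw [← Finset.mul_sum] at e2
      have e3 := mul_le_mul_of_nonneg_left hj (Real.exp_pos (θ ^ 2)).le
      calc ∑ l, lam l * F l ≤ _ := e2
        _ ≤ _ := e3
        _ = _ := by rw [pow_succ]; ring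
    obtain ⟨l, hl⟩ := exists_le_of_weighted lam h0 h1 F _ havg
    exact ⟨Fin.cons l j, hl⟩

/-- Simultaneous sampling: `s ≥ (4/ε²) log (2k)` samples suffice for `k` bounded functions. -/
lemma sampling {ι κ : Type*} [Fintype ι] [Fintype κ] [Nonempty κ] (lam : ι → ℝ)
    (h0 : ∀ l, 0 ≤ lam l) (h1 : ∑ l, lam l = 1) (X : κ → ι → ℝ) (hX : ∀ m l, |X m l| ≤ 1)
    (hm : ∀ m, ∑ l, lam l * X m l = 0) (ε : ℝ) (hε : 0 < ε) (hε1 : ε ≤ 1) (s : ℕ)
    (hs : Real.log (2 * Fintype.card κ) ≤ s * (ε ^ 2 / 4)) :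
    ∃ j : Fin s → ι, ∀ m, |∑ t, X m (j t)| ≤ ε * s := by
  obtain ⟨j, hj⟩ := sampling_potential lam h0 h1 X hX hm (ε / 2)
    (by rw [abs_of_pos (by linarith)]; linarith) s
  refine ⟨j, fun m => ?_⟩
  set S := ∑ t, X m (j t) with hS
  have hk : (0 : ℝ) < Fintype.card κ := by exact_mod_cast Fintype.card_pos
  have p1 : Real.exp (ε / 2 * S) + Real.exp (-(ε / 2) * S)
      ≤ 2 * Fintype.card κ * Real.exp ((ε / 2) ^ 2) ^ s := by
    refine le_trans ?_ hj
    have := Finset.single_le_sum (s := Finset.univ)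
      (f := fun m => Real.exp (ε / 2 * ∑ t, X m (j t)) + Real.exp (-(ε / 2) * ∑ t, X m (j t)))
      (fun m _ => by positivity) (Finset.mem_univ m)
    exact this
  have p2 : 2 * (Fintype.card κ : ℝ) * Real.exp ((ε / 2) ^ 2) ^ s
      ≤ Real.exp (s * (ε ^ 2 / 2)) := by
    have q1 : Real.exp ((ε / 2) ^ 2) ^ s = Real.exp (s * (ε ^ 2 / 4)) := by
      rw [← Real.exp_nat_mul]; ring_nf
    have q2 : 2 * (Fintype.card κ : ℝ) ≤ Real.exp (s * (ε ^ 2 / 4)) := by
      rw [← Real.log_le_iff_le_exp (by positivity)]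
      exact hs
    rw [q1]
    calc 2 * (Fintype.card κ : ℝ) * Real.exp (s * (ε ^ 2 / 4))
        ≤ Real.exp (s * (ε ^ 2 / 4)) * Real.exp (s * (ε ^ 2 / 4)) :=
          mul_le_mul_of_nonneg_right q2 (Real.exp_pos _).le
      _ = Real.exp (s * (ε ^ 2 / 2)) := by rw [← Real.exp_add]; ring_nf
  have p3 : Real.exp (ε / 2 * S) ≤ Real.exp (s * (ε ^ 2 / 2)) := by
    have := Real.exp_pos (-(ε / 2) * S)
    linarith
  have p4 : Real.exp (-(ε / 2) * S) ≤ Real.exp (s * (ε ^ 2 / 2)) := by
    have := Real.exp_pos (ε / 2 * S)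
    linarith
  rw [Real.exp_le_exp] at p3 p4
  rw [abs_le]
  constructor
  · by_contra hc
    push Not at hc
    nlinarith [mul_pos hε hε]
  · by_contra hc
    push Not at hc
    nlinarith [mul_pos hε hε]

/-- A finite minimax statement. -/
lemma minimax {ι V : Type*} [Fintype ι] [Nonempty ι] [AddCommGroup V] [Module ℝ V]
    (Y : Set V) (hY : Convex ℝ Y) (hne : Y.Nonempty) (g : ι → V →ₗ[ℝ] ℝ) (β : ℝ)
    (h : ∀ y ∈ Y, ∃ l, g l y < β) :
    ∃ lam : ι → ℝ, (∀ l, 0 ≤ lam l) ∧ ∑ l, lam l = 1 ∧ ∀ y ∈ Y, ∑ l, lam l * g l y ≤ β := by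
  classical
  set S : Set (ι → ℝ) := {v | ∀ l, β < v l} with hS
  set G : V →ₗ[ℝ] (ι → ℝ) := LinearMap.pi g with hG
  have hSo : IsOpen S := by
    have : S = ⋂ l, {v : ι → ℝ | β < v l} := by ext v; simp [hS]
    rw [this]
    exact isOpen_iInter_of_finite fun l => isOpen_lt continuous_const (continuous_apply l)
  have hSc : Convex ℝ S := by
    intro v hv w hw a b ha hb hab l
    have h1 := hv l
    have h2 := hw l
    simp only [Pi.add_apply, Pi.smul_apply, smul_eq_mul]
    rcases eq_or_lt_of_le ha with ha0 | ha0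
    · have : b = 1 := by linarith
      rw [← ha0, this]; linarith
    · have : β = a * β + b * β := by rw [← add_mul, hab, one_mul]
      rw [this]
      have := mul_lt_mul_of_pos_left h1 ha0
      have := mul_le_mul_of_nonneg_left h2.le hb
      linarith
  have hTc : Convex ℝ (G '' Y) := hY.linear_image G
  have hdis : Disjoint S (G '' Y) := by
    rw [Set.disjoint_left]
    rintro v hv ⟨y, hy, rfl⟩
    obtain ⟨l, hl⟩ := h y hy
    have := hv l
    simp only [hG, LinearMap.pi_apply] at this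
    linarith
  obtain ⟨f, u, hf1, hf2⟩ := geometric_hahn_banach_open hSc hSo hTc hdis
  -- coordinates of f
  set e : ι → (ι → ℝ) := fun l => Pi.single l 1 with he
  set p : ι → ℝ := fun l => - f (e l) with hp
  have hfv : ∀ v : ι → ℝ, f v = - ∑ l, p l * v l := by
    intro v
    have hv : v = ∑ l, v l • e l := by
      ext i
      simp [he, Finset.sum_apply, Pi.single_apply]
    conv_lhs => rw [hv]
    rw [map_sum]
    simp only [map_smul, smul_eq_mul, hp]
    rw [← Finset.sum_neg_distrib]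
    apply Finset.sum_congr rfl
    intro l _
    ring
  have hmemS : ∀ δ : ℝ, 0 < δ → (fun _ : ι => β + δ) ∈ S := by
    intro δ hδ l
    simp [hδ]
  have hp0 : ∀ l, 0 ≤ p l := by
    intro l
    by_contra hc
    push Not at hc
    -- f (β+1 + N e_l) < u for all N
    have h1 : ∀ N : ℝ, 0 ≤ N → f (fun _ : ι => β + 1) - N * p l < u := by
      intro N hN
      have h2 : ((fun _ : ι => β + 1) + N • e l) ∈ S := by
        intro i
        simp only [Pi.add_apply, Pi.smul_apply, smul_eq_mul, he]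
        by_cases hi : i = l
        · subst hi; simp; linarith
        · rw [Pi.single_eq_of_ne hi]; linarith
      have h3 := hf1 _ h2
      rw [map_add, map_smul, smul_eq_mul] at h3
      simp only [hp]
      linarith
    have h4 := h1 (max 0 ((u - f (fun _ : ι => β + 1)) / (- p l))) (le_max_left _ _)
    have h5 : (u - f (fun _ : ι => β + 1)) ≤
        max 0 ((u - f (fun _ : ι => β + 1)) / (- p l)) * (- p l) := by
      have h6 : 0 < - p l := by linarith
      calc (u - f (fun _ : ι => β + 1)) = (u - f (fun _ : ι => β + 1)) / (- p l) * (- p l) :=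
            (div_mul_cancel₀ _ h6.ne').symm
        _ ≤ _ := mul_le_mul_of_nonneg_right (le_max_right _ _) h6.le
    linarith
  set P := ∑ l, p l with hP
  have hP0 : 0 < P := by
    have h1 : 0 ≤ P := Finset.sum_nonneg fun l _ => hp0 l
    rcases eq_or_lt_of_le h1 with h2 | h2
    · exfalso
      have h3 : ∀ l, p l = 0 := by
        intro l
        exact (Finset.sum_eq_zero_iff_of_nonneg (fun l _ => hp0 l)).mp h2.symm l
          (Finset.mem_univ l)
      have h4 : ∀ v, f v = 0 := by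
        intro v
        rw [hfv]
        simp [h3]
      obtain ⟨y, hy⟩ := hne
      have h5 := hf2 (G y) ⟨y, hy, rfl⟩
      have h6 := hf1 _ (hmemS 1 one_pos)
      rw [h4] at h5 h6
      linarith
    · exact h2
  refine ⟨fun l => p l / P, fun l => div_nonneg (hp0 l) hP0.le, ?_, ?_⟩
  · rw [← Finset.sum_div]
    exact div_self hP0.ne'
  · intro y hy
    have h1 := hf2 (G y) ⟨y, hy, rfl⟩
    rw [hfv] at h1
    have h2 : ∀ δ : ℝ, 0 < δ → ∑ l, p l * g l y ≤ (β + δ) * P := by
      intro δ hδ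
      have h3 := hf1 _ (hmemS δ hδ)
      rw [hfv, ← Finset.sum_mul] at h3
      simp only [hG, LinearMap.pi_apply] at h1
      rw [mul_comm]
      linarith
    have h3 : ∑ l, p l * g l y ≤ β * P := by
      apply le_of_forall_pos_le_add
      intro δ hδ
      have := h2 (δ / P) (by positivity)
      have h4 : (β + δ / P) * P = β * P + δ := by field_simp
      linarith
    have h5 : ∑ l, p l / P * g l y = (∑ l, p l * g l y) / P := by
      rw [Finset.sum_div]
      apply Finset.sum_congr rfl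
      intro l _
      ring
    rw [h5, div_le_iff₀ hP0]
    exact h3

end Vale.Agent.P126
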